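import Vale.Agent.P146.R3.H732.Clt

/-!
# P146: the central limit theorem for the smoothed free energy
-/

open MeasureTheory ProbabilityTheory Finset Filter Topology

namespace Vale.Agent.P146.R3.H732

open Vale.Agent.P146 Vale.Agent.P146.Ub.Cv Vale.Agent.P146.H605 Vale.Agent.P146.H453
  Vale.Agent.P146.R2

variable {β : ℝ} {m : ℕ → ℝ} {κ : Type*} {s : Finset κ} {c τ : κ → ℝ}

/-- the error of the truncation tends to zero -/
lemma tendsto_err (A β : ℝ) (L : ℕ) : Tendsto (fun n : ℕ =>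
    A * Real.sqrt (β ^ 2 * n / (2 * (((L + n ^ 2 : ℕ) : ℝ) + 2)))) atTop (𝓝 0) := by
  have h1 : Tendsto (fun n : ℕ => β ^ 2 * n / (2 * (((L + n ^ 2 : ℕ) : ℝ) + 2))) atTop (𝓝 0) := by
    have h2 : Tendsto (fun n : ℕ => β ^ 2 / 2 / (n : ℝ)) atTop (𝓝 0) :=
      tendsto_const_nhds.div_atTop tendsto_natCast_atTop_atTop
    refine squeeze_zero' (Eventually.of_forall fun n => by positivity) ?_ h2
    filter_upwards [eventually_ge_atTop 1] with n hn
    have hn0 : (0 : ℝ) < n := by exact_mod_cast hn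
    rw [div_le_div_iff₀ (by positivity) hn0]
    push_cast
    have hL : (0 : ℝ) ≤ L := Nat.cast_nonneg L
    have hb : 0 ≤ β ^ 2 := sq_nonneg β
    nlinarith [mul_nonneg hb hL]
  have h2 := ((Real.continuous_sqrt.tendsto 0).comp h1).const_mul A
  rw [Real.sqrt_zero, mul_zero] at h2
  exact h2

/-- the characteristic function of the linear combination converges -/
theorem tendsto_trig (hβ : β ≠ 0) (hm0 : m 0 = 1) (hm : ∀ k, |m k| ≤ k + 1)
    (hT : ChebLim) (hP : ∀ k, Tendsto (fun n => pn' β n k) atTop (𝓝 (m k)))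
    (hX : ∀ t : ℝ, 0 ≤ t → t < 1 →
      Tendsto (fun n : ℕ => n * crossOverlap n β t) atTop (𝓝 (∑' k : ℕ, t ^ k * m k ^ 2)))
    (hτ : ∀ i ∈ s, 0 ≤ τ i ∧ τ i < 1) (x : ℝ) :
    Tendsto (fun n : ℕ => ∫ z, Real.cos (x * XX s c τ n β z) ∂(gpi (Pair n))) atTop
      (𝓝 (Real.exp (-(KK' β m s c τ * x ^ 2 / 2)))) ∧
    Tendsto (fun n : ℕ => ∫ z, Real.sin (x * XX s c τ n β z) ∂(gpi (Pair n))) atTop (𝓝 0) := by
  obtain ⟨T, hT0, hT1, hTb⟩ := exists_bound hτ
  obtain ⟨K, hK⟩ : ∃ K, K = KK' β m s c τ := ⟨_, rfl⟩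
  have hK0 : 0 ≤ K := by
    rw [hK]
    exact KK_nonneg hm0 hm hβ hτ
  have hS := hasSum_wgt (c := c) hm0 hm hβ hτ
  rw [← hK] at hS
  have hKS : β ^ 2 / 2 * ((wgt' s c τ 1 ^ 2 + 2 / β ^ 2 * K) - wgt' s c τ 1 ^ 2) = K := by
    have : β ^ 2 ≠ 0 := pow_ne_zero 2 hβ
    field_simp
    ring
  -- the main estimate
  have key : ∀ ε : ℝ, 0 < ε → ∀ᶠ n : ℕ in atTop,
      |∫ z, Real.cos (x * XX s c τ n β z) ∂(gpi (Pair n)) -
        Real.exp (-(K * x ^ 2 / 2))| < ε ∧
      |∫ z, Real.sin (x * XX s c τ n β z) ∂(gpi (Pair n))| < ε := by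
    intro ε hε
    obtain ⟨L, hL⟩ := tendsto_DD hT hP hT0 hT1.le (summable_m hm hT0 hT1) (hX T hT0 hT1)
      (sq_nonneg (∑ i ∈ s, |c i|)) (fun k => wgt_sq_le hT0 hT1.le hTb k) hS
      (ε := ε / (4 * (x ^ 2 + 1))) (by positivity)
    rw [hKS] at hL
    have herr := (tendsto_err (|x| * ∑ i ∈ s, |c i|) β L).eventually
      (gt_mem_nhds (show (0 : ℝ) < ε / 4 by positivity))
    filter_upwards [hL, herr, eventually_ge_atTop 1] with n h1 h2 hn
    have h3 := h1 (L + n ^ 2) (by omega)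
    have dp := dom_hp ((ML n (L + n ^ 2 + 1)).erase 0) (cw n β (wgt' s c τ))
    have h0 : (0 : MI n) ∉ (ML n (L + n ^ 2 + 1)).erase 0 := Finset.notMem_erase _ _
    obtain ⟨h4, h5⟩ := clt_hp h0 (cw n β (wgt' s c τ)) hK0 h3 x
    have h6 : x ^ 2 * (ε / (4 * (x ^ 2 + 1))) ≤ ε / 4 := by
      have h7 : x ^ 2 * (ε / (4 * (x ^ 2 + 1))) = x ^ 2 / (x ^ 2 + 1) * (ε / 4) := by
        field_simp
      rw [h7]
      have h8 : x ^ 2 / (x ^ 2 + 1) ≤ 1 := by
        rw [div_le_one (by positivity)]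
        linarith
      calc x ^ 2 / (x ^ 2 + 1) * (ε / 4) ≤ 1 * (ε / 4) :=
            mul_le_mul_of_nonneg_right h8 (by positivity)
        _ = ε / 4 := one_mul _
    have h7 := XX_dist (c := c) (β := β) hn hτ (L + n ^ 2)
    have hXi := XX_int (c := c) (n := n) (β := β) hτ
    have hdist : ∀ G : ℝ → ℝ, Continuous G → (∀ y, |G y| ≤ 1) → (∀ y y', |G y - G y'| ≤ |y - y'|) →
        |∫ z, G (x * XX s c τ n β z) ∂(gpi (Pair n)) -
          ∫ z, G (x * hp ((ML n (L + n ^ 2 + 1)).erase 0) (cw n β (wgt' s c τ)) z)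
            ∂(gpi (Pair n))| < ε / 4 := by
      intro G cG bG lG
      have i1 : Integrable (fun z => G (x * XX s c τ n β z)) (gpi (Pair n)) := by
        refine Integrable.mono' (integrable_const (1 : ℝ))
          (cG.comp_aestronglyMeasurable (hXi.const_mul x).1) (Eventually.of_forall fun z => ?_)
        rw [Real.norm_eq_abs]
        exact bG _
      have i2 : Integrable (fun z => G (x * hp ((ML n (L + n ^ 2 + 1)).erase 0)
          (cw n β (wgt' s c τ)) z)) (gpi (Pair n)) :=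
        (dom_comp cG bG (dp.const_mul x)).integrable
      rw [← integral_sub i1 i2]
      refine lt_of_le_of_lt abs_integral_le_integral_abs (lt_of_le_of_lt ?_ h2)
      have i3 : Integrable (fun z => |x| * |XX s c τ n β z -
          hp ((ML n (L + n ^ 2 + 1)).erase 0) (cw n β (wgt' s c τ)) z|) (gpi (Pair n)) :=
        ((hXi.sub dp.integrable).abs).const_mul _
      refine (integral_mono (i1.sub i2).abs i3 fun z => ?_).trans ?_
      · simp only [Pi.sub_apply]
        refine (lG _ _).trans (le_of_eq ?_)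
        rw [← mul_sub, abs_mul]
      · rw [integral_const_mul, mul_assoc]
        exact mul_le_mul_of_nonneg_left h7 (abs_nonneg _)
    have g1 := hdist Real.cos Real.continuous_cos Real.abs_cos_le_one Real.abs_cos_sub_cos_le
    have g2 := hdist Real.sin Real.continuous_sin Real.abs_sin_le_one Real.abs_sin_sub_sin_le
    constructor
    · have := abs_sub_le (∫ z, Real.cos (x * XX s c τ n β z) ∂(gpi (Pair n)))
        (∫ z, Real.cos (x * hp ((ML n (L + n ^ 2 + 1)).erase 0) (cw n β (wgt' s c τ)) z)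
            ∂(gpi (Pair n))) (Real.exp (-(K * x ^ 2 / 2)))
      linarith
    · have h8 := abs_add_le (∫ z, Real.sin (x * XX s c τ n β z) ∂(gpi (Pair n)) -
        ∫ z, Real.sin (x * hp ((ML n (L + n ^ 2 + 1)).erase 0) (cw n β (wgt' s c τ)) z)
            ∂(gpi (Pair n)))
        (∫ z, Real.sin (x * hp ((ML n (L + n ^ 2 + 1)).erase 0) (cw n β (wgt' s c τ)) z)
            ∂(gpi (Pair n)))
      rw [sub_add_cancel] at h8
      linarith
  rw [← hK]
  constructor
  · rw [Metric.tendsto_atTop]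
    intro ε hε
    obtain ⟨N, hN⟩ := eventually_atTop.1 (key ε hε)
    exact ⟨N, fun n hn => by rw [Real.dist_eq]; exact (hN n hn).1⟩
  · rw [Metric.tendsto_atTop]
    intro ε hε
    obtain ⟨N, hN⟩ := eventually_atTop.1 (key ε hε)
    exact ⟨N, fun n hn => by rw [Real.dist_eq, sub_zero]; exact (hN n hn).2⟩

/-- **The central limit theorem for the smoothed free energies.**  For every finite linear
combination of the conditional expectations `E[F_n(√τ z + √(1-τ) g) | z] - E F_n`. -/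
theorem clt (hβ : β ≠ 0) (hm0 : m 0 = 1) (hm : ∀ k, |m k| ≤ k + 1)
    (hT : ChebLim) (hP : ∀ k, Tendsto (fun n => pn' β n k) atTop (𝓝 (m k)))
    (hX : ∀ t : ℝ, 0 ≤ t → t < 1 →
      Tendsto (fun n : ℕ => n * crossOverlap n β t) atTop (𝓝 (∑' k : ℕ, t ^ k * m k ^ 2)))
    (hτ : ∀ i ∈ s, 0 ≤ τ i ∧ τ i < 1) (φ : BoundedContinuousFunction ℝ ℝ) :
    Tendsto (fun n : ℕ => ∫ z, φ (XX s c τ n β z) ∂(gpi (Pair n))) atTop
      (𝓝 (∫ y, φ y ∂(gaussianReal 0 (KK' β m s c τ).toNNReal))) := by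
  have hmeas : ∀ n : ℕ, AEMeasurable (XX s c τ n β) (gpi (Pair n)) := fun n =>
    (XX_int hτ).1.aemeasurable
  obtain ⟨μ, hμ⟩ : ∃ μ : ℕ → ProbabilityMeasure ℝ, ∀ n, (μ n : Measure ℝ) =
      (gpi (Pair n)).map (XX s c τ n β) :=
    ⟨fun n => ⟨(gpi (Pair n)).map (XX s c τ n β), Measure.isProbabilityMeasure_map (hmeas n)⟩,
      fun n => rfl⟩
  obtain ⟨μ₀, hμ₀⟩ : ∃ μ₀ : ProbabilityMeasure ℝ, (μ₀ : Measure ℝ) =
      gaussianReal 0 (KK' β m s c τ).toNNReal :=
    ⟨⟨gaussianReal 0 (KK' β m s c τ).toNNReal, inferInstance⟩, rfl⟩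
  have hlim : Tendsto μ atTop (𝓝 μ₀) := by
    refine ProbabilityMeasure.tendsto_of_tendsto_charFun fun x => ?_
    obtain ⟨h1, h2⟩ := tendsto_trig (c := c) hβ hm0 hm hT hP hX hτ x
    have h3 : ∀ n, charFun (μ n : Measure ℝ) x =
        ((∫ z, Real.cos (x * XX s c τ n β z) ∂(gpi (Pair n)) : ℝ) : ℂ) +
          ((∫ z, Real.sin (x * XX s c τ n β z) ∂(gpi (Pair n)) : ℝ) : ℂ) * Complex.I := by
      intro n
      have hXi := XX_int (c := c) (n := n) (β := β) hτ
      rw [hμ, charFun_apply_real, integral_map (hmeas n) (by fun_prop)]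
      have i1 : Integrable (fun z => Real.cos (x * XX s c τ n β z)) (gpi (Pair n)) := by
        refine Integrable.mono' (integrable_const (1 : ℝ))
          (Real.continuous_cos.comp_aestronglyMeasurable (hXi.const_mul x).1)
          (Eventually.of_forall fun z => ?_)
        rw [Real.norm_eq_abs]
        exact Real.abs_cos_le_one _
      have i2 : Integrable (fun z => Real.sin (x * XX s c τ n β z)) (gpi (Pair n)) := by
        refine Integrable.mono' (integrable_const (1 : ℝ))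
          (Real.continuous_sin.comp_aestronglyMeasurable (hXi.const_mul x).1)
          (Eventually.of_forall fun z => ?_)
        rw [Real.norm_eq_abs]
        exact Real.abs_sin_le_one _
      have e1 : ∀ z, Complex.exp ((x : ℂ) * (XX s c τ n β z : ℝ) * Complex.I) =
          ((Real.cos (x * XX s c τ n β z) : ℝ) : ℂ) +
            ((Real.sin (x * XX s c τ n β z) : ℝ) : ℂ) * Complex.I := by
        intro z
        rw [Complex.exp_mul_I]
        push_cast
        rfl
      simp_rw [e1]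
      rw [integral_add i1.ofReal (i2.ofReal.mul_const _), integral_mul_const,
        integral_complex_ofReal, integral_complex_ofReal]
    simp_rw [h3]
    have h4 : charFun (μ₀ : Measure ℝ) x =
        ((Real.exp (-(KK' β m s c τ * x ^ 2 / 2)) : ℝ) : ℂ) + ((0 : ℝ) : ℂ) * Complex.I := by
      have hK0 : 0 ≤ KK' β m s c τ := KK_nonneg hm0 hm hβ hτ
      rw [hμ₀, charFun_gaussianReal]
      have h5 : (((KK' β m s c τ).toNNReal : ℝ) : ℂ) = (KK' β m s c τ : ℝ) := by
        rw [Real.coe_toNNReal _ hK0]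
      rw [show (((KK' β m s c τ).toNNReal : NNReal) : ℂ) =
        (((KK' β m s c τ).toNNReal : ℝ) : ℂ) from rfl, h5]
      push_cast
      simp
    rw [h4]
    exact ((Complex.continuous_ofReal.tendsto _).comp h1).add
      (((Complex.continuous_ofReal.tendsto _).comp h2).mul_const _)
  rw [ProbabilityMeasure.tendsto_iff_forall_integral_tendsto] at hlim
  have h5 := hlim φ
  rw [hμ₀] at h5
  refine h5.congr fun n => ?_
  rw [hμ, integral_map (hmeas n) φ.continuous.aestronglyMeasurable]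

end Vale.Agent.P146.R3.H732
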