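import Vale.Agent.P146.R3.H732.Kern

/-!
# P146: approximation of the kernels by sums over self-avoiding paths
-/

open MeasureTheory ProbabilityTheory Finset

namespace Vale.Agent.P146.R3.H732

open Vale.Agent.P146 Vale.Agent.P146.Ub.Cv Vale.Agent.P146.H605 Vale.Agent.P146.H453
  Vale.Agent.P146.R2
open Vale.Agent.P146.R2.H749 (dom_heM orth co_const_mul co_sum)

section gen

variable {ι : Type*} [Fintype ι] [DecidableEq ι]

lemma int_hp_heM (S : Finset (ι → ℕ)) (c : (ι → ℕ) → ℝ) {α : ι → ℕ} (hα : α ∈ S) :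
    ∫ z, hp S c z * heM α z ∂(gpi ι) = c α * ∏ i, ((α i).factorial : ℝ) := by
  have h5 : co (hp S c) α = ∑ β ∈ S, co (fun z => c β * heM β z) α :=
    co_sum S (fun β _ => (dom_heM β).const_mul _) α
  have h6 : ∫ z, hp S c z * heM α z ∂(gpi ι) = co (hp S c) α := rfl
  rw [h6, h5, Finset.sum_eq_single α]
  · rw [co_const_mul, orth _ α α le_rfl, if_pos rfl]
  · intro β _ hβ
    rw [co_const_mul, orth _ β α le_rfl, if_neg hβ, mul_zero]
  · intro h
    exact absurd hα h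

lemma int_hp_sq (S : Finset (ι → ℕ)) (c : (ι → ℕ) → ℝ) :
    ∫ z, hp S c z ^ 2 ∂(gpi ι) = ∑ α ∈ S, c α ^ 2 * ∏ i, ((α i).factorial : ℝ) := by
  have h1 : ∀ z, hp S c z ^ 2 = ∑ α ∈ S, c α * (hp S c z * heM α z) := by
    intro z
    rw [sq]
    conv_lhs => rw [show hp S c z * hp S c z = hp S c z * ∑ α ∈ S, c α * heM α z from rfl]
    rw [Finset.mul_sum]
    exact Finset.sum_congr rfl fun α _ => by ring
  simp_rw [h1]
  rw [int_sum _ fun α _ => ((dom_hp S c).mul (dom_heM α)).const_mul _]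
  refine Finset.sum_congr rfl fun α hα => ?_
  rw [integral_const_mul, int_hp_heM S c hα]
  ring

omit [DecidableEq ι] in
lemma sub_gen {S S' : Finset (ι → ℕ)} (h : S' ⊆ S) (c : (ι → ℕ) → ℝ) (z : ι → ℝ) :
    hp S c z - hp S' c z = hp (S \ S') c z := by
  unfold hp
  rw [← Finset.sum_sdiff h]
  ring

end gen

variable {n : ℕ}

/-- the normalised inner product of two kernels -/
noncomputable def ip (a b : Fin n → Fin n → (Pair n → ℝ) → ℝ) (z : Pair n → ℝ) : ℝ :=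
  (n : ℝ)⁻¹ * ∑ j : Fin n, ∑ v : Fin n, a j v z * b j v z

/-- the normalised squared norm of a kernel -/
noncomputable def nn (a : Fin n → Fin n → (Pair n → ℝ) → ℝ) : ℝ :=
  (n : ℝ)⁻¹ * ∑ j : Fin n, ∑ v : Fin n, ∫ z, a j v z ^ 2 ∂(gpi (Pair n))

lemma dom_ip {a b : Fin n → Fin n → (Pair n → ℝ) → ℝ} (ha : ∀ j v, Dom (a j v))
    (hb : ∀ j v, Dom (b j v)) : Dom (ip a b) :=
  (Dom.sum _ fun j _ => Dom.sum _ fun v _ => (ha j v).mul (hb j v)).const_mul _

lemma int_ip {a b : Fin n → Fin n → (Pair n → ℝ) → ℝ} (ha : ∀ j v, Dom (a j v))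
    (hb : ∀ j v, Dom (b j v)) : ∫ z, ip a b z ∂(gpi (Pair n)) =
      (n : ℝ)⁻¹ * ∑ j : Fin n, ∑ v : Fin n, ∫ z, a j v z * b j v z ∂(gpi (Pair n)) := by
  unfold ip
  rw [integral_const_mul, int_sum _ fun j _ => Dom.sum _ fun v _ => (ha j v).mul (hb j v)]
  congr 1
  exact Finset.sum_congr rfl fun j _ => int_sum _ fun v _ => (ha j v).mul (hb j v)

lemma nn_eq {a : Fin n → Fin n → (Pair n → ℝ) → ℝ} (ha : ∀ j v, Dom (a j v)) :
    nn a = ∫ z, ip a a z ∂(gpi (Pair n)) := by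
  rw [int_ip ha ha]
  unfold nn
  simp only [sq]

lemma nn_nonneg (a : Fin n → Fin n → (Pair n → ℝ) → ℝ) : 0 ≤ nn a := by
  unfold nn
  exact mul_nonneg (by positivity) (Finset.sum_nonneg fun j _ => Finset.sum_nonneg fun v _ =>
    integral_nonneg fun z => sq_nonneg _)

lemma amgm (a b a' b' : ℝ) {η : ℝ} (hη : 0 < η) : |a * b - a' * b'| ≤
    (η / 2 * a ^ 2 + η / 2 * b' ^ 2) + (1 / (2 * η) * (a - a') ^ 2 + 1 / (2 * η) * (b - b') ^ 2) := by
  have key : ∀ x y : ℝ, |x * y| ≤ η / 2 * x ^ 2 + 1 / (2 * η) * y ^ 2 := by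
    intro x y
    have h1 : 0 ≤ (Real.sqrt η * |x| - (Real.sqrt η)⁻¹ * |y|) ^ 2 := sq_nonneg _
    have h2 : Real.sqrt η ^ 2 = η := Real.sq_sqrt hη.le
    have h3 : Real.sqrt η * (Real.sqrt η)⁻¹ = 1 :=
      mul_inv_cancel₀ (Real.sqrt_pos.2 hη).ne'
    have h4 : (Real.sqrt η)⁻¹ ^ 2 = 1 / η := by rw [inv_pow, h2, one_div]
    have h5 : (Real.sqrt η * |x| - (Real.sqrt η)⁻¹ * |y|) ^ 2 =
        η * x ^ 2 - 2 * (|x| * |y|) + 1 / η * y ^ 2 := by
      have : (Real.sqrt η * |x| - (Real.sqrt η)⁻¹ * |y|) ^ 2 =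
          Real.sqrt η ^ 2 * |x| ^ 2 - 2 * (Real.sqrt η * (Real.sqrt η)⁻¹) * (|x| * |y|) +
            (Real.sqrt η)⁻¹ ^ 2 * |y| ^ 2 := by ring
      rw [this, h2, h3, h4, sq_abs, sq_abs]
      ring
    rw [h5] at h1
    rw [abs_mul]
    have h6 : 1 / (2 * η) * y ^ 2 = 1 / 2 * (1 / η * y ^ 2) := by
      field_simp
    rw [h6]
    linarith
  have h1 : a * b - a' * b' = a * (b - b') + b' * (a - a') := by ring
  have h2 := key a (b - b')
  have h3 := key b' (a - a')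
  rw [h1]
  refine (abs_add_le _ _).trans ?_
  linarith

/-- the difference of two inner products -/
lemma ip_diff {a b a' b' : Fin n → Fin n → (Pair n → ℝ) → ℝ} (ha : ∀ j v, Dom (a j v))
    (hb : ∀ j v, Dom (b j v)) (ha' : ∀ j v, Dom (a' j v)) (hb' : ∀ j v, Dom (b' j v)) {η : ℝ}
    (hη : 0 < η) : ∫ z, |ip a b z - ip a' b' z| ∂(gpi (Pair n)) ≤
      η / 2 * (nn a + nn b') + 1 / (2 * η) * (nn (fun j v z => a j v z - a' j v z) +
        nn (fun j v z => b j v z - b' j v z)) := by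
  have da : ∀ j v, Dom (fun z => a j v z - a' j v z) := fun j v => (ha j v).sub (ha' j v)
  have db : ∀ j v, Dom (fun z => b j v z - b' j v z) := fun j v => (hb j v).sub (hb' j v)
  have h1 : ∀ z, |ip a b z - ip a' b' z| ≤ (η / 2 * ip a a z + η / 2 * ip b' b' z) +
      (1 / (2 * η) * ip (fun j v z => a j v z - a' j v z) (fun j v z => a j v z - a' j v z) z +
        1 / (2 * η) * ip (fun j v z => b j v z - b' j v z) (fun j v z => b j v z - b' j v z) z) := by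
    intro z
    have e1 : ip a b z - ip a' b' z = (n : ℝ)⁻¹ * ∑ j : Fin n, ∑ v : Fin n,
        (a j v z * b j v z - a' j v z * b' j v z) := by
      unfold ip
      rw [← mul_sub, ← Finset.sum_sub_distrib]
      congr 1
      exact Finset.sum_congr rfl fun j _ => (Finset.sum_sub_distrib _ _).symm
    have e2 : (η / 2 * ip a a z + η / 2 * ip b' b' z) +
      (1 / (2 * η) * ip (fun j v z => a j v z - a' j v z) (fun j v z => a j v z - a' j v z) z +
        1 / (2 * η) * ip (fun j v z => b j v z - b' j v z) (fun j v z => b j v z - b' j v z) z) =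
        (n : ℝ)⁻¹ * ∑ j : Fin n, ∑ v : Fin n,
          ((η / 2 * a j v z ^ 2 + η / 2 * b' j v z ^ 2) +
            (1 / (2 * η) * (a j v z - a' j v z) ^ 2 + 1 / (2 * η) * (b j v z - b' j v z) ^ 2)) := by
      unfold ip
      simp only [Finset.sum_add_distrib, ← Finset.mul_sum, sq]
      ring
    rw [e1, e2, abs_mul, abs_of_nonneg (by positivity : (0 : ℝ) ≤ (n : ℝ)⁻¹)]
    refine mul_le_mul_of_nonneg_left ?_ (by positivity)
    refine (Finset.abs_sum_le_sum_abs _ _).trans (Finset.sum_le_sum fun j _ => ?_)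
    refine (Finset.abs_sum_le_sum_abs _ _).trans (Finset.sum_le_sum fun v _ => ?_)
    exact amgm _ _ _ _ hη
  have d1 := dom_ip ha ha
  have d2 := dom_ip hb' hb'
  have d3 := dom_ip da da
  have d4 := dom_ip db db
  have h2 := integral_mono (μ := gpi (Pair n))
    ((dom_ip ha hb).sub (dom_ip ha' hb')).integrable.abs
    (((d1.const_mul (η / 2)).add (d2.const_mul (η / 2))).add
      ((d3.const_mul (1 / (2 * η))).add (d4.const_mul (1 / (2 * η))))).integrable h1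
  refine h2.trans (le_of_eq ?_)
  rw [int_add ((d1.const_mul (η / 2)).add (d2.const_mul (η / 2)))
      ((d3.const_mul (1 / (2 * η))).add (d4.const_mul (1 / (2 * η)))),
    int_add (d1.const_mul (η / 2)) (d2.const_mul (η / 2)),
    int_add (d3.const_mul (1 / (2 * η))) (d4.const_mul (1 / (2 * η))),
    integral_const_mul, integral_const_mul, integral_const_mul, integral_const_mul,
    ← nn_eq ha, ← nn_eq hb', ← nn_eq da, ← nn_eq db]
  ring

/-! ### the path part of the kernel -/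

/-- the normalised path coefficients -/
noncomputable def pp (n : ℕ) (β : ℝ) (k : ℕ) : ℝ := Real.sqrt n ^ k * cp n β k

/-- the path part of the kernel -/
noncomputable def AA (β : ℝ) (w : ℕ → ℝ) (L : ℕ) (j v : Fin n) (z : Pair n → ℝ) : ℝ :=
  hp (SP j v L) (kw β w j v) z

lemma dom_AA (β : ℝ) (w : ℕ → ℝ) (L : ℕ) (j v : Fin n) : Dom (AA β w L j v) := dom_hp _ _

lemma kw_pa (β : ℝ) (w : ℕ → ℝ) {j v : Fin n} {k : ℕ} {u : Fin (k + 1) ↪ Fin n}
    (hu : u ∈ PE j v k) : kw β w j v (pa u) = w (k + 1) * cp n β k := by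
  rw [mem_PE] at hu
  unfold kw
  have h := co_pa β u.injective
  rw [hu.1, hu.2] at h
  rw [fac_pa u.injective, tot_pa u.injective, h, div_one]

lemma AA_eq (hn : 1 ≤ n) (β : ℝ) (w : ℕ → ℝ) (L : ℕ) (j v : Fin n) (z : Pair n → ℝ) :
    AA β w L j v z = ∑ k ∈ range L, w (k + 1) * pp n β k * saw k j v z := by
  have hn0 : (0 : ℝ) < n := by exact_mod_cast hn
  unfold AA hp
  rw [sum_SP]
  refine Finset.sum_congr rfl fun k _ => ?_
  rw [Finset.sum_congr rfl fun u hu => by rw [kw_pa β w hu], ← Finset.mul_sum]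
  unfold pp saw
  have h1 : Real.sqrt n ^ k * (Real.sqrt n)⁻¹ ^ k = 1 := by
    rw [← mul_pow, mul_inv_cancel₀ (Real.sqrt_pos.2 hn0).ne', one_pow]
  linear_combination (-(w (k + 1) * cp n β k * ∑ u ∈ PE j v k, heM (pa u) z)) * h1

/-- the path part of the overlap -/
noncomputable def RP (n : ℕ) (β t : ℝ) (L : ℕ) : ℝ :=
  ∑ k ∈ range L, t ^ k * pp n β k ^ 2 * ((n.descFactorial (k + 1) : ℝ) / n ^ (k + 1))

lemma sum_SP_wt (hn : 1 ≤ n) (β t : ℝ) (L : ℕ) :
    (n : ℝ)⁻¹ * ∑ j : Fin n, ∑ v : Fin n, ∑ α ∈ SP j v L, H453.wt t α * co (f2 β j v) α ^ 2 =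
      RP n β t L := by
  have hn0 : (0 : ℝ) < n := by exact_mod_cast hn
  have h1 : ∀ j v : Fin n, ∑ α ∈ SP j v L, H453.wt t α * co (f2 β j v) α ^ 2 =
      ∑ k ∈ range L, t ^ k * cp n β k ^ 2 * ((PE j v k).card : ℝ) := by
    intro j v
    rw [sum_SP]
    refine Finset.sum_congr rfl fun k _ => ?_
    have h2 : ∀ u ∈ PE j v k, H453.wt t (pa u) * co (f2 β j v) (pa u) ^ 2 =
        t ^ k * cp n β k ^ 2 := by
      intro u hu
      rw [mem_PE] at hu
      have h := co_pa β u.injective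
      rw [hu.1, hu.2] at h
      unfold H453.wt
      rw [fac_pa u.injective, tot_pa u.injective, h, div_one]
    rw [Finset.sum_congr rfl h2, Finset.sum_const, nsmul_eq_mul]
    ring
  simp_rw [h1]
  have h3 : ∑ j : Fin n, ∑ v : Fin n, ∑ k ∈ range L, t ^ k * cp n β k ^ 2 *
      ((PE j v k).card : ℝ) = ∑ k ∈ range L, t ^ k * cp n β k ^ 2 *
        (n.descFactorial (k + 1) : ℝ) := by
    have h4 : ∀ j : Fin n, ∑ v : Fin n, ∑ k ∈ range L, t ^ k * cp n β k ^ 2 *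
        ((PE j v k).card : ℝ) = ∑ k ∈ range L, ∑ v : Fin n, t ^ k * cp n β k ^ 2 *
          ((PE j v k).card : ℝ) := fun j => Finset.sum_comm
    simp_rw [h4]
    rw [Finset.sum_comm]
    refine Finset.sum_congr rfl fun k _ => ?_
    simp only [← Finset.mul_sum]
    congr 1
    rw [← sum_card_PE n k]
    push_cast
    rfl
  rw [h3, Finset.mul_sum]
  unfold RP pp
  refine Finset.sum_congr rfl fun k _ => ?_
  rw [mul_pow, ← pow_mul, mul_comm k 2, pow_mul, Real.sq_sqrt hn0.le]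
  have hnk : (n : ℝ) ^ k ≠ 0 := by positivity
  field_simp
  ring

/-- the norm of a part of the kernel -/
lemma part_le {w : ℕ → ℝ} {C t : ℝ} (hw : ∀ k, w (k + 1) ^ 2 ≤ C * t ^ k)
    (β : ℝ) (j v : Fin n) (S : Finset (MI n)) :
    ∫ z, hp S (kw β w j v) z ^ 2 ∂(gpi (Pair n)) ≤
      C * ∑ α ∈ S, H453.wt t α * co (f2 β j v) α ^ 2 := by
  rw [int_hp_sq, Finset.mul_sum]
  refine Finset.sum_le_sum fun α _ => ?_
  unfold kw H453.wt
  obtain ⟨f, hf⟩ : ∃ f, f = ∏ e, ((α e).factorial : ℝ) := ⟨_, rfl⟩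
  have hf0 : 0 < f := by rw [hf]; positivity
  rw [← hf]
  have h1 := hw (H453.tot α)
  have h2 : 0 ≤ co (f2 β j v) α ^ 2 / f := by positivity
  calc (w (H453.tot α + 1) * co (f2 β j v) α / f) ^ 2 * f =
      w (H453.tot α + 1) ^ 2 * (co (f2 β j v) α ^ 2 / f) := by
        field_simp
    _ ≤ (C * t ^ H453.tot α) * (co (f2 β j v) α ^ 2 / f) := mul_le_mul_of_nonneg_right h1 h2
    _ = C * (t ^ H453.tot α / f * co (f2 β j v) α ^ 2) := by ring

variable {β : ℝ} {w : ℕ → ℝ} {C t : ℝ}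

lemma bessel_f2 (β : ℝ) (h0 : 0 ≤ t) (h1 : t ≤ 1) (j v : Fin n) (S : Finset (MI n)) :
    ∑ α ∈ S, H453.wt t α * co (f2 β j v) α ^ 2 ≤ QQ (f2 β j v) t :=
  H749.bessel (f2_dom β j v) h0 h1 S

lemma sum_QQ (hn : 1 ≤ n) (h0 : 0 ≤ t) (h1 : t ≤ 1) :
    (n : ℝ)⁻¹ * ∑ j : Fin n, ∑ v : Fin n, QQ (f2 β j v) t = n * crossOverlap n β t :=
  (crossOverlap_QQ β hn h0 h1).symm

lemma nn_part_le (hn : 1 ≤ n) (hC : 0 ≤ C) (h0 : 0 ≤ t) (h1 : t ≤ 1)
    (hw : ∀ k, w (k + 1) ^ 2 ≤ C * t ^ k) (S : Fin n → Fin n → Finset (MI n)) :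
    nn (fun j v z => hp (S j v) (kw β w j v) z) ≤ C * (n * crossOverlap n β t) := by
  rw [← sum_QQ hn h0 h1, mul_left_comm, Finset.mul_sum]
  unfold nn
  refine mul_le_mul_of_nonneg_left (Finset.sum_le_sum fun j _ => ?_) (by positivity)
  rw [Finset.mul_sum]
  refine Finset.sum_le_sum fun v _ => ?_
  exact (part_le hw β j v (S j v)).trans
    (mul_le_mul_of_nonneg_left (bessel_f2 β h0 h1 j v _) hC)

/-- **The error of the path approximation.** -/
theorem nn_diff_le (hn : 1 ≤ n) (hC : 0 ≤ C) (h0 : 0 ≤ t) (h1 : t ≤ 1)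
    (hw : ∀ k, w (k + 1) ^ 2 ≤ C * t ^ k) {L M : ℕ} (hL : L ≤ M + 1) :
    nn (fun j v z => GG' (n := n) β w M j v z - AA β w L j v z) ≤
      C * (n * crossOverlap n β t - RP n β t L) := by
  rw [← sum_QQ hn h0 h1, ← sum_SP_wt hn, ← mul_sub, mul_left_comm, ← Finset.sum_sub_distrib,
    Finset.mul_sum]
  unfold nn
  refine mul_le_mul_of_nonneg_left (Finset.sum_le_sum fun j _ => ?_) (by positivity)
  rw [← Finset.sum_sub_distrib, Finset.mul_sum]
  refine Finset.sum_le_sum fun v _ => ?_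
  have hsub := SP_sub j v hL
  have e1 : ∀ z, GG' β w M j v z - AA β w L j v z = hp (ML n M \ SP j v L) (kw β w j v) z :=
    fun z => sub_gen hsub _ z
  simp_rw [e1]
  refine (part_le hw β j v _).trans (mul_le_mul_of_nonneg_left ?_ hC)
  have h2 := bessel_f2 β h0 h1 j v (ML n M)
  rw [← Finset.sum_sdiff hsub] at h2
  linarith

end Vale.Agent.P146.R3.H732
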