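import Vale.Agent.P146.R3.H732.Smo
import Mathlib.MeasureTheory.Measure.LevyConvergence

/-!
# P146: the central limit theorem for the smoothed free energy
-/

open MeasureTheory ProbabilityTheory Finset Filter Topology

namespace Vale.Agent.P146.R3.H732

open Vale.Agent.P146 Vale.Agent.P146.Ub.Cv Vale.Agent.P146.H605 Vale.Agent.P146.H453
  Vale.Agent.P146.R2

/-! ### linear combinations of smoothed free energies -/

section comb

variable {κ : Type*} (s : Finset κ) (c τ : κ → ℝ)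

/-- the weight of a linear combination -/
noncomputable def wgt' (k : ℕ) : ℝ := ∑ i ∈ s, c i * Real.sqrt (τ i) ^ k

/-- the linear combination of the smoothed centred free energies -/
noncomputable def XX (n : ℕ) (β : ℝ) (z : Pair n → ℝ) : ℝ :=
  ∑ i ∈ s, c i * (TT (freeEnergy n β) (τ i) z - ∫ g, freeEnergy n β g ∂(gpi (Pair n)))

lemma hp_wgt (n : ℕ) (β : ℝ) (S : Finset (MI n)) (z : Pair n → ℝ) :
    hp S (cw n β (wgt' s c τ)) z =
      ∑ i ∈ s, c i * hp S (cw n β fun k => Real.sqrt (τ i) ^ k) z := by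
  unfold hp
  simp only [Finset.mul_sum]
  rw [Finset.sum_comm]
  refine Finset.sum_congr rfl fun α _ => ?_
  unfold cw wgt'
  rw [Finset.sum_mul, Finset.sum_div, Finset.sum_mul]
  refine Finset.sum_congr rfl fun i _ => ?_
  ring

variable {s c τ}

lemma XX_int {n : ℕ} {β : ℝ} (hτ : ∀ i ∈ s, 0 ≤ τ i ∧ τ i < 1) :
    Integrable (XX s c τ n β) (gpi (Pair n)) :=
  integrable_finsetSum _ fun i hi =>
    ((TT_int (freeEnergy_dom n β) (hτ i hi).1 (hτ i hi).2.le).sub (integrable_const _)).const_mul _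

lemma int_dist {n : ℕ} {β : ℝ} (hn : 1 ≤ n) {t : ℝ} (h0 : 0 ≤ t) (h1 : t ≤ 1) (M : ℕ) :
    Integrable (fun z => TT (freeEnergy n β) t z - ∫ g, freeEnergy n β g ∂(gpi (Pair n)) -
      hp ((ML n (M + 1)).erase 0) (cw n β fun k => Real.sqrt t ^ k) z) (gpi (Pair n)) ∧
    ∫ z, |TT (freeEnergy n β) t z - ∫ g, freeEnergy n β g ∂(gpi (Pair n)) -
      hp ((ML n (M + 1)).erase 0) (cw n β fun k => Real.sqrt t ^ k) z| ∂(gpi (Pair n)) ≤
      Real.sqrt (β ^ 2 * n / (2 * ((M : ℝ) + 2))) := by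
  have dF := freeEnergy_dom n β
  have dh := dom_hp ((ML n (M + 1)).erase 0) (cw n β fun k => Real.sqrt t ^ k)
  obtain ⟨m, hm⟩ : ∃ m, m = ∫ g, freeEnergy n β g ∂(gpi (Pair n)) := ⟨_, rfl⟩
  have h5 := smooth_approx (β := β) hn h0 h1 M
  rw [← hm] at h5 ⊢
  have i1 : Integrable (fun z => TT (freeEnergy n β) t z - m -
      hp ((ML n (M + 1)).erase 0) (cw n β fun k => Real.sqrt t ^ k) z) (gpi (Pair n)) :=
    ((TT_int dF h0 h1).sub (integrable_const _)).sub dh.integrable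
  have i2 : Integrable (fun z => (TT (freeEnergy n β) t z - m -
      hp ((ML n (M + 1)).erase 0) (cw n β fun k => Real.sqrt t ^ k) z) ^ 2) (gpi (Pair n)) := by
    have j1 := TT_sq_int dF h0 h1
    have j2 := ((dh.add (Dom.const m)).pow 2).integrable
    refine Integrable.mono' ((j1.const_mul 2).add (j2.const_mul 2)) (i1.1.pow 2)
      (Eventually.of_forall fun z => ?_)
    rw [Real.norm_eq_abs, abs_of_nonneg (sq_nonneg _)]
    simp only [Pi.add_apply]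
    nlinarith [sq_nonneg (TT (freeEnergy n β) t z +
      (hp ((ML n (M + 1)).erase 0) (cw n β fun k => Real.sqrt t ^ k) z + m))]
  exact ⟨i1, (l1_le i1 i2).trans (Real.sqrt_le_sqrt h5)⟩

lemma XX_dist {n : ℕ} {β : ℝ} (hn : 1 ≤ n) (hτ : ∀ i ∈ s, 0 ≤ τ i ∧ τ i < 1) (M : ℕ) :
    ∫ z, |XX s c τ n β z - hp ((ML n (M + 1)).erase 0) (cw n β (wgt' s c τ)) z|
      ∂(gpi (Pair n)) ≤ (∑ i ∈ s, |c i|) * Real.sqrt (β ^ 2 * n / (2 * ((M : ℝ) + 2))) := by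
  have hd := fun i (hi : i ∈ s) => int_dist (β := β) hn (hτ i hi).1 (hτ i hi).2.le M
  have hpt : ∀ z, |XX s c τ n β z - hp ((ML n (M + 1)).erase 0) (cw n β (wgt' s c τ)) z| ≤
      ∑ i ∈ s, |c i| * |TT (freeEnergy n β) (τ i) z -
        ∫ g, freeEnergy n β g ∂(gpi (Pair n)) -
          hp ((ML n (M + 1)).erase 0) (cw n β fun k => Real.sqrt (τ i) ^ k) z| := by
    intro z
    rw [hp_wgt]
    unfold XX
    rw [← Finset.sum_sub_distrib]
    refine (Finset.abs_sum_le_sum_abs _ _).trans (le_of_eq ?_)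
    refine Finset.sum_congr rfl fun i _ => ?_
    rw [← mul_sub, abs_mul]
  have i1 : Integrable (fun z => ∑ i ∈ s, |c i| * |TT (freeEnergy n β) (τ i) z -
        ∫ g, freeEnergy n β g ∂(gpi (Pair n)) -
          hp ((ML n (M + 1)).erase 0) (cw n β fun k => Real.sqrt (τ i) ^ k) z|)
      (gpi (Pair n)) :=
    integrable_finsetSum _ fun i hi => ((hd i hi).1.abs).const_mul _
  refine (integral_mono (((XX_int hτ).sub (dom_hp _ _).integrable).abs) i1 hpt).trans ?_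
  rw [integral_finsetSum _ fun i hi => ((hd i hi).1.abs).const_mul _, Finset.sum_mul]
  refine Finset.sum_le_sum fun i hi => ?_
  rw [integral_const_mul]
  exact mul_le_mul_of_nonneg_left (hd i hi).2 (abs_nonneg _)

lemma exists_bound (hτ : ∀ i ∈ s, 0 ≤ τ i ∧ τ i < 1) :
    ∃ T : ℝ, 0 ≤ T ∧ T < 1 ∧ ∀ i ∈ s, τ i ≤ T := by
  classical
  induction s using Finset.induction_on with
  | empty => exact ⟨0, le_rfl, zero_lt_one, fun i hi => absurd hi (Finset.notMem_empty i)⟩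
  | insert a s ha ih =>
    obtain ⟨T, h1, h2, h3⟩ := ih fun i hi => hτ i (Finset.mem_insert_of_mem hi)
    refine ⟨max T (τ a), le_max_of_le_left h1,
      max_lt h2 (hτ a (Finset.mem_insert_self a s)).2, fun i hi => ?_⟩
    rcases Finset.mem_insert.1 hi with h | h
    · rw [h]
      exact le_max_right _ _
    · exact (h3 i h).trans (le_max_left _ _)

lemma wgt_sq_le {T : ℝ} (hT0 : 0 ≤ T) (hT1 : T ≤ 1) (hT : ∀ i ∈ s, τ i ≤ T)
    (k : ℕ) : wgt' s c τ (k + 1) ^ 2 ≤ (∑ i ∈ s, |c i|) ^ 2 * T ^ k := by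
  have hsT : Real.sqrt T ≤ 1 := Real.sqrt_le_one.2 hT1
  have h1 : |wgt' s c τ (k + 1)| ≤ (∑ i ∈ s, |c i|) * Real.sqrt T ^ k := by
    unfold wgt'
    rw [Finset.sum_mul]
    refine (Finset.abs_sum_le_sum_abs _ _).trans (Finset.sum_le_sum fun i hi => ?_)
    rw [abs_mul, abs_of_nonneg (by positivity : (0 : ℝ) ≤ Real.sqrt (τ i) ^ (k + 1))]
    refine mul_le_mul_of_nonneg_left ?_ (abs_nonneg _)
    calc Real.sqrt (τ i) ^ (k + 1) ≤ Real.sqrt T ^ (k + 1) :=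
          pow_le_pow_left₀ (Real.sqrt_nonneg _) (Real.sqrt_le_sqrt (hT i hi)) _
      _ ≤ Real.sqrt T ^ k :=
          pow_le_pow_of_le_one (Real.sqrt_nonneg _) hsT (Nat.le_succ k)
  rw [← sq_abs]
  calc |wgt' s c τ (k + 1)| ^ 2 ≤ ((∑ i ∈ s, |c i|) * Real.sqrt T ^ k) ^ 2 :=
        pow_le_pow_left₀ (abs_nonneg _) h1 2
    _ = (∑ i ∈ s, |c i|) ^ 2 * T ^ k := by
        rw [mul_pow, ← pow_mul, mul_comm k 2, pow_mul, Real.sq_sqrt hT0]

end comb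

/-! ### the variance -/

/-- the limit of the covariance of the free energies of two copies of correlation `t` -/
noncomputable def Kinf (β : ℝ) (m : ℕ → ℝ) (t : ℝ) : ℝ :=
  β ^ 2 / 2 * ∑' k : ℕ, t ^ (k + 2) / ((k : ℝ) + 2) * m (k + 1) ^ 2

section var

variable {β : ℝ} {m : ℕ → ℝ}

lemma summable_m (hm : ∀ k, |m k| ≤ k + 1) {t : ℝ} (h0 : 0 ≤ t) (h1 : t < 1) :
    Summable fun k : ℕ => t ^ k * m k ^ 2 := by
  have hn : ‖t‖ < 1 := by rw [Real.norm_eq_abs, abs_of_nonneg h0]; exact h1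
  have s2 := summable_pow_mul_geometric_of_norm_lt_one 2 hn
  have s1 := summable_pow_mul_geometric_of_norm_lt_one 1 hn
  have s0 := summable_pow_mul_geometric_of_norm_lt_one 0 hn
  refine Summable.of_nonneg_of_le (fun k => by positivity) (fun k => ?_)
    ((s2.add (s1.mul_left 2)).add s0)
  have h2 : m k ^ 2 ≤ ((k : ℝ) + 1) ^ 2 := by
    rw [← sq_abs]
    exact pow_le_pow_left₀ (abs_nonneg _) (hm k) 2
  have h3 : 0 ≤ t ^ k := by positivity
  calc t ^ k * m k ^ 2 ≤ t ^ k * ((k : ℝ) + 1) ^ 2 := mul_le_mul_of_nonneg_left h2 h3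
    _ = (k : ℝ) ^ 2 * t ^ k + 2 * ((k : ℝ) ^ 1 * t ^ k) + (k : ℝ) ^ 0 * t ^ k := by ring

lemma hasSum_rho (hm0 : m 0 = 1) (hm : ∀ k, |m k| ≤ k + 1) (hβ : β ≠ 0) {ρ : ℝ} (h0 : 0 ≤ ρ)
    (h1 : ρ < 1) : HasSum (fun k : ℕ => ρ ^ (k + 1) / ((k : ℝ) + 1) * m k ^ 2)
      (ρ + 2 / β ^ 2 * Kinf β m ρ) := by
  have hs : Summable fun k : ℕ => ρ ^ (k + 1) / ((k : ℝ) + 1) * m k ^ 2 := by
    refine Summable.of_nonneg_of_le (fun k => by positivity) (fun k => ?_) (summable_m hm h0 h1)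
    refine mul_le_mul_of_nonneg_right ?_ (sq_nonneg _)
    have h2 : ρ ^ (k + 1) ≤ ρ ^ k := pow_le_pow_of_le_one h0 h1.le (Nat.le_succ k)
    refine (div_le_self (by positivity) ?_).trans h2
    have : (0 : ℝ) ≤ k := Nat.cast_nonneg k
    linarith
  have h3 := hs.hasSum
  rw [hs.tsum_eq_zero_add] at h3
  have h4 : ρ ^ (0 + 1) / (((0 : ℕ) : ℝ) + 1) * m 0 ^ 2 +
      ∑' k : ℕ, ρ ^ (k + 1 + 1) / (((k + 1 : ℕ) : ℝ) + 1) * m (k + 1) ^ 2 =
      ρ + 2 / β ^ 2 * Kinf β m ρ := by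
    unfold Kinf
    rw [hm0]
    have h5 : ∀ k : ℕ, ρ ^ (k + 1 + 1) / (((k + 1 : ℕ) : ℝ) + 1) * m (k + 1) ^ 2 =
        ρ ^ (k + 2) / ((k : ℝ) + 2) * m (k + 1) ^ 2 := by
      intro k
      push_cast
      rw [add_assoc (k : ℝ) 1 1, one_add_one_eq_two]
    rw [tsum_congr h5]
    field_simp
    simp
  rwa [h4] at h3

variable {κ : Type*} {s : Finset κ} {c τ : κ → ℝ}

lemma wgt_sq (k : ℕ) (hτ : ∀ i ∈ s, 0 ≤ τ i ∧ τ i < 1) : wgt' s c τ k ^ 2 =
    ∑ i ∈ s, ∑ j ∈ s, c i * c j * Real.sqrt (τ i * τ j) ^ k := by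
  unfold wgt'
  rw [sq, Finset.sum_mul_sum]
  refine Finset.sum_congr rfl fun i hi => Finset.sum_congr rfl fun j _ => ?_
  rw [Real.sqrt_mul (hτ i hi).1, mul_pow]
  ring

lemma rho_bd (hτ : ∀ i ∈ s, 0 ≤ τ i ∧ τ i < 1) {i j : κ} (hi : i ∈ s) (hj : j ∈ s) :
    0 ≤ Real.sqrt (τ i * τ j) ∧ Real.sqrt (τ i * τ j) < 1 := by
  refine ⟨Real.sqrt_nonneg _, ?_⟩
  rw [Real.sqrt_lt' zero_lt_one, one_pow]
  have h1 := hτ i hi
  have h2 := hτ j hj
  nlinarith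

/-- the variance of the limit -/
noncomputable def KK' (β : ℝ) (m : ℕ → ℝ) (s : Finset κ) (c τ : κ → ℝ) : ℝ :=
  ∑ i ∈ s, ∑ j ∈ s, c i * c j * Kinf β m (Real.sqrt (τ i * τ j))

lemma hasSum_wgt (hm0 : m 0 = 1) (hm : ∀ k, |m k| ≤ k + 1) (hβ : β ≠ 0)
    (hτ : ∀ i ∈ s, 0 ≤ τ i ∧ τ i < 1) :
    HasSum (fun k : ℕ => wgt' s c τ (k + 1) ^ 2 / ((k : ℝ) + 1) * m k ^ 2)
      (wgt' s c τ 1 ^ 2 + 2 / β ^ 2 * KK' β m s c τ) := by
  have h1 : HasSum (fun k : ℕ => ∑ i ∈ s, ∑ j ∈ s,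
      (c i * c j) * (Real.sqrt (τ i * τ j) ^ (k + 1) / ((k : ℝ) + 1) * m k ^ 2))
      (∑ i ∈ s, ∑ j ∈ s, (c i * c j) * (Real.sqrt (τ i * τ j) +
        2 / β ^ 2 * Kinf β m (Real.sqrt (τ i * τ j)))) :=
    hasSum_sum fun i hi => hasSum_sum fun j hj =>
      (hasSum_rho hm0 hm hβ (rho_bd hτ hi hj).1 (rho_bd hτ hi hj).2).mul_left _
  have e1 : (fun k : ℕ => wgt' s c τ (k + 1) ^ 2 / ((k : ℝ) + 1) * m k ^ 2) = fun k : ℕ =>
      ∑ i ∈ s, ∑ j ∈ s,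
        (c i * c j) * (Real.sqrt (τ i * τ j) ^ (k + 1) / ((k : ℝ) + 1) * m k ^ 2) := by
    funext k
    rw [wgt_sq _ hτ, Finset.sum_div, Finset.sum_mul]
    refine Finset.sum_congr rfl fun i _ => ?_
    rw [Finset.sum_div, Finset.sum_mul]
    refine Finset.sum_congr rfl fun j _ => ?_
    ring
  have e2 : wgt' s c τ 1 ^ 2 + 2 / β ^ 2 * KK' β m s c τ = ∑ i ∈ s, ∑ j ∈ s,
      (c i * c j) * (Real.sqrt (τ i * τ j) +
        2 / β ^ 2 * Kinf β m (Real.sqrt (τ i * τ j))) := by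
    rw [wgt_sq _ hτ]
    unfold KK'
    rw [Finset.mul_sum, ← Finset.sum_add_distrib]
    refine Finset.sum_congr rfl fun i _ => ?_
    rw [Finset.mul_sum, ← Finset.sum_add_distrib]
    refine Finset.sum_congr rfl fun j _ => ?_
    ring
  rw [e1, e2]
  exact h1

lemma KK_nonneg (hm0 : m 0 = 1) (hm : ∀ k, |m k| ≤ k + 1) (hβ : β ≠ 0)
    (hτ : ∀ i ∈ s, 0 ≤ τ i ∧ τ i < 1) : 0 ≤ KK' β m s c τ := by
  have h := hasSum_wgt (c := c) hm0 hm hβ hτ
  have h1 := sum_le_hasSum {0} (fun k _ => by positivity) h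
  rw [Finset.sum_singleton, hm0] at h1
  have h2 : 0 < β ^ 2 := by positivity
  have h3 : 0 ≤ 2 / β ^ 2 * KK' β m s c τ := by
    norm_num at h1
    exact h1
  exact nonneg_of_mul_nonneg_right h3 (by positivity)

end var

end Vale.Agent.P146.R3.H732
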