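import Vale.Agent.P146.R3.H732.Clt2

/-!
# P146: the central limit theorem for the smoothed free energies, joint form
-/

open MeasureTheory ProbabilityTheory Finset Filter Topology

namespace Vale.Agent.P146.R3.H732

open Vale.Agent.P146 Vale.Agent.P146.Ub.Cv Vale.Agent.P146.H605 Vale.Agent.P146.H453
  Vale.Agent.P146.R2

variable {β : ℝ} {m : ℕ → ℝ} {κ : Type*} [Fintype κ] [DecidableEq κ] {τ : κ → ℝ}

/-- the limiting covariance matrix -/
noncomputable def Sg (β : ℝ) (m : ℕ → ℝ) (τ : κ → ℝ) : Matrix κ κ ℝ :=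
  Matrix.of fun i j => Kinf β m (Real.sqrt (τ i * τ j))

lemma Sg_quad (c : κ → ℝ) : dotProduct c ((Sg β m τ).mulVec c) = KK' β m Finset.univ c τ := by
  show ∑ i, c i * (∑ j, Kinf β m (Real.sqrt (τ i * τ j)) * c j) =
    ∑ i, ∑ j, c i * c j * Kinf β m (Real.sqrt (τ i * τ j))
  refine Finset.sum_congr rfl fun i _ => ?_
  rw [Finset.mul_sum]
  refine Finset.sum_congr rfl fun j _ => ?_
  ring

lemma Sg_psd (hm0 : m 0 = 1) (hm : ∀ k, |m k| ≤ k + 1) (hβ : β ≠ 0)
    (hτ : ∀ i, 0 ≤ τ i ∧ τ i < 1) : (Sg β m τ).PosSemidef := by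
  rw [Matrix.posSemidef_iff_dotProduct_mulVec]
  refine ⟨?_, fun c => ?_⟩
  · ext i j
    simp [Sg, Matrix.conjTranspose_apply, mul_comm]
  · rw [star_trivial, Sg_quad]
    exact KK_nonneg hm0 hm hβ fun i _ => hτ i

/-- the vector of the smoothed free energies -/
noncomputable def VV (β : ℝ) (τ : κ → ℝ) (n : ℕ) (z : Pair n → ℝ) : EuclideanSpace ℝ κ :=
  WithLp.toLp 2 fun i => TT (freeEnergy n β) (τ i) z - ∫ g, freeEnergy n β g ∂(gpi (Pair n))

omit [DecidableEq κ] in
lemma VV_meas {n : ℕ} (hτ : ∀ i, 0 ≤ τ i ∧ τ i < 1) : AEMeasurable (VV β τ n) (gpi (Pair n)) := by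
  unfold VV
  refine (WithLp.measurable_toLp 2 _).comp_aemeasurable (aemeasurable_pi_lambda _ fun i => ?_)
  exact ((TT_int (freeEnergy_dom n β) (hτ i).1 (hτ i).2.le).1.aemeasurable).sub_const _

omit [DecidableEq κ] in
lemma inner_VV {n : ℕ} (c : EuclideanSpace ℝ κ) (z : Pair n → ℝ) :
    inner ℝ (VV β τ n z) c = XX Finset.univ (fun i => c i) τ n β z := by
  unfold VV XX
  rw [PiLp.inner_apply]
  refine Finset.sum_congr rfl fun i _ => ?_
  simp

/-- **The joint central limit theorem for the smoothed free energies.** -/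
theorem joint (hβ : β ≠ 0) (hm0 : m 0 = 1) (hm : ∀ k, |m k| ≤ k + 1)
    (hT : ChebLim) (hP : ∀ k, Tendsto (fun n => pn' β n k) atTop (𝓝 (m k)))
    (hX : ∀ t : ℝ, 0 ≤ t → t < 1 →
      Tendsto (fun n : ℕ => n * crossOverlap n β t) atTop (𝓝 (∑' k : ℕ, t ^ k * m k ^ 2)))
    (hτ : ∀ i, 0 ≤ τ i ∧ τ i < 1) :
    TendstoInDistribution (fun n : ℕ => VV β τ n) atTop (fun y : EuclideanSpace ℝ κ => y)
      (fun n => gpi (Pair n)) (multivariateGaussian 0 (Sg β m τ)) where
  forall_aemeasurable n := VV_meas hτ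
  aemeasurable_limit := aemeasurable_id
  tendsto := by
    refine ProbabilityMeasure.tendsto_of_tendsto_charFun fun c => ?_
    obtain ⟨h1, h2⟩ := tendsto_trig (κ := κ) (s := Finset.univ) (c := fun i => c i) hβ hm0 hm hT hP
      hX (fun i _ => hτ i) 1
    have h3 : ∀ n : ℕ, charFun ((gpi (Pair n)).map (VV β τ n)) c =
        ((∫ z, Real.cos (1 * XX Finset.univ (fun i => c i) τ n β z) ∂(gpi (Pair n)) : ℝ) : ℂ) +
          ((∫ z, Real.sin (1 * XX Finset.univ (fun i => c i) τ n β z) ∂(gpi (Pair n)) : ℝ) : ℂ) *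
            Complex.I := by
      intro n
      have hXi := XX_int (c := fun i => c i) (n := n) (β := β) (s := Finset.univ)
        (τ := τ) fun i _ => hτ i
      rw [charFun_apply, integral_map (VV_meas hτ) (by fun_prop)]
      have i1 : Integrable (fun z => Real.cos (1 * XX Finset.univ (fun i => c i) τ n β z))
          (gpi (Pair n)) := by
        refine Integrable.mono' (integrable_const (1 : ℝ))
          (Real.continuous_cos.comp_aestronglyMeasurable (hXi.const_mul 1).1)
          (Eventually.of_forall fun z => ?_)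
        rw [Real.norm_eq_abs]
        exact Real.abs_cos_le_one _
      have i2 : Integrable (fun z => Real.sin (1 * XX Finset.univ (fun i => c i) τ n β z))
          (gpi (Pair n)) := by
        refine Integrable.mono' (integrable_const (1 : ℝ))
          (Real.continuous_sin.comp_aestronglyMeasurable (hXi.const_mul 1).1)
          (Eventually.of_forall fun z => ?_)
        rw [Real.norm_eq_abs]
        exact Real.abs_sin_le_one _
      have e1 : ∀ z : Pair n → ℝ, Complex.exp (((inner ℝ (VV β τ n z) c : ℝ) : ℂ) * Complex.I) =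
          ((Real.cos (1 * XX Finset.univ (fun i => c i) τ n β z) : ℝ) : ℂ) +
            ((Real.sin (1 * XX Finset.univ (fun i => c i) τ n β z) : ℝ) : ℂ) * Complex.I := by
        intro z
        rw [inner_VV, one_mul, Complex.exp_mul_I]
        push_cast
        rfl
      simp_rw [e1]
      rw [integral_add i1.ofReal (i2.ofReal.mul_const _), integral_mul_const,
        integral_complex_ofReal, integral_complex_ofReal]
    have h4 : charFun (multivariateGaussian 0 (Sg β m τ)) c =
        ((Real.exp (-(KK' β m Finset.univ (fun i => c i) τ * 1 ^ 2 / 2)) : ℝ) : ℂ) +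
          ((0 : ℝ) : ℂ) * Complex.I := by
      rw [charFun_multivariateGaussian (Sg_psd hm0 hm hβ hτ)]
      rw [show dotProduct (c : κ → ℝ) ((Sg β m τ).mulVec (c : κ → ℝ)) =
        KK' β m Finset.univ (fun i => c i) τ from Sg_quad _]
      push_cast
      simp
    simp only [ProbabilityMeasure.coe_mk, Measure.map_id']
    simp_rw [h3]
    rw [h4]
    exact ((Complex.continuous_ofReal.tendsto _).comp h1).add
      (((Complex.continuous_ofReal.tendsto _).comp h2).mul_const _)

end Vale.Agent.P146.R3.H732
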