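import Vale.Agent.P146.H605.Defs

/-!
# P146: the free energy smoothed over a part of the disorder
-/

open MeasureTheory

namespace Vale.Agent.P146.R3

open Vale.Agent.P146 Vale.Agent.P146.H605

/-- `E[F_n(√t z + √(1-t) g) | z] - E F_n`, the conditional expectation of the free energy given a
part `z` of the disorder, centred (`g` is independent of `z`). -/
noncomputable def smooth (n : ℕ) (β t : ℝ) (z : Pair n → ℝ) : ℝ :=
  ∫ g, freeEnergy n β (mixed n t z g) ∂(disorder n) - ∫ g, freeEnergy n β g ∂(disorder n)

end Vale.Agent.P146.R3
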