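import Vale.Agent.P146.R3.H597.Exact
import Vale.Agent.P146.R3.H43.Tr
import Vale.Agent.P146.R3.H732.Joint
import Vale.Agent.P146.R3.H732.SmoothDef

/-!
# P146: the central limit theorem for the smoothed free energies, final form
-/

open MeasureTheory ProbabilityTheory Finset Filter Topology

namespace Vale.Agent.P146.R3.H732

open Vale.Agent.P146 Vale.Agent.P146.Ub.Cv Vale.Agent.P146.H605 Vale.Agent.P146.H453
  Vale.Agent.P146.R2 Vale.Agent.P146.R3.H952

theorem chebLim : ChebLim := fun k l => H43.cheb_sum_conv k l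

/-- **The central limit theorem for the smoothed free energies**: the finite dimensional
distributions of `t ↦ E[F_n(√t z + √(1-t) g) | z] - E F_n`, `0 ≤ t < 1`, converge to those of the
centred Gaussian process with covariance `K_∞(√(s t))`. -/
theorem clt_sk {β : ℝ} (hβ : 1 < β) {x : ℝ → ℝ} (hx : MinProf β x) {κ : Type*} [Fintype κ]
    [DecidableEq κ] {τ : κ → ℝ} (hτ : ∀ i, 0 ≤ τ i ∧ τ i < 1) :
    TendstoInDistribution (fun (n : ℕ) (z : Pair n → ℝ) =>
        (WithLp.toLp 2 fun i : κ => smooth n β (τ i) z : EuclideanSpace ℝ κ)) atTop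
      (fun y : EuclideanSpace ℝ κ => y) (fun n => disorder n)
      (multivariateGaussian 0
        (Matrix.of fun i j => Vale.Agent.P146.R3.Kinf β x (Real.sqrt (τ i * τ j)))) :=
  joint (m := mk β x) (by positivity) (mk_zero β x)
    (fun k => by
      rw [abs_of_nonneg (mk_mem (by linarith) hx k).1]
      exact (mk_mem (by linarith) hx k).2) chebLim (pn_lim hβ hx)
    (fun t ht ht1 => (exact_chaos hβ hx ht ht1).1) hτ

end Vale.Agent.P146.R3.H732
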