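import Vale.Agent.P146.R3.H732.Saw
import Vale.Agent.P146.R2.H749.Parseval
import Vale.Agent.P146.R2.H749.Fams

/-!
# P146: the Stein kernel of the smoothed free energy
-/

open MeasureTheory ProbabilityTheory Finset

namespace Vale.Agent.P146.R3.H732

open Vale.Agent.P146 Vale.Agent.P146.Ub.Cv Vale.Agent.P146.H605 Vale.Agent.P146.H453
  Vale.Agent.P146.R2
open Vale.Agent.P146.R2.H749 (dom_heM orth co_const_mul co_sum)

variable {n : ℕ}

/-- the coefficients of the free energy with the weight `w` -/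
noncomputable def cw (n : ℕ) (β : ℝ) (w : ℕ → ℝ) (α : MI n) : ℝ :=
  w (H453.tot α) * co (freeEnergy n β) α / ∏ e, ((α e).factorial : ℝ)

/-- the coefficients of the two-point functions with the shifted weight `w` -/
noncomputable def kw (β : ℝ) (w : ℕ → ℝ) (j v : Fin n) (α : MI n) : ℝ :=
  w (H453.tot α + 1) * co (f2 β j v) α / ∏ e, ((α e).factorial : ℝ)

/-- the kernel -/
noncomputable def GG' (β : ℝ) (w : ℕ → ℝ) (M : ℕ) (j v : Fin n) (z : Pair n → ℝ) : ℝ :=
  hp (ML n M) (kw β w j v) z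

lemma dom_GG' (β : ℝ) (w : ℕ → ℝ) (M : ℕ) (j v : Fin n) : Dom (GG' β w M j v) := dom_hp _ _

lemma f2_ps (β : ℝ) (p : Pair n) : f2 β p.1.2 p.1.1 = av n β (ps p) := by
  funext g
  unfold f2 av
  congr 1
  funext σ
  rw [chi_ps]

lemma co_add_un (β : ℝ) (p : Pair n) (α : MI n) :
    co (freeEnergy n β) (α + un p) = β / Real.sqrt n * co (f2 β p.1.2 p.1.1) α := by
  rw [← co_gradF, f2_ps]
  have : gradF n β p = fun g => (β / Real.sqrt n) * av n β (ps p) g := rfl
  rw [this, H749.co_const_mul]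

/-- the gradient -/
theorem dhp_cw (β : ℝ) (w : ℕ → ℝ) (M : ℕ) (e : Pair n) (z : Pair n → ℝ) :
    dhp ((ML n (M + 1)).erase 0) (cw n β w) e z =
      β / Real.sqrt n * GG' β w M e.1.2 e.1.1 z := by
  have h0 : (0 : MI n) ∈ ML n (M + 1) := by
    rw [mem_ML, tot_zero']
    omega
  have h1 : dhp ((ML n (M + 1)).erase 0) (cw n β w) e z =
      ∑ α ∈ ML n (M + 1), cw n β w α * ((α e : ℝ) * heM (α - Pi.single e 1) z) := by
    unfold dhp
    rw [← Finset.add_sum_erase _ _ h0]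
    simp
  have h2 := cv (n := n) 1 M e
    (fun γ => w (H453.tot γ) * co (freeEnergy n β) γ * heM (γ - Pi.single e 1) z)
  rw [one_mul] at h2
  have h3 : ∑ α ∈ ML n (M + 1), cw n β w α * ((α e : ℝ) * heM (α - Pi.single e 1) z) =
      ∑ γ ∈ ML n (M + 1), H453.wt 1 γ * γ e *
        (w (H453.tot γ) * co (freeEnergy n β) γ * heM (γ - Pi.single e 1) z) := by
    refine Finset.sum_congr rfl fun γ _ => ?_
    unfold cw H453.wt
    rw [one_pow]
    ring
  rw [h1, h3, ← h2]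
  unfold GG' hp
  rw [Finset.mul_sum]
  refine Finset.sum_congr rfl fun α _ => ?_
  have h4 : α + un e - Pi.single e 1 = α := add_un_sub α e
  rw [h4, co_add_un, H453.tot_add, tot_un]
  unfold kw H453.wt
  rw [one_pow]
  ring

lemma dv_cw (β : ℝ) (w : ℕ → ℝ) : dv (cw n β w) = cw n β (fun k => w k / k) := by
  funext α
  unfold dv cw
  have : ((∑ e, α e : ℕ) : ℝ) = (H453.tot α : ℝ) := rfl
  rw [this]
  ring

lemma f2_self (β : ℝ) (j : Fin n) : f2 β j j = fun _ => 1 := by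
  funext g
  unfold f2
  have h1 : (fun σ : Fin n → ℤˣ => sp σ j * sp σ j) = fun _ => 1 := by
    funext σ
    have := abs_sp σ j
    rcases abs_eq (zero_le_one' ℝ) |>.1 this with h | h <;> rw [h] <;> ring
  rw [h1]
  exact gav_const _ _ 1 g

lemma GG'_self (β : ℝ) (w : ℕ → ℝ) (M : ℕ) (j : Fin n) (z : Pair n → ℝ) :
    GG' β w M j j z = w 1 := by
  have h0 : (0 : MI n) ∈ ML n M := by
    rw [mem_ML, tot_zero']
    omega
  have h1 : ∀ α : MI n, co (f2 β j j) α = if α = 0 then 1 else 0 := by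
    intro α
    rw [f2_self]
    unfold co
    simp only [one_mul]
    exact H749.int_heM α
  unfold GG' hp
  rw [Finset.sum_eq_single 0]
  · unfold kw
    rw [h1, if_pos rfl, tot_zero']
    simp [heM, he_zero]
  · intro α _ hα
    unfold kw
    rw [h1, if_neg hα]
    simp
  · intro h
    exact absurd h0 h

lemma GG'_symm (β : ℝ) (w : ℕ → ℝ) (M : ℕ) (j v : Fin n) : GG' β w M j v = GG' β w M v j := by
  unfold GG' kw
  rw [f2_symm]

/-- **The Stein kernel.** -/
theorem DD_cw (hn : 1 ≤ n) (β : ℝ) (w : ℕ → ℝ) (M : ℕ) (z : Pair n → ℝ) :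
    DD ((ML n (M + 1)).erase 0) (cw n β w) z =
      β ^ 2 / 2 * ((n : ℝ)⁻¹ * ∑ j : Fin n, ∑ v : Fin n,
        GG' β w M j v z * GG' β (fun k => w k / k) M j v z - w 1 ^ 2) := by
  have hn0 : (0 : ℝ) < n := by exact_mod_cast hn
  have h2 := Vale.Agent.P150.sum_pairs (n := n) fun j v =>
    GG' β w M j v z * GG' β (fun k => w k / k) M j v z
  have h3 : ∀ p : Pair n, GG' β w M p.1.1 p.1.2 z * GG' β (fun k => w k / k) M p.1.1 p.1.2 z +
      GG' β w M p.1.2 p.1.1 z * GG' β (fun k => w k / k) M p.1.2 p.1.1 z =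
      2 * (GG' β w M p.1.2 p.1.1 z * GG' β (fun k => w k / k) M p.1.2 p.1.1 z) := by
    intro p
    rw [GG'_symm β w M p.1.1, GG'_symm β (fun k => w k / k) M p.1.1]
    ring
  have h4 : ∑ p : Vale.Agent.P150.Pairs n,
      (GG' β w M p.1.1 p.1.2 z * GG' β (fun k => w k / k) M p.1.1 p.1.2 z +
        GG' β w M p.1.2 p.1.1 z * GG' β (fun k => w k / k) M p.1.2 p.1.1 z) =
      ∑ p : Pair n, 2 * (GG' β w M p.1.2 p.1.1 z * GG' β (fun k => w k / k) M p.1.2 p.1.1 z) :=
    Finset.sum_congr rfl fun p _ => h3 p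
  rw [h2, h4, ← Finset.mul_sum]
  simp only [GG'_self, Nat.cast_one, div_one, Finset.sum_const, Finset.card_univ,
    Fintype.card_fin, nsmul_eq_mul]
  have h5 : DD ((ML n (M + 1)).erase 0) (cw n β w) z = (β / Real.sqrt n) ^ 2 *
      ∑ p : Pair n, GG' β w M p.1.2 p.1.1 z * GG' β (fun k => w k / k) M p.1.2 p.1.1 z := by
    unfold DD
    rw [Finset.mul_sum]
    refine Finset.sum_congr rfl fun e _ => ?_
    rw [dv_cw, dhp_cw, dhp_cw]
    ring
  rw [h5, div_pow, Real.sq_sqrt hn0.le]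
  field_simp
  ring

end Vale.Agent.P146.R3.H732
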