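import Vale.Agent.P146.R3.H732.LBDef

set_option linter.all false

/-!
# P146, explicit lower exponent: the exact integration by parts for `T_w`
-/

open MeasureTheory ProbabilityTheory Matrix Filter Topology

namespace Vale.Agent.P146.R3.H732.LB

open Vale.Agent.P157 (spin)
open Vale.Agent.P157.Lv
open Vale.Agent.P157.Lv.Sy
open Vale.Agent.P157.Par (Path Exponents topN lw spinPart)
open Vale.Agent.P146.Sk
open Vale.Agent.P146.Pw2
open Vale.Agent.P146.Sk.Gen (GI gz gl r0 gS gF gOb gIsOpt GD gV)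

variable {N K : ℕ} {m : ℕ → ℝ} {β y a b : ℝ} {s : ℕ → ℝ}

section ibp

variable {E : (Ix N → ℝ) → (Fin N → Bool) → ℝ}
  {D B : Ix N → (Ix N → ℝ) → (Fin N → Bool) → ℝ} {c w : ℝ}

/-- the second moments of the overlaps, the diagonal included -/
noncomputable def P2 (S : Sy (GI (Ix N) N K) (Fin N → Bool)) (i : ℕ) : ℝ :=
  Rec.PE S i (fun _ x x' => Rov spin x x' ^ 2)

lemma P2_le {S : Sy (GI (Ix N) N K) (Fin N → Bool)} (hS : S.Reg) {i : ℕ} (hi : i ≤ S.K) :
    P2 S i = S.pairEx i (fun x x' => Rov spin x x' ^ 2) := by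
  unfold P2 Rec.PE
  rw [if_pos hi, Rec.pairEx_eq hS hi]

lemma Rov_self (hN : 0 < N) (x : Fin N → Bool) : Rov (spin (N := N)) x x = 1 := by
  have hN' : (0 : ℝ) < N := by exact_mod_cast hN
  have h := spin_norm (N := N) x
  unfold Rov
  have e : ∑ i, spin x i * spin x i = N := by
    rw [← h]
    exact Finset.sum_congr rfl fun i _ => by ring
  rw [e]
  field_simp

lemma P2_top {S : Sy (GI (Ix N) N K) (Fin N → Bool)} (hS : S.Reg) (hN : 0 < N) :
    P2 S (S.K + 1) = 1 := by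
  unfold P2 Rec.PE
  rw [if_neg (by omega)]
  have e : (fun (_ : GI (Ix N) N K → ℝ) (x : Fin N → Bool) => Rov (spin (N := N)) x x ^ 2) =
      fun _ _ => (1 : ℝ) := by
    funext z x
    rw [Rov_self hN]
    norm_num
  rw [e, hS.Ex_const]

/-- one term of the integration by parts -/
lemma tw_term (hN : 0 < N) (h : GD K m E D (spin (N := N)))
    (hB : ∀ e z x, D e z x = c * (spin x e.1 * spin x e.2 / √(2 * (N : ℝ))) + B e z x)
    (hBe : ∀ e x, EG (fun z => B e z x)) (hBw : ∀ z x, ∑ e, B e z x ^ 2 ≤ N * w) (i : ℕ) :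
    |(gS K m E spin s).Ex (fun z x => ∑ e : Ix N, Me (spin x) (spin x) e *
      Rec.Ti (gS K m E spin s) i (Gen.gD D spin s (Sum.inl e)) z x) -
      N * (c * P2 (gS K m E spin s) i)| ≤ N * √(2 * w) := by
  have hN' : (0 : ℝ) < N := by exact_mod_cast hN
  have hC := ctx_q (s := s) hN h hB hBe hBw
  set S := gS K m E spin s with hSdef
  have hS : S.Reg := Gen.gS_reg h s
  have nM : ∀ e : Ix N, Nh (ι := GI (Ix N) N K)
      (fun _ x => Me (spin (N := N) x) (spin x) e) := fun e => Nh.snd fun x =>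
        Me (spin (N := N) x) (spin x) e
  have nP : ∀ e : Ix N, Nh (ι := GI (Ix N) N K)
      (fun _ x => spin (N := N) x e.1 * spin x e.2 / √(2 * (N : ℝ))) := fun e =>
    Nh.snd fun x => spin (N := N) x e.1 * spin x e.2 / √(2 * (N : ℝ))
  have nB : ∀ e : Ix N, Nh (ι := GI (Ix N) N K) (fun z x => B e (r0 z) x) := hC.nB
  have hD : ∀ e : Ix N, Gen.gD D spin s (Sum.inl e : GI (Ix N) N K) = fun z x =>
      c * (fun (_ : GI (Ix N) N K → ℝ) (x : Fin N → Bool) =>
        spin x e.1 * spin x e.2 / √(2 * (N : ℝ))) z x + B e (r0 z) x := by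
    intro e
    funext z x
    exact hC.dB e z x
  have e1 : (fun z x => ∑ e : Ix N, Me (spin x) (spin x) e *
      Rec.Ti S i (Gen.gD D spin s (Sum.inl e)) z x) = fun z x =>
      c * ∑ e : Ix N, Me (spin x) (spin x) e *
        Rec.Ti S i (fun _ x => spin x e.1 * spin x e.2 / √(2 * (N : ℝ))) z x +
      ∑ e : Ix N, Me (spin x) (spin x) e * Rec.Ti S i (fun z x => B e (r0 z) x) z x := by
    funext z x
    rw [Finset.mul_sum, ← Finset.sum_add_distrib]
    refine Finset.sum_congr rfl fun e _ => ?_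
    rw [hD e, Rec.Ti_add hS i (Nh.const_mul c (nP e)) (nB e), Rec.Ti_const_mul]
    ring
  have n1 : Nh (fun (z : GI (Ix N) N K → ℝ) x => ∑ e : Ix N, Me (spin x) (spin x) e *
        Rec.Ti S i (fun _ x => spin x e.1 * spin x e.2 / √(2 * (N : ℝ))) z x) :=
    Nh.sum _ fun e _ => Nh.mul (nM e) (Rec.nh_Ti hS i (nP e))
  have n2 : Nh (fun (z : GI (Ix N) N K → ℝ) x => ∑ e : Ix N, Me (spin x) (spin x) e *
        Rec.Ti S i (fun z x => B e (r0 z) x) z x) :=
    Nh.sum _ fun e _ => Nh.mul (nM e) (Rec.nh_Ti hS i (nB e))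
  rw [e1, hS.Ex_add (Nh.const_mul c n1) n2, Sy.Ex_const_mul]
  -- the main part
  have hmain := Rec.LL_main hC (A := fun _ => (1 : Matrix (Fin N) (Fin N) ℝ)) (EGM.const _)
    i (S.K + 1) (S.K + 1)
  have e2 : ∀ (z : GI (Ix N) N K → ℝ) (x : Fin N → Bool),
      Rec.yv S spin (S.K + 1) z x = spin x := fun z x => Rec.yv_gt (by omega) z x
  simp only [e2, one_mulVec] at hmain
  rw [hmain]
  have e3 : Rec.PE S i (fun z x x' => (1 / (N : ℝ) * (spin x ⬝ᵥ spin x')) *
      (1 / (N : ℝ) * (spin x ⬝ᵥ spin x'))) = P2 S i := by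
    unfold P2
    congr 1
    funext z x x'
    unfold Rov
    simp only [dotProduct]
    ring
  rw [e3]
  have e4 : c * ((N : ℝ) * P2 S i) + S.Ex (fun z x => ∑ e : Ix N, Me (spin x) (spin x) e *
      Rec.Ti S i (fun z x => B e (r0 z) x) z x) - N * (c * P2 S i) =
      S.Ex (fun z x => ∑ e : Ix N, Me (spin x) (spin x) e *
      Rec.Ti S i (fun z x => B e (r0 z) x) z x) := by ring
  rw [e4]
  refine (Rec.sum_cs hS nM nB i).trans ?_
  have h3 : S.Ex (fun z x => ∑ e : Ix N, Me (spin x) (spin x) e ^ 2) ≤ 2 * N := by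
    have e5 := hS.Ex_const (2 * (N : ℝ))
    rw [← e5]
    refine hS.Ex_mono (Nh.sum _ fun e _ => Nh.pow (nM e) 2) (Nh.fst (EG.const _)) fun z x => ?_
    refine (sum_Me_sq hN _ _).trans ?_
    rw [nv_sq, spin_norm]
    have : 2 / (N : ℝ) * (N * N) = 2 * N := by field_simp
    rw [this]
  have h4 : S.Ex (fun z x => ∑ e : Ix N, B e (r0 z) x ^ 2) ≤ N * w := by
    have e5 := hS.Ex_const ((N : ℝ) * w)
    rw [← e5]
    exact hS.Ex_mono (Nh.sum _ fun e _ => Nh.pow (nB e) 2) (Nh.fst (EG.const _))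
      fun z x => hBw (r0 z) x
  calc √(S.Ex (fun z x => ∑ e : Ix N, Me (spin x) (spin x) e ^ 2)) *
        √(S.Ex (fun z x => ∑ e : Ix N, B e (r0 z) x ^ 2))
      ≤ √(2 * N) * √(N * w) :=
        mul_le_mul (Real.sqrt_le_sqrt h3) (Real.sqrt_le_sqrt h4) (Real.sqrt_nonneg _)
          (Real.sqrt_nonneg _)
    _ = N * √(2 * w) := by
        rw [← Real.sqrt_mul (by positivity), show 2 * (N : ℝ) * (N * w) = N ^ 2 * (2 * w) by ring,
          Real.sqrt_mul (by positivity), Real.sqrt_sq hN'.le]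

/-- the exact integration by parts -/
theorem tw_ex (hN : 0 < N) (h : GD K m E D (spin (N := N)))
    (hB : ∀ e z x, D e z x = c * (spin x e.1 * spin x e.2 / √(2 * (N : ℝ))) + B e z x)
    (hBe : ∀ e x, EG (fun z => B e z x)) (hBw : ∀ z x, ∑ e, B e z x ^ 2 ≤ N * w) :
    |Tw (gS K m E spin s) - c * (1 - ∑ l ∈ Finset.range (K + 1), (m (l + 1) - m l) *
      (gS K m E spin s).pairEx l (fun x x' => Rov spin x x' ^ 2))| ≤ 2 * √(2 * w) := by
  have hN' : (0 : ℝ) < N := by exact_mod_cast hN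
  have hC := ctx_q (s := s) hN h hB hBe hBw
  have ht := fun i => tw_term (s := s) hN h hB hBe hBw i
  set S := gS K m E spin s with hSdef
  have hS : S.Reg := Gen.gS_reg h s
  have hSK : S.K = K := rfl
  have hSp : ∀ l, S.p l = m (l + 1) - m l := fun l => rfl
  have hm' := h.hm
  have hp : ∀ l ∈ Finset.range (K + 1), 0 ≤ m (l + 1) - m l := fun l hl => by
    have := hm'.2.2 l (Nat.lt_succ_iff.1 (Finset.mem_range.1 hl))
    linarith
  have hp1 : ∑ l ∈ Finset.range (K + 1), (m (l + 1) - m l) = 1 := by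
    rw [Finset.sum_range_sub, hm'.1, hm'.2.1, sub_zero]
  have h1 := Rec.ibp_sum hC (h := fun e _ x => Me (spin x) (spin x) e) (h' := fun _ _ _ => 0)
    (fun e x => PD.const _) (fun e => Nh.snd fun x => Me (spin (N := N) x) (spin x) e)
    (fun e => Nh.fst (EG.const 0))
  have e0 : S.Ex (fun z x => ∑ e : Ix N, z (Sum.inl e) * Me (spin x) (spin x) e) =
      N * Tw S := by
    unfold Tw
    have e1 : (fun (z : GI (Ix N) N K → ℝ) (x : Fin N → Bool) =>
        ∑ e : Ix N, z (Sum.inl e) * Me (spin x) (spin x) e) =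
        fun z x => qf (Wm N (r0 z)) (spin x) := by
      funext z x
      rw [qf_eq, ← sum_Me_z]
      rfl
    rw [e1]
    field_simp
  have e2 : S.Ex (fun (z : GI (Ix N) N K → ℝ) (x : Fin N → Bool) => ∑ e : Ix N, (0 : ℝ)) = 0 := by
    simp only [Finset.sum_const_zero]
    exact hS.Ex_const 0
  rw [e0, e2, zero_add, hSK] at h1
  simp only [hSp] at h1
  set A : ℕ → ℝ := fun i => S.Ex (fun z x => ∑ e : Ix N, Me (spin x) (spin x) e *
    Rec.Ti S i (Gen.gD D spin s (Sum.inl e)) z x) with hA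
  have h2 : N * Tw S = A (K + 1) - ∑ l ∈ Finset.range (K + 1), (m (l + 1) - m l) * A l := h1
  have hT : |A (K + 1) - N * (c * 1)| ≤ N * √(2 * w) := by
    have := ht (K + 1)
    have e3 : P2 S (K + 1) = 1 := P2_top hS hN
    rwa [e3] at this
  have hl : |∑ l ∈ Finset.range (K + 1), (m (l + 1) - m l) * A l -
      N * (c * ∑ l ∈ Finset.range (K + 1), (m (l + 1) - m l) *
        S.pairEx l (fun x x' => Rov spin x x' ^ 2))| ≤ N * √(2 * w) := by
    have e4 : ∑ l ∈ Finset.range (K + 1), (m (l + 1) - m l) * A l -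
      N * (c * ∑ l ∈ Finset.range (K + 1), (m (l + 1) - m l) *
        S.pairEx l (fun x x' => Rov spin x x' ^ 2)) = ∑ l ∈ Finset.range (K + 1),
        (m (l + 1) - m l) * (A l - N * (c * P2 S l)) := by
      rw [Finset.mul_sum, Finset.mul_sum, ← Finset.sum_sub_distrib]
      refine Finset.sum_congr rfl fun l hl => ?_
      have hl' : l ≤ S.K := Nat.lt_succ_iff.1 (Finset.mem_range.1 hl)
      rw [P2_le hS hl']
      ring
    rw [e4]
    refine (Finset.abs_sum_le_sum_abs _ _).trans ?_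
    have e5 : ∑ l ∈ Finset.range (K + 1), |(m (l + 1) - m l) * (A l - N * (c * P2 S l))| ≤
        ∑ l ∈ Finset.range (K + 1), (m (l + 1) - m l) * (N * √(2 * w)) := by
      refine Finset.sum_le_sum fun l hl => ?_
      rw [abs_mul, abs_of_nonneg (hp l hl)]
      exact mul_le_mul_of_nonneg_left (ht l) (hp l hl)
    refine e5.trans (le_of_eq ?_)
    rw [← Finset.sum_mul, hp1, one_mul]
  set Z : ℝ := ∑ l ∈ Finset.range (K + 1), (m (l + 1) - m l) *
        S.pairEx l (fun x x' => Rov spin x x' ^ 2) with hZ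
  have h3 : |(N : ℝ) * (Tw S - c * (1 - Z))| ≤ N * (2 * √(2 * w)) := by
    have e6 : (N : ℝ) * (Tw S - c * (1 - Z)) = (A (K + 1) - N * (c * 1)) -
        (∑ l ∈ Finset.range (K + 1), (m (l + 1) - m l) * A l - N * (c * Z)) := by
      rw [mul_sub, h2]
      ring
    rw [e6]
    refine (abs_sub _ _).trans ?_
    linarith only [hT, hl]
  rw [abs_mul, abs_of_pos hN'] at h3
  exact le_of_mul_le_mul_left h3 hN'

end ibp

/-- the exact integration by parts for the systems with the resolvent -/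
theorem tw_sy {β : ℝ} (hβ : 0 ≤ β) (hy : 0 < y) (hN : 0 < N) (hm' : Exponents K m)
    (hb : 0 ≤ b) (a : ℝ) (s : ℕ → ℝ) :
    |Tw (sy N K m β y a b s) - β * a * (1 - ∑ l ∈ Finset.range (K + 1), (m (l + 1) - m l) *
      (sy N K m β y a b s).pairEx l (fun x x' => Rov spin x x' ^ 2))| ≤
      4 * β * (b / y ^ 2) := by
  obtain ⟨D, B, h, hB, hBe, hBw⟩ := gdq (K := K) β hy hN hm' a b
  refine (tw_ex (s := s) hN h hB hBe hBw).trans ?_
  rw [sqrt_w hβ hb]
  exact le_of_eq (by ring)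

end Vale.Agent.P146.R3.H732.LB
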