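import Vale.Agent.P146.R3.H732.LB1

set_option linter.all false

/-!
# P146, explicit lower exponent: the interpolation between the model and its fields
-/

open MeasureTheory ProbabilityTheory Matrix Filter Topology

namespace Vale.Agent.P146.R3.H732.LB

open Vale.Agent.P157 (spin)
open Vale.Agent.P157.Lv
open Vale.Agent.P157.Lv.Sy
open Vale.Agent.P157.Par (Path Exponents topN lw spinPart incr incr_zero_def incr_succ_def)
open Vale.Agent.P146.Sk
open Vale.Agent.P146.Pw2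
open Vale.Agent.P146.Sk.Gen (GI gz gl r0 gS gF gOb gIsOpt GD gV)

variable {N K : ℕ} {m q : ℕ → ℝ} {β y a b t a' t' : ℝ}

/-- the strengths of the fields -/
noncomputable def sg (β : ℝ) (q : ℕ → ℝ) (t : ℝ) : ℕ → ℝ := fun l => t * (β * √(incr q l))

/-- the systems of the interpolation -/
noncomputable abbrev SI (N K : ℕ) (m q : ℕ → ℝ) (β y a b t : ℝ) :
    Sy (GI (Ix N) N K) (Fin N → Bool) := sy N K m β y a b (sg β q t)

/-- the free energies of the interpolation -/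
noncomputable def GG (N K : ℕ) (m q : ℕ → ℝ) (β y a b t : ℝ) : ℝ :=
  gF K m (Ey N β y a b) (spin (N := N)) (sg β q t)

/-- the deviation of the overlaps from the path `q` -/
noncomputable def QQ (K : ℕ) (m q : ℕ → ℝ) (S : Sy (GI (Ix N) N K) (Fin N → Bool)) : ℝ :=
  ∑ l ∈ Finset.range (K + 1), (m (l + 1) - m l) *
    S.pairEx l (fun x x' => (Rov spin x x' - q l) ^ 2)

/-- the constant of the interpolation -/
noncomputable def cq (β : ℝ) (K : ℕ) (m q : ℕ → ℝ) : ℝ :=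
  β ^ 2 / 4 * (1 - 2 * q K + ∑ l ∈ Finset.range (K + 1), (m (l + 1) - m l) * q l ^ 2)

lemma incr_nonneg (hq : Path K q) {l : ℕ} (hl : l ≤ K) : 0 ≤ incr q l := by
  cases l with
  | zero => rw [incr_zero_def]; exact hq.1
  | succ l =>
    rw [incr_succ_def]
    have := hq.2 l (by omega)
    linarith

lemma sg_nonneg (hβ : 0 ≤ β) (ht : 0 ≤ t) (l : ℕ) : 0 ≤ sg β q t l := by
  unfold sg
  positivity

lemma sum_inc (q : ℕ → ℝ) (l : ℕ) : ∑ i ∈ Finset.range (l + 1), incr q i = q l := by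
  induction l with
  | zero => simp [incr_zero_def]
  | succ l ih => rw [Finset.sum_range_succ, ih]; simp [incr_succ_def]

/-- the derivative in the fields -/
lemma sum_hz (hβ : 0 ≤ β) (ht : 0 ≤ t) (hy : 0 < y) (hN : 0 < N) (hm' : Exponents K m)
    (hq : Path K q) (a b : ℝ) :
    ∑ l ∈ Finset.range (K + 1), (β * √(incr q l)) * (SI N K m q β y a b t).Ex (hz spin gz l) =
      t * (β ^ 2 * (q K - ∑ l ∈ Finset.range (K + 1), (m (l + 1) - m l) *
        (q l * (SI N K m q β y a b t).Rl spin l))) := by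
  obtain ⟨D, B, h, -⟩ := gdq (K := K) β hy hN hm' a b
  have F := Gen.gS_fld h (s := sg β q t) fun l _ => sg_nonneg hβ ht l
  set S := SI N K m q β y a b t with hS
  have hSp : ∀ l, S.p l = m (l + 1) - m l := fun l => rfl
  have hSK : S.K = K := rfl
  have h1 : ∀ l ∈ Finset.range (K + 1), (β * √(incr q l)) * S.Ex (hz spin gz l) =
      t * β ^ 2 * incr q l - t * β ^ 2 * ∑ i ∈ Finset.Ico l (K + 1),
        incr q l * ((m (i + 1) - m i) * S.Rl spin i) := by
    intro l hl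
    have hl' : l ≤ S.K := Nat.lt_succ_iff.1 (Finset.mem_range.1 hl)
    have h2 : S.Ex (hz spin gz l) = sg β q t l * (1 - ∑ i ∈ Finset.Ico l (S.K + 1),
        S.p i * S.Rl spin i) := F.Ex_hz hl'
    rw [h2, hSK]
    simp only [hSp]
    have h3 : √(incr q l) * √(incr q l) = incr q l := Real.mul_self_sqrt (incr_nonneg hq hl')
    rw [← Finset.mul_sum]
    set Z := ∑ i ∈ Finset.Ico l (K + 1), (m (i + 1) - m i) * S.Rl spin i with hZ
    unfold sg
    calc β * √(incr q l) * (t * (β * √(incr q l)) * (1 - Z)) =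
        t * β ^ 2 * (√(incr q l) * √(incr q l)) * (1 - Z) := by ring
      _ = _ := by rw [h3]; ring
  rw [Finset.sum_congr rfl h1, Finset.sum_sub_distrib, ← Finset.mul_sum, ← Finset.mul_sum,
    sum_inc]
  have h4 : ∑ l ∈ Finset.range (K + 1), ∑ i ∈ Finset.Ico l (K + 1),
      incr q l * ((m (i + 1) - m i) * S.Rl spin i) =
      ∑ i ∈ Finset.range (K + 1), (m (i + 1) - m i) * (q i * S.Rl spin i) := by
    rw [Finset.range_eq_Ico, Finset.sum_Ico_Ico_comm]
    refine Finset.sum_congr rfl fun i _ => ?_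
    rw [← Finset.sum_mul, ← Finset.range_eq_Ico, sum_inc]
    ring
  rw [h4]
  ring

/-- the tangent inequality in `a` and `t` -/
theorem tangent_at (hβ : 0 ≤ β) (ht : 0 ≤ t) (hy : 0 < y) (hN : 0 < N) (hm' : Exponents K m)
    (hq : Path K q) (a b a' t' : ℝ) :
    β / 2 * ((a' - a) * Tw (SI N K m q β y a b t)) +
      (t' - t) * (t * (β ^ 2 * (q K - ∑ l ∈ Finset.range (K + 1), (m (l + 1) - m l) *
        (q l * (SI N K m q β y a b t).Rl spin l)))) ≤
      GG N K m q β y a' b t' - GG N K m q β y a b t := by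
  have hN' : (0 : ℝ) < N := by exact_mod_cast hN
  obtain ⟨D, B, h, -⟩ := gdq (K := K) β hy hN hm' a b
  obtain ⟨D', B', h', -⟩ := gdq (K := K) β hy hN hm' a' b
  have h1 := Gen.gS_jensen h h' (sg β q t) (sg β q t')
  have hS := Gen.gS_reg h (sg β q t)
  have hzz := sum_hz (m := m) hβ ht hy hN hm' hq a b
  set S := SI N K m q β y a b t with hSdef
  have e : (fun (z : GI (Ix N) N K → ℝ) (x : Fin N → Bool) =>
      Gen.gH (Ey N β y a' b) spin (sg β q t') z x - Gen.gH (Ey N β y a b) spin (sg β q t) z x) =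
      fun z x => (β / 2 * (a' - a)) * qf (Wm N (r0 z)) (spin x) +
        ∑ l ∈ Finset.range (K + 1), (N * ((t' - t) * (β * √(incr q l)))) * hz spin gz l z x := by
    funext z x
    unfold Gen.gH
    have e1 : ∑ l ∈ Finset.range (K + 1), (N * ((t' - t) * (β * √(incr q l)))) * hz spin gz l z x =
        ∑ l ∈ Finset.range (K + 1), sg β q t' l * ∑ i, z (gz l i) * spin x i -
        ∑ l ∈ Finset.range (K + 1), sg β q t l * ∑ i, z (gz l i) * spin x i := by
      rw [← Finset.sum_sub_distrib]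
      refine Finset.sum_congr rfl fun l _ => ?_
      rw [Gen.hz_eq]
      unfold Gen.gx sg
      field_simp
    rw [e1]
    unfold Ey
    ring
  rw [e, hS.Ex_add (Sy.Nh.const_mul _ (Gd.nh_qf egm_Wm))
    (Sy.Nh.sum _ fun l _ => Sy.Nh.const_mul _ (Gen.nh_hz l)), Sy.Ex_const_mul,
    hS.Ex_sum _ (fun l _ => Sy.Nh.const_mul _ (Gen.nh_hz l))] at h1
  simp only [Sy.Ex_const_mul] at h1
  have h2 : ∑ l ∈ Finset.range (K + 1), (N * ((t' - t) * (β * √(incr q l)))) *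
      (gS K m (Ey N β y a b) spin (sg β q t)).Ex (hz spin gz l) = N * ((t' - t) *
      ∑ l ∈ Finset.range (K + 1), (β * √(incr q l)) * S.Ex (hz spin gz l)) := by
    rw [Finset.mul_sum, Finset.mul_sum]
    exact Finset.sum_congr rfl fun l _ => by ring
  rw [h2, hzz] at h1
  unfold GG gF
  rw [← mul_sub]
  have h3 := mul_le_mul_of_nonneg_left h1 (show 0 ≤ 1 / (N : ℝ) by positivity)
  refine le_trans (le_of_eq ?_) h3
  unfold Tw
  field_simp
  ring

lemma pmono {k : ℕ} {q : ℕ → ℝ} (hq : ∀ l < k, q l ≤ q (l + 1)) :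
    ∀ a b : ℕ, a ≤ b → b ≤ k → q a ≤ q b := by
  intro a b hab
  induction b, hab using Nat.le_induction with
  | base => intro _; exact le_rfl
  | succ b hab ih => intro hb; exact (ih (by omega)).trans (hq b (by omega))

/-- facts about a system -/
lemma sys_facts (hβ : 0 ≤ β) (ht : 0 ≤ t) (hy : 0 < y) (hN : 0 < N) (hm' : Exponents K m)
    (hq : Path K q) (hq1 : q K ≤ 1) (a b : ℝ) :
    QQ K m q (SI N K m q β y a b t) =
      ∑ l ∈ Finset.range (K + 1), (m (l + 1) - m l) *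
        (SI N K m q β y a b t).pairEx l (fun x x' => Rov spin x x' ^ 2) -
      2 * ∑ l ∈ Finset.range (K + 1), (m (l + 1) - m l) *
        (q l * (SI N K m q β y a b t).Rl spin l) +
      ∑ l ∈ Finset.range (K + 1), (m (l + 1) - m l) * q l ^ 2 ∧
    0 ≤ ∑ l ∈ Finset.range (K + 1), (m (l + 1) - m l) *
        (SI N K m q β y a b t).pairEx l (fun x x' => Rov spin x x' ^ 2) ∧
    |q K - ∑ l ∈ Finset.range (K + 1), (m (l + 1) - m l) *
        (q l * (SI N K m q β y a b t).Rl spin l)| ≤ 1 ∧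
    0 ≤ QQ K m q (SI N K m q β y a b t) := by
  obtain ⟨D, B, h, -⟩ := gdq (K := K) β hy hN hm' a b
  have F := Gen.gS_fld h (s := sg β q t) fun l _ => sg_nonneg hβ ht l
  have hS := Gen.gS_reg h (sg β q t)
  set S := SI N K m q β y a b t with hSdef
  have hSK : S.K = K := rfl
  have hp : ∀ l ∈ Finset.range (K + 1), 0 ≤ m (l + 1) - m l := fun l hl => by
    have := hm'.2.2 l (Nat.lt_succ_iff.1 (Finset.mem_range.1 hl))
    linarith
  have hp1 : ∑ l ∈ Finset.range (K + 1), (m (l + 1) - m l) = 1 := by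
    rw [Finset.sum_range_sub, hm'.1, hm'.2.1, sub_zero]
  have hqm : ∀ l ≤ K, q l ≤ q K := fun l hl => pmono hq.2 l K hl le_rfl
  have hq0 : ∀ l ≤ K, 0 ≤ q l := fun l hl => hq.1.trans (pmono hq.2 0 l (Nat.zero_le _) hl)
  refine ⟨?_, ?_, ?_, ?_⟩
  · unfold QQ
    rw [Finset.mul_sum, ← Finset.sum_sub_distrib, ← Finset.sum_add_distrib]
    refine Finset.sum_congr rfl fun l hl => ?_
    have hlK : l ≤ S.K := Nat.lt_succ_iff.1 (Finset.mem_range.1 hl)
    have e1 : (fun x x' : Fin N → Bool => (Rov spin x x' - q l) ^ 2) = fun x x' =>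
        Rov spin x x' ^ 2 + ((-(2 * q l)) * Rov spin x x' + q l * q l) := by
      funext x x'
      ring
    have e2 : S.pairEx l (fun x x' => Rov spin x x') = S.Rl spin l := (F.Rl_eq_pairEx hlK).symm
    rw [e1, hS.pairEx_add hlK (fun x x' => Rov spin x x' ^ 2)
      (fun x x' => (-(2 * q l)) * Rov spin x x' + q l * q l),
      hS.pairEx_add hlK (fun x x' => (-(2 * q l)) * Rov spin x x') (fun _ _ => q l * q l),
      hS.pairEx_const_mul, hS.pairEx_const hlK, e2]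
    ring
  · refine Finset.sum_nonneg fun l hl => mul_nonneg (hp l hl) ?_
    exact hS.pairEx_nonneg (Nat.lt_succ_iff.1 (Finset.mem_range.1 hl)) fun x x' => sq_nonneg _
  · have h1 : 0 ≤ ∑ l ∈ Finset.range (K + 1), (m (l + 1) - m l) * (q l * S.Rl spin l) := by
      refine Finset.sum_nonneg fun l hl => mul_nonneg (hp l hl) ?_
      have hl' : l ≤ K := Nat.lt_succ_iff.1 (Finset.mem_range.1 hl)
      exact mul_nonneg (hq0 l hl') (F.Rl_nonneg hl')
    have h2 : ∑ l ∈ Finset.range (K + 1), (m (l + 1) - m l) * (q l * S.Rl spin l) ≤ q K := by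
      have h3 : ∑ l ∈ Finset.range (K + 1), (m (l + 1) - m l) * (q l * S.Rl spin l) ≤
          ∑ l ∈ Finset.range (K + 1), (m (l + 1) - m l) * q K := by
        refine Finset.sum_le_sum fun l hl => mul_le_mul_of_nonneg_left ?_ (hp l hl)
        have hl' : l ≤ K := Nat.lt_succ_iff.1 (Finset.mem_range.1 hl)
        have h4 : S.Rl spin l ≤ 1 := F.Rl_le_one hl'
        calc q l * S.Rl spin l ≤ q l * 1 := mul_le_mul_of_nonneg_left h4 (hq0 l hl')
          _ ≤ q K := by rw [mul_one]; exact hqm l hl'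
      rwa [← Finset.sum_mul, hp1, one_mul] at h3
    have h5 := hq0 K le_rfl
    rw [abs_le]
    constructor <;> linarith only [h1, h2, h5, hq1]
  · refine Finset.sum_nonneg fun l hl => mul_nonneg (hp l hl) ?_
    exact hS.pairEx_nonneg (Nat.lt_succ_iff.1 (Finset.mem_range.1 hl)) fun x x' => sq_nonneg _

/-- numbers -/
lemma step_real {β a t a' t' P Z q Q c W T L e : ℝ} (ha : 0 ≤ a) (hat : a ^ 2 + t ^ 2 = 1)
    (hat' : a' ^ 2 + t' ^ 2 = 1) (hP : 0 ≤ P) (hZ : |q - Z| ≤ 1) (hQ : Q = P - 2 * Z + W)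
    (hc : c = β ^ 2 / 4 * (1 - 2 * q + W)) (hT : |T - β * a * (1 - P)| ≤ 4 * β * e)
    (hβ : 0 ≤ β)
    (hL : β / 2 * ((a' - a) * T) + (t' - t) * (t * (β ^ 2 * (q - Z))) ≤ L) :
    -(t' ^ 2 - t ^ 2) * (c - β ^ 2 / 4 * Q) -
      (β ^ 2 / 4 * (a' - a) ^ 2 + β ^ 2 / 2 * (t' - t) ^ 2 + 2 * β ^ 2 * (|a' - a| * e)) ≤ L := by
  refine le_trans ?_ hL
  obtain ⟨r, hr⟩ : ∃ r : ℝ, T = β * a * (1 - P) + r := ⟨T - β * a * (1 - P), by ring⟩
  have hr2 : |r| ≤ 4 * β * e := by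
    rw [hr] at hT
    simpa using hT
  have h1 : -(2 * β ^ 2 * (|a' - a| * e)) ≤ β / 2 * ((a' - a) * r) := by
    have h2 : |β / 2 * ((a' - a) * r)| ≤ 2 * β ^ 2 * (|a' - a| * e) := by
      rw [abs_mul, abs_mul, abs_of_nonneg (by positivity : 0 ≤ β / 2)]
      calc β / 2 * (|a' - a| * |r|) ≤ β / 2 * (|a' - a| * (4 * β * e)) := by gcongr
        _ = _ := by ring
    exact (abs_le.1 h2).1
  have h3 : (t' - t) ^ 2 * (q - Z) ≤ (t' - t) ^ 2 * 1 :=
    mul_le_mul_of_nonneg_left (abs_le.1 hZ).2 (sq_nonneg _)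
  have h4 : 0 ≤ β ^ 2 * ((a' - a) ^ 2 * P) := by positivity
  have h5 : β ^ 2 * ((t' - t) ^ 2 * (q - Z)) ≤ β ^ 2 * ((t' - t) ^ 2 * 1) :=
    mul_le_mul_of_nonneg_left h3 (sq_nonneg _)
  rw [hr, hc, hQ]
  have e1 : a * (a' - a) = -(t' ^ 2 - t ^ 2) / 2 - (a' - a) ^ 2 / 2 := by nlinarith
  have e2 : β / 2 * ((a' - a) * (β * a * (1 - P) + r)) =
      β ^ 2 / 2 * (a * (a' - a)) * (1 - P) + β / 2 * ((a' - a) * r) := by ring
  have e3 : (t' - t) * (t * (β ^ 2 * (q - Z))) =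
      β ^ 2 * ((t' ^ 2 - t ^ 2) / 2 - (t' - t) ^ 2 / 2) * (q - Z) := by ring
  rw [e2, e3, e1]
  have e4 : β ^ 2 / 2 * (-(t' ^ 2 - t ^ 2) / 2 - (a' - a) ^ 2 / 2) * (1 - P) +
      β / 2 * ((a' - a) * r) + β ^ 2 * ((t' ^ 2 - t ^ 2) / 2 - (t' - t) ^ 2 / 2) * (q - Z) =
      -(t' ^ 2 - t ^ 2) * (β ^ 2 / 4 * (1 - 2 * q + W) - β ^ 2 / 4 * (P - 2 * Z + W)) -
      β ^ 2 / 4 * (a' - a) ^ 2 + 1 / 4 * (β ^ 2 * ((a' - a) ^ 2 * P)) -
      1 / 2 * (β ^ 2 * ((t' - t) ^ 2 * (q - Z))) + β / 2 * ((a' - a) * r) := by ring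
  rw [e4]
  linarith only [h1, h4, h5]

/-- **The step of the interpolation.** -/
theorem step_at (hβ : 0 ≤ β) (ht : 0 ≤ t) (ha : 0 ≤ a) (hy : 0 < y) (hN : 0 < N)
    (hm' : Exponents K m) (hq : Path K q) (hq1 : q K ≤ 1) (hb : 0 ≤ b)
    (hat : a ^ 2 + t ^ 2 = 1) (hat' : a' ^ 2 + t' ^ 2 = 1) :
    -(t' ^ 2 - t ^ 2) * (cq β K m q - β ^ 2 / 4 * QQ K m q (SI N K m q β y a b t)) -
      (β ^ 2 / 4 * (a' - a) ^ 2 + β ^ 2 / 2 * (t' - t) ^ 2 +
        2 * β ^ 2 * (|a' - a| * (b / y ^ 2))) ≤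
      GG N K m q β y a' b t' - GG N K m q β y a b t := by
  obtain ⟨f1, f2, f3, f4⟩ := sys_facts (m := m) hβ ht hy hN hm' hq hq1 a b
  exact step_real ha hat hat' f2 f3 f1 rfl (tw_sy hβ hy hN hm' hb a _) hβ
    (tangent_at hβ ht hy hN hm' hq a b a' t')

end Vale.Agent.P146.R3.H732.LB
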