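import Vale.Agent.P146.R3.H732.LB2

set_option linter.all false

/-!
# P146, explicit lower exponent: the sums along the interpolation
-/

open MeasureTheory ProbabilityTheory Matrix Filter Topology

namespace Vale.Agent.P146.R3.H732.LB

open Vale.Agent.P157 (spin)
open Vale.Agent.P157.Lv
open Vale.Agent.P157.Lv.Sy
open Vale.Agent.P157.Par (Path Exponents topN lw spinPart incr incr_zero_def incr_succ_def)
open Vale.Agent.P146.Sk
open Vale.Agent.P146.Pw2
open Vale.Agent.P146.Sk.Gen (GI gz gl r0 gS gF gOb gIsOpt GD gV)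

variable {N K : ℕ} {m q : ℕ → ℝ} {β y a b t a' t' : ℝ}

/-- the value at the end of the interpolation -/
lemma GG_end (hβ : 0 ≤ β) (hN : 0 < N) (hm' : Exponents K m) (hq : Path K q) (y : ℝ) :
    GG N K m q β y 0 0 1 + cq β K m q = PSK β K m q := by
  have h1 := u4_gF (β := β) (s := sg β q 1) hN hm' 0 fun j _ => sg_nonneg hβ zero_le_one j
  have h2 : ∀ l ≤ K, ∑ j ∈ Finset.range (l + 1), sg β q 1 j ^ 2 = β ^ 2 * q l := by
    intro l hl
    rw [← sum_inc q l, Finset.mul_sum]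
    refine Finset.sum_congr rfl fun j hj => ?_
    have hj' : j ≤ K := by
      have := Finset.mem_range.1 hj
      omega
    unfold sg
    rw [one_mul, mul_pow, Real.sq_sqrt (incr_nonneg hq hj')]
  have h3 : spinPart K m (fun l => ∑ j ∈ Finset.range (l + 1), sg β q 1 j ^ 2) =
      spinPart K m (fun l => β ^ 2 * q l) := by
    unfold spinPart
    rw [br_cascade_congr (m := m) (q := fun l => ∑ j ∈ Finset.range (l + 1),
      sg β q 1 j ^ 2) (q' := fun l => β ^ 2 * q l) h2]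
    simp only [h2 0 (Nat.zero_le _), h2 K le_rfl]
  rw [h3, h2 K le_rfl] at h1
  unfold GG cq PSK
  rw [ey_zero β 0 0, h1]
  ring

lemma sg_zero (β : ℝ) (q : ℕ → ℝ) : sg β q 0 = fun _ => 0 := by
  funext l
  unfold sg
  ring

/-- the value at the start of the interpolation -/
lemma GG_start (hy : 0 < y) (hN : 0 < N) (hm' : Exponents K m) (q : ℕ → ℝ) (b : ℝ) :
    GG N K m q β y 1 b 0 = gF K m (Ey N β y 1 b) (spin (N := N)) (fun _ => 0) := by
  unfold GG
  rw [sg_zero]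

lemma GG_start0 (hy : 0 < y) (hN : 0 < N) (hm' : Exponents K m) (q : ℕ → ℝ) :
    GG N K m q β y 1 0 0 = pN β N := by
  rw [GG_start hy hN hm', gF_pN β hy hN hm']

/-- the derivative in `b` -/
lemma GG_tangent_b (hβ : 0 ≤ β) (hy : 0 < y) (hN : 0 < N) (hm' : Exponents K m) (q : ℕ → ℝ)
    (a b t : ℝ) : β * b / 2 * Tb y (SI N K m q β y a b t) ≤
      GG N K m q β y a 0 t - GG N K m q β y a b t := by
  have h1 := tangent_q (K := K) β hy hN hm' a b a 0 (sg β q t)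
  unfold GG
  have e : β / 2 * ((a - a) * Tw (sy N K m β y a b (sg β q t)) -
      (0 - b) * Tb y (sy N K m β y a b (sg β q t))) =
      β * b / 2 * Tb y (sy N K m β y a b (sg β q t)) := by ring
  rw [e] at h1
  show β * b / 2 * Tb y (sy N K m β y a b (sg β q t)) ≤ _
  linarith only [h1]

/-! ### The grid -/

/-- the coefficients of the grid -/
noncomputable def ga (M i : ℕ) : ℝ := √(1 - i / M)
/-- the coefficients of the grid -/
noncomputable def gt (M i : ℕ) : ℝ := √((i : ℝ) / M)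

lemma ga_nonneg (M i : ℕ) : 0 ≤ ga M i := Real.sqrt_nonneg _
lemma gt_nonneg (M i : ℕ) : 0 ≤ gt M i := Real.sqrt_nonneg _

lemma g_sq {M i : ℕ} (hM : 0 < M) (hi : i ≤ M) : ga M i ^ 2 + gt M i ^ 2 = 1 := by
  have hM' : (0 : ℝ) < M := by exact_mod_cast hM
  have h1 : (i : ℝ) / M ≤ 1 := by
    rw [div_le_one hM']
    exact_mod_cast hi
  unfold ga gt
  rw [Real.sq_sqrt (by linarith), Real.sq_sqrt (by positivity)]
  ring

lemma gt_sq {M : ℕ} (i : ℕ) : gt M i ^ 2 = (i : ℝ) / M := by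
  unfold gt
  exact Real.sq_sqrt (by positivity)

lemma sqrt_sub_le {x x' : ℝ} (h : x ≤ x') (hx : 0 ≤ x) : √x' - √x ≤ √(x' - x) := by
  have h0 : 0 ≤ x' - x := by linarith
  have h1 : √x' ≤ √x + √(x' - x) := by
    refine Real.sqrt_le_iff.2 ⟨by positivity, ?_⟩
    have e1 := Real.sq_sqrt hx
    have e2 := Real.sq_sqrt h0
    have e3 : 0 ≤ √x * √(x' - x) := by positivity
    calc x' = x + (x' - x) := by ring
      _ = √x ^ 2 + √(x' - x) ^ 2 := by rw [e1, e2]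
      _ ≤ (√x + √(x' - x)) ^ 2 := by linarith only [e3, add_sq (√x) (√(x' - x))]
  linarith

lemma ga_step {M i : ℕ} (hM : 0 < M) (hi : i < M) :
    0 ≤ ga M i - ga M (i + 1) ∧ ga M i - ga M (i + 1) ≤ 1 / √(M : ℝ) := by
  have hM' : (0 : ℝ) < M := by exact_mod_cast hM
  have h0 : ((i + 1 : ℕ) : ℝ) / M ≤ 1 := by
    rw [div_le_one hM']
    exact_mod_cast hi
  have h1 : (1 : ℝ) - ((i + 1 : ℕ) : ℝ) / M ≤ 1 - i / M := by
    have : (i : ℝ) / M ≤ ((i + 1 : ℕ) : ℝ) / M := by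
      push_cast
      gcongr
      linarith
    linarith
  unfold ga
  constructor
  · have := Real.sqrt_le_sqrt h1
    linarith
  · refine (sqrt_sub_le h1 (by linarith)).trans (le_of_eq ?_)
    have e : (1 : ℝ) - i / M - (1 - ((i + 1 : ℕ) : ℝ) / M) = 1 / M := by
      push_cast
      field_simp
      ring
    rw [e, Real.sqrt_div zero_le_one, Real.sqrt_one]

lemma gt_step {M i : ℕ} (hM : 0 < M) :
    0 ≤ gt M (i + 1) - gt M i ∧ gt M (i + 1) - gt M i ≤ 1 / √(M : ℝ) := by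
  have hM' : (0 : ℝ) < M := by exact_mod_cast hM
  have h1 : (i : ℝ) / M ≤ ((i + 1 : ℕ) : ℝ) / M := by
    push_cast
    gcongr
    linarith
  unfold gt
  constructor
  · have := Real.sqrt_le_sqrt h1
    linarith
  · refine (sqrt_sub_le h1 (by positivity)).trans (le_of_eq ?_)
    have e : ((i + 1 : ℕ) : ℝ) / M - (i : ℝ) / M = 1 / M := by
      push_cast
      field_simp
      ring
    rw [e, Real.sqrt_div zero_le_one, Real.sqrt_one]

lemma ga_zero {M : ℕ} : ga M 0 = 1 := by unfold ga; simp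
lemma gt_zero {M : ℕ} : gt M 0 = 0 := by unfold gt; simp
lemma ga_top {M : ℕ} (hM : 0 < M) : ga M M = 0 := by
  have hM' : (0 : ℝ) < M := by exact_mod_cast hM
  unfold ga
  rw [div_self hM'.ne', sub_self, Real.sqrt_zero]
lemma gt_top {M : ℕ} (hM : 0 < M) : gt M M = 1 := by
  have hM' : (0 : ℝ) < M := by exact_mod_cast hM
  unfold gt
  rw [div_self hM'.ne', Real.sqrt_one]

lemma ga_ge {M i : ℕ} (hM : 0 < M) (hi : i ≤ M) : 1 - (i : ℝ) / M ≤ ga M i := by
  have hM' : (0 : ℝ) < M := by exact_mod_cast hM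
  have h1 : (i : ℝ) / M ≤ 1 := by
    rw [div_le_one hM']
    exact_mod_cast hi
  unfold ga
  refine Real.le_sqrt_of_sq_le ?_
  have h2 : 0 ≤ (i : ℝ) / M := by positivity
  nlinarith

lemma gt_le {M i : ℕ} (hM : 0 < M) (hi : i ≤ M) : gt M i ≤ 1 := by
  have := g_sq hM hi
  have h1 : gt M i ^ 2 ≤ 1 := by nlinarith [sq_nonneg (ga M i)]
  have h2 : 0 ≤ gt M i := Real.sqrt_nonneg _
  nlinarith

/-- the values on the grid -/
noncomputable def gG (N K : ℕ) (m q : ℕ → ℝ) (β y b : ℝ) (M i : ℕ) : ℝ :=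
  GG N K m q β y (ga M i) b (gt M i)

/-- the deviations on the grid -/
noncomputable def gQ (N K : ℕ) (m q : ℕ → ℝ) (β y b : ℝ) (M i : ℕ) : ℝ :=
  QQ K m q (SI N K m q β y (ga M i) b (gt M i))

lemma gQ_nonneg (hβ : 0 ≤ β) (hy : 0 < y) (hN : 0 < N) (hm' : Exponents K m)
    (hq : Path K q) (hq1 : q K ≤ 1) (b : ℝ) (M i : ℕ) : 0 ≤ gQ N K m q β y b M i :=
  (sys_facts (m := m) hβ (Real.sqrt_nonneg _) hy hN hm' hq hq1 _ b).2.2.2

lemma sq_le_of {x r : ℝ} (h0 : 0 ≤ x) (h1 : x ≤ r) : x ^ 2 ≤ r * x := by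
  rw [sq]
  exact mul_le_mul_of_nonneg_right h1 h0

/-- forward steps -/
lemma fwd (hβ : 0 ≤ β) (hy : 0 < y) (hN : 0 < N) (hm' : Exponents K m)
    (hq : Path K q) (hq1 : q K ≤ 1) (hb : 0 ≤ b) {M i : ℕ} (hM : 0 < M) (hi : i < M) :
    -(1 / (M : ℝ)) * (cq β K m q - β ^ 2 / 4 * gQ N K m q β y b M i) -
      ((β ^ 2 / 4 * (1 / √(M : ℝ)) + 2 * β ^ 2 * (b / y ^ 2)) * (ga M i - ga M (i + 1)) +
        β ^ 2 / 2 * (1 / √(M : ℝ)) * (gt M (i + 1) - gt M i)) ≤
      gG N K m q β y b M (i + 1) - gG N K m q β y b M i := by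
  have hM' : (0 : ℝ) < M := by exact_mod_cast hM
  have h := step_at (β := β) (m := m) (b := b) hβ (gt_nonneg M i)
    (ga_nonneg M i) hy hN hm' hq hq1 hb (g_sq hM hi.le)
    (g_sq hM (show i + 1 ≤ M by omega))
  refine le_trans ?_ h
  obtain ⟨a0, a1⟩ := ga_step hM hi
  obtain ⟨t0, t1⟩ := gt_step (i := i) hM
  have e1 : gt M (i + 1) ^ 2 - gt M i ^ 2 = 1 / M := by
    rw [gt_sq, gt_sq]
    push_cast
    field_simp
    ring
  have e2 : (ga M (i + 1) - ga M i) ^ 2 ≤ 1 / √(M : ℝ) * (ga M i - ga M (i + 1)) := by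
    have := sq_le_of a0 a1
    calc (ga M (i + 1) - ga M i) ^ 2 = (ga M i - ga M (i + 1)) ^ 2 := by ring
      _ ≤ _ := this
  have e3 : (gt M (i + 1) - gt M i) ^ 2 ≤ 1 / √(M : ℝ) * (gt M (i + 1) - gt M i) :=
    sq_le_of t0 t1
  have e4 : |ga M (i + 1) - ga M i| = ga M i - ga M (i + 1) := by
    rw [abs_sub_comm, abs_of_nonneg a0]
  rw [e1, e4]
  have e5 : β ^ 2 / 4 * (ga M (i + 1) - ga M i) ^ 2 ≤
      β ^ 2 / 4 * (1 / √(M : ℝ) * (ga M i - ga M (i + 1))) :=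
    mul_le_mul_of_nonneg_left e2 (by positivity)
  have e6 : β ^ 2 / 2 * (gt M (i + 1) - gt M i) ^ 2 ≤
      β ^ 2 / 2 * (1 / √(M : ℝ) * (gt M (i + 1) - gt M i)) :=
    mul_le_mul_of_nonneg_left e3 (by positivity)
  show _ ≤ -(1 / (M : ℝ)) * (cq β K m q - β ^ 2 / 4 * gQ N K m q β y b M i) - _
  linarith only [e5, e6]

/-- backward steps -/
lemma bwd (hβ : 0 ≤ β) (hy : 0 < y) (hN : 0 < N) (hm' : Exponents K m)
    (hq : Path K q) (hq1 : q K ≤ 1) (hb : 0 ≤ b) {M i : ℕ} (hM : 0 < M) (hi : i < M) :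
    1 / (M : ℝ) * (cq β K m q - β ^ 2 / 4 * gQ N K m q β y b M (i + 1)) -
      ((β ^ 2 / 4 * (1 / √(M : ℝ)) + 2 * β ^ 2 * (b / y ^ 2)) * (ga M i - ga M (i + 1)) +
        β ^ 2 / 2 * (1 / √(M : ℝ)) * (gt M (i + 1) - gt M i)) ≤
      gG N K m q β y b M i - gG N K m q β y b M (i + 1) := by
  have hM' : (0 : ℝ) < M := by exact_mod_cast hM
  have h := step_at (β := β) (m := m) (b := b) hβ (gt_nonneg M (i + 1))
    (ga_nonneg M (i + 1)) hy hN hm' hq hq1 hb
    (g_sq hM (show i + 1 ≤ M by omega)) (g_sq hM hi.le)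
  refine le_trans ?_ h
  obtain ⟨a0, a1⟩ := ga_step hM hi
  obtain ⟨t0, t1⟩ := gt_step (i := i) hM
  have e1 : gt M i ^ 2 - gt M (i + 1) ^ 2 = -(1 / M) := by
    rw [gt_sq, gt_sq]
    push_cast
    field_simp
    ring
  have e2 : (ga M i - ga M (i + 1)) ^ 2 ≤ 1 / √(M : ℝ) * (ga M i - ga M (i + 1)) :=
    sq_le_of a0 a1
  have e3 : (gt M i - gt M (i + 1)) ^ 2 ≤ 1 / √(M : ℝ) * (gt M (i + 1) - gt M i) := by
    have := sq_le_of t0 t1
    calc (gt M i - gt M (i + 1)) ^ 2 = (gt M (i + 1) - gt M i) ^ 2 := by ring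
      _ ≤ _ := this
  have e4 : |ga M i - ga M (i + 1)| = ga M i - ga M (i + 1) := abs_of_nonneg a0
  rw [e1, e4]
  have e5 : β ^ 2 / 4 * (ga M i - ga M (i + 1)) ^ 2 ≤
      β ^ 2 / 4 * (1 / √(M : ℝ) * (ga M i - ga M (i + 1))) :=
    mul_le_mul_of_nonneg_left e2 (by positivity)
  have e6 : β ^ 2 / 2 * (gt M i - gt M (i + 1)) ^ 2 ≤
      β ^ 2 / 2 * (1 / √(M : ℝ) * (gt M (i + 1) - gt M i)) :=
    mul_le_mul_of_nonneg_left e3 (by positivity)
  show _ ≤ - -(1 / (M : ℝ)) * (cq β K m q - β ^ 2 / 4 * gQ N K m q β y b M (i + 1)) - _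
  linarith only [e5, e6]

/-- telescoping -/
lemma tele {G Q A T : ℕ → ℝ} {c r s s' h : ℝ} (k : ℕ)
    (H : ∀ i < k, h * (c - r * Q i) - (s * (A i - A (i + 1)) + s' * (T (i + 1) - T i)) ≤
      G (i + 1) - G i) :
    h * (k * c - r * ∑ i ∈ Finset.range k, Q i) - (s * (A 0 - A k) + s' * (T k - T 0)) ≤
      G k - G 0 := by
  induction k with
  | zero => simp
  | succ k ih =>
    have h1 := ih fun i hi => H i (by omega)
    have h2 := H k (by omega)
    rw [Finset.sum_range_succ]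
    push_cast
    linarith

lemma err_le {β e : ℝ} (he : 0 ≤ e) {M i : ℕ} (hM : 0 < M) (hi : i ≤ M) :
    (β ^ 2 / 4 * (1 / √(M : ℝ)) + 2 * β ^ 2 * e) * (ga M 0 - ga M i) +
      β ^ 2 / 2 * (1 / √(M : ℝ)) * (gt M i - gt M 0) ≤
      β ^ 2 / √(M : ℝ) + 2 * β ^ 2 * (e * (i / M)) := by
  have hM' : (0 : ℝ) < M := by exact_mod_cast hM
  have hi' : (i : ℝ) / M ≤ 1 := by
    rw [div_le_one hM']
    exact_mod_cast hi
  rw [ga_zero, gt_zero, sub_zero]
  have h1 := ga_ge hM hi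
  have h2 := gt_le hM hi
  have h3 : 0 ≤ 1 / √(M : ℝ) := by positivity
  have h4 : (1 - ga M i) ≤ (i : ℝ) / M := by linarith
  have h5 : (β ^ 2 / 4 * (1 / √(M : ℝ)) + 2 * β ^ 2 * e) * (1 - ga M i) ≤
      (β ^ 2 / 4 * (1 / √(M : ℝ)) + 2 * β ^ 2 * e) * ((i : ℝ) / M) :=
    mul_le_mul_of_nonneg_left h4 (by positivity)
  have h6 : β ^ 2 / 4 * (1 / √(M : ℝ)) * ((i : ℝ) / M) ≤ β ^ 2 / 4 * (1 / √(M : ℝ)) * 1 :=
    mul_le_mul_of_nonneg_left hi' (by positivity)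
  have h7 : β ^ 2 / 2 * (1 / √(M : ℝ)) * gt M i ≤ β ^ 2 / 2 * (1 / √(M : ℝ)) * 1 :=
    mul_le_mul_of_nonneg_left h2 (by positivity)
  have h8 : 0 ≤ β ^ 2 * (1 / √(M : ℝ)) := by positivity
  have e1 : β ^ 2 / √(M : ℝ) = β ^ 2 * (1 / √(M : ℝ)) := by ring
  rw [e1]
  linarith only [h5, h6, h7, h8]

/-- the forward sum -/
lemma sum_fwd (hβ : 0 ≤ β) (hy : 0 < y) (hN : 0 < N) (hm' : Exponents K m)
    (hq : Path K q) (hq1 : q K ≤ 1) (hb : 0 ≤ b) {M i : ℕ} (hM : 0 < M) (hi : i ≤ M) :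
    -(1 / (M : ℝ)) * (i * cq β K m q -
      β ^ 2 / 4 * ∑ j ∈ Finset.range i, gQ N K m q β y b M j) -
      (β ^ 2 / √(M : ℝ) + 2 * β ^ 2 * (b / y ^ 2 * (i / M))) ≤
      gG N K m q β y b M i - gG N K m q β y b M 0 := by
  have h := tele (G := gG N K m q β y b M) (Q := gQ N K m q β y b M) (A := ga M) (T := gt M)
    (c := cq β K m q) (r := β ^ 2 / 4) (s := β ^ 2 / 4 * (1 / √(M : ℝ)) + 2 * β ^ 2 * (b / y ^ 2))
    (s' := β ^ 2 / 2 * (1 / √(M : ℝ))) (h := -(1 / (M : ℝ))) i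
    fun j hj => fwd hβ hy hN hm' hq hq1 hb hM (by omega)
  have h2 := err_le (β := β) (e := b / y ^ 2) (by positivity) hM hi
  linarith only [h, h2]

/-- the backward sum -/
lemma sum_bwd (hβ : 0 ≤ β) (hy : 0 < y) (hN : 0 < N) (hm' : Exponents K m)
    (hq : Path K q) (hq1 : q K ≤ 1) (hb : 0 ≤ b) {M i : ℕ} (hM : 0 < M) (hi : i ≤ M) :
    1 / (M : ℝ) * (i * cq β K m q -
      β ^ 2 / 4 * ∑ j ∈ Finset.range i, gQ N K m q β y b M (j + 1)) -
      (β ^ 2 / √(M : ℝ) + 2 * β ^ 2 * (b / y ^ 2 * (i / M))) ≤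
      gG N K m q β y b M 0 - gG N K m q β y b M i := by
  have h := tele (G := fun i => -gG N K m q β y b M i)
    (Q := fun j => gQ N K m q β y b M (j + 1)) (A := ga M) (T := gt M)
    (c := cq β K m q) (r := β ^ 2 / 4) (s := β ^ 2 / 4 * (1 / √(M : ℝ)) + 2 * β ^ 2 * (b / y ^ 2))
    (s' := β ^ 2 / 2 * (1 / √(M : ℝ))) (h := 1 / (M : ℝ)) i
    fun j hj => by
      have := bwd (b := b) (m := m) hβ hy hN hm' hq hq1 hb hM (show j < M by omega)
      linarith only [this]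
  have h2 := err_le (β := β) (e := b / y ^ 2) (by positivity) hM hi
  linarith only [h, h2]

/-- **The window.** -/
theorem win (hβ : 0 < β) (hy : 0 < y) (hN : 0 < N) (hm' : Exponents K m)
    (hq : Path K q) (hq1 : q K ≤ 1) (hb : 0 ≤ b) {ε : ℝ} (hP : PSK β K m q ≤ pN β N + ε)
    {M i : ℕ} (hi0 : 0 < i) (hi : i < M) :
    ∃ j < i, gQ N K m q β y b M j ≤ 4 / (β ^ 2 * (i / M)) *
        (pN β N - gF K m (Ey N β y 1 b) (spin (N := N)) (fun _ => 0) +
          (ε + 3 * (β ^ 2 / √(M : ℝ)) + 2 * β ^ 2 * (b / y ^ 2 * (i / M)))) ∧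
      β * b / 2 * Tb y (SI N K m q β y (ga M j) b (gt M j)) -
          (ε + 3 * (β ^ 2 / √(M : ℝ)) + 2 * β ^ 2 * (b / y ^ 2 * (i / M))) ≤
        pN β N - gF K m (Ey N β y 1 b) (spin (N := N)) (fun _ => 0) := by
  have hM : 0 < M := by omega
  have hM' : (0 : ℝ) < M := by exact_mod_cast hM
  have hi' : (0 : ℝ) < i := by exact_mod_cast hi0
  have hMs : 0 ≤ β ^ 2 / √(M : ℝ) := by positivity
  set X := pN β N - gF K m (Ey N β y 1 b) (spin (N := N)) (fun _ => 0) with hX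
  set κ := β ^ 2 / √(M : ℝ) with hκ
  have s0 : gG N K m q β y 0 M 0 = pN β N := by
    unfold gG
    rw [ga_zero, gt_zero, GG_start0 hy hN hm']
  have sb : gG N K m q β y b M 0 = gF K m (Ey N β y 1 b) (spin (N := N)) (fun _ => 0) := by
    unfold gG
    rw [ga_zero, gt_zero, GG_start hy hN hm']
  have sM : gG N K m q β y 0 M M + cq β K m q = PSK β K m q := by
    unfold gG
    rw [ga_top hM, gt_top hM]
    exact GG_end hβ.le hN hm' hq y
  -- the whole interpolation at `b = 0`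
  have t1 := sum_fwd (b := 0) (m := m) hβ.le hy hN hm' hq hq1 le_rfl hM (le_refl M)
  have e1 : (0 : ℝ) / y ^ 2 * ((M : ℝ) / M) = 0 := by simp
  rw [e1, mul_zero, add_zero, s0] at t1
  have e2 : -(1 / (M : ℝ)) * (M * cq β K m q -
      β ^ 2 / 4 * ∑ j ∈ Finset.range M, gQ N K m q β y 0 M j) = -cq β K m q +
      1 / M * (β ^ 2 / 4 * ∑ j ∈ Finset.range M, gQ N K m q β y 0 M j) := by
    field_simp
    ring
  rw [e2] at t1
  have h1 : 1 / (M : ℝ) * (β ^ 2 / 4 * ∑ j ∈ Finset.range M, gQ N K m q β y 0 M j) ≤ ε + κ := by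
    linarith only [t1, sM, hP]
  -- the sum over a window at `b = 0`
  have hQ0 : ∀ j, 0 ≤ gQ N K m q β y 0 M j := fun j =>
    gQ_nonneg hβ.le hy hN hm' hq hq1 0 M j
  have h2 : ∀ k < M, ∑ j ∈ Finset.range k, gQ N K m q β y 0 M (j + 1) ≤
      ∑ j ∈ Finset.range M, gQ N K m q β y 0 M j := by
    intro k hk
    have h3 : ∑ j ∈ Finset.range (k + 1), gQ N K m q β y 0 M j ≤
        ∑ j ∈ Finset.range M, gQ N K m q β y 0 M j :=
      Finset.sum_le_sum_of_subset_of_nonneg (Finset.range_mono (by omega)) fun j _ _ => hQ0 j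
    rw [Finset.sum_range_succ'] at h3
    linarith only [h3, hQ0 0]
  -- the comparison at every time of the window
  have key : ∀ k ≤ i, gG N K m q β y 0 M k - gG N K m q β y b M k +
      1 / M * (β ^ 2 / 4 * ∑ j ∈ Finset.range k, gQ N K m q β y b M j) -
      (ε + 3 * κ + 2 * β ^ 2 * (b / y ^ 2 * (i / M))) ≤ X := by
    intro k hk
    have t2 := sum_bwd (b := 0) (m := m) hβ.le hy hN hm' hq hq1 le_rfl hM (show k ≤ M by omega)
    have t3 := sum_fwd (b := b) (m := m) hβ.le hy hN hm' hq hq1 hb hM (show k ≤ M by omega)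
    have e3 : (0 : ℝ) / y ^ 2 * ((k : ℝ) / M) = 0 := by simp
    rw [e3, mul_zero, add_zero, s0] at t2
    rw [sb] at t3
    have h4 := h2 k (by omega)
    have h5 : 1 / (M : ℝ) * (β ^ 2 / 4 * ∑ j ∈ Finset.range k, gQ N K m q β y 0 M (j + 1)) ≤
        ε + κ := by
      refine le_trans ?_ h1
      exact mul_le_mul_of_nonneg_left (mul_le_mul_of_nonneg_left h4 (by positivity))
        (by positivity)
    have h6 : b / y ^ 2 * ((k : ℝ) / M) ≤ b / y ^ 2 * ((i : ℝ) / M) := by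
      refine mul_le_mul_of_nonneg_left ?_ (by positivity)
      have : (k : ℝ) ≤ i := by exact_mod_cast hk
      gcongr
    have h7 : 2 * β ^ 2 * (b / y ^ 2 * ((k : ℝ) / M)) ≤
        2 * β ^ 2 * (b / y ^ 2 * ((i : ℝ) / M)) := mul_le_mul_of_nonneg_left h6 (by positivity)
    linarith only [t2, t3, h5, h7, hX]
  have hTb : ∀ k, β * b / 2 * Tb y (SI N K m q β y (ga M k) b (gt M k)) ≤
      gG N K m q β y 0 M k - gG N K m q β y b M k := fun k =>
    GG_tangent_b hβ.le hy hN hm' q (ga M k) b (gt M k)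
  have hTb0 : ∀ k, 0 ≤ gG N K m q β y 0 M k - gG N K m q β y b M k := fun k => by
    refine le_trans (mul_nonneg (by positivity) ?_) (hTb k)
    exact (tb_bounds β hy hN hm' _ _ _).1
  have hQb : ∀ j, 0 ≤ gQ N K m q β y b M j := fun j =>
    gQ_nonneg hβ.le hy hN hm' hq hq1 b M j
  -- the minimum over the window
  obtain ⟨j, hj, hjm⟩ := Finset.exists_min_image (Finset.range i)
    (fun j => gQ N K m q β y b M j) ⟨0, Finset.mem_range.2 hi0⟩
  refine ⟨j, Finset.mem_range.1 hj, ?_, ?_⟩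
  · have h8 := key i le_rfl
    have h9 := hTb0 i
    have h10 : (i : ℝ) * gQ N K m q β y b M j ≤ ∑ j ∈ Finset.range i, gQ N K m q β y b M j := by
      have := Finset.card_nsmul_le_sum (Finset.range i) (fun j => gQ N K m q β y b M j)
        (gQ N K m q β y b M j) fun k hk => hjm k hk
      rwa [Finset.card_range, nsmul_eq_mul] at this
    have h11 : 1 / (M : ℝ) * (β ^ 2 / 4 * (i * gQ N K m q β y b M j)) ≤
        X + (ε + 3 * κ + 2 * β ^ 2 * (b / y ^ 2 * (i / M))) := by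
      refine le_trans (mul_le_mul_of_nonneg_left (mul_le_mul_of_nonneg_left h10
        (by positivity)) (by positivity)) ?_
      linarith only [h8, h9]
    have h12 := mul_le_mul_of_nonneg_left h11
      (show 0 ≤ 4 / (β ^ 2 * ((i : ℝ) / M)) by positivity)
    refine le_trans (le_of_eq ?_) h12
    field_simp
  · have hj' : j < i := Finset.mem_range.1 hj
    have h8 := key j hj'.le
    have h9 := hTb j
    have h10 : 0 ≤ 1 / (M : ℝ) * (β ^ 2 / 4 * ∑ j ∈ Finset.range j, gQ N K m q β y b M j) :=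
      mul_nonneg (by positivity) (mul_nonneg (by positivity)
        (Finset.sum_nonneg fun k _ => hQb k))
    linarith only [h8, h9, h10]

end Vale.Agent.P146.R3.H732.LB
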