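import Vale.Agent.P146.R3.H732.LB3
import Vale.Agent.P146.R3.H729.TbLow

set_option linter.all false

/-!
# P146, explicit lower exponent: the choice of the parameters
-/

open MeasureTheory ProbabilityTheory Matrix Filter Topology

namespace Vale.Agent.P146.R3.H732.LB

open Vale.Agent.P157 (spin)
open Vale.Agent.P157.Lv
open Vale.Agent.P157.Lv.Sy
open Vale.Agent.P157.Par (Path Exponents topN lw spinPart incr incr_zero_def incr_succ_def)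
open Vale.Agent.P146.Sk
open Vale.Agent.P146.Pw2
open Vale.Agent.P166.F (Lam)
open Vale.Agent.P146.Sk.Gen (GI gz gl r0 gS gF gOb gIsOpt GD gV)

lemma ga_le (M i : ℕ) : ga M i ≤ 1 := by
  unfold ga
  rw [← Real.sqrt_one]
  refine Real.sqrt_le_sqrt ?_
  rw [Real.sqrt_one]
  have : 0 ≤ (i : ℝ) / M := by positivity
  linarith

/-- grids -/
lemma grid_ex {δ κ : ℝ} (hδ : 0 < δ) (hδ1 : δ ≤ 1 / 2) (hκ : 0 < κ) : ∃ M i : ℕ, 0 < i ∧ i < M ∧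
    δ / 2 ≤ (i : ℝ) / M ∧ (i : ℝ) / M ≤ δ ∧ 1 / √(M : ℝ) ≤ κ := by
  obtain ⟨M, hM⟩ := exists_nat_ge (2 / δ + (1 / κ) ^ 2)
  have h1 : 2 / δ ≤ M := by linarith [sq_nonneg (1 / κ)]
  have h2 : (1 / κ) ^ 2 ≤ M := by
    have : 0 ≤ 2 / δ := by positivity
    linarith
  have h3 : 2 ≤ δ * M := by
    rw [div_le_iff₀ hδ] at h1
    linarith
  have hM0 : (0 : ℝ) < M := by
    have : 0 < 2 / δ := by positivity
    linarith
  have hf := Nat.floor_le (show 0 ≤ δ * M by positivity)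
  have hf2 := Nat.lt_floor_add_one (δ * (M : ℝ))
  refine ⟨M, ⌊δ * M⌋₊, ?_, ?_, ?_, ?_, ?_⟩
  · exact Nat.floor_pos.2 (by linarith)
  · have : ((⌊δ * M⌋₊ : ℕ) : ℝ) < M := by nlinarith
    exact_mod_cast this
  · rw [le_div_iff₀ hM0]
    linarith
  · rw [div_le_iff₀ hM0]
    exact hf
  · have h4 : 1 / κ ≤ √(M : ℝ) := Real.le_sqrt_of_sq_le h2
    have h5 : 0 < 1 / κ := by positivity
    rw [div_le_iff₀ (by linarith)]
    have h6 : κ * (1 / κ) = 1 := by field_simp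
    nlinarith

/-- the numbers of the deviation -/
lemma num_Q {β c C Ct t X e b r Q : ℝ} (hβ : 0 < β) (hc : 0 < c) (hC : 1 ≤ C) (ht : 0 < t)
    (hr : c * t ^ 5 / 2 ≤ r) (hr0 : 0 < r) (hX : X ≤ β * t ^ 15 / (2 * C ^ 2))
    (he : e ≤ 3 * (t ^ 15 / C ^ 2)) (hb : b = t ^ 18 / C)
    (hX0 : 0 ≤ X + (e + 2 * β ^ 2 * (b / (t ^ 4) ^ 2 * r)))
    (hCt : 0 < Ct) (hCC : Ct ^ 2 * (8 / (β ^ 2 * c) * (β / 2 + 3) + 8) ≤ C)
    (hQ : Q ≤ 4 / (β ^ 2 * r) * (X + (e + 2 * β ^ 2 * (b / (t ^ 4) ^ 2 * r)))) :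
    Q ≤ (t ^ 5 / Ct) ^ 2 := by
  have hC0 : 0 < C := by linarith
  have h1 : 4 / (β ^ 2 * r) * (X + (e + 2 * β ^ 2 * (b / (t ^ 4) ^ 2 * r))) =
      4 / (β ^ 2 * r) * (X + e) + 8 * (b / (t ^ 4) ^ 2) := by
    field_simp
    ring
  have h2 : X + e ≤ (β / 2 + 3) * (t ^ 15 / C ^ 2) := by
    have e1 : β * t ^ 15 / (2 * C ^ 2) = β / 2 * (t ^ 15 / C ^ 2) := by
      field_simp
    rw [e1] at hX
    linarith
  have h3 : 4 / (β ^ 2 * r) * (X + e) ≤ 4 / (β ^ 2 * r) * ((β / 2 + 3) * (t ^ 15 / C ^ 2)) :=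
    mul_le_mul_of_nonneg_left h2 (by positivity)
  have h4 : 4 / (β ^ 2 * r) ≤ 4 / (β ^ 2 * (c * t ^ 5 / 2)) :=
    div_le_div_of_nonneg_left (by norm_num) (by positivity)
      (mul_le_mul_of_nonneg_left hr (by positivity))
  have h5 : 4 / (β ^ 2 * r) * ((β / 2 + 3) * (t ^ 15 / C ^ 2)) ≤
      4 / (β ^ 2 * (c * t ^ 5 / 2)) * ((β / 2 + 3) * (t ^ 15 / C ^ 2)) :=
    mul_le_mul_of_nonneg_right h4 (by positivity)
  have h6 : 4 / (β ^ 2 * (c * t ^ 5 / 2)) * ((β / 2 + 3) * (t ^ 15 / C ^ 2)) =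
      8 / (β ^ 2 * c) * (β / 2 + 3) * (t ^ 10 / C ^ 2) := by
    field_simp
    ring
  have h7 : t ^ 10 / C ^ 2 ≤ t ^ 10 / C := by
    refine div_le_div_of_nonneg_left (by positivity) hC0 ?_
    nlinarith
  have h8 : 8 / (β ^ 2 * c) * (β / 2 + 3) * (t ^ 10 / C ^ 2) ≤
      8 / (β ^ 2 * c) * (β / 2 + 3) * (t ^ 10 / C) :=
    mul_le_mul_of_nonneg_left h7 (by positivity)
  have h9 : b / (t ^ 4) ^ 2 = t ^ 10 / C := by
    rw [hb]
    field_simp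
  have h10 : Q ≤ (8 / (β ^ 2 * c) * (β / 2 + 3) + 8) * (t ^ 10 / C) := by
    rw [h1] at hQ
    rw [h9] at hQ
    linarith only [hQ, h3, h5, h6, h8]
  refine h10.trans ?_
  have e2 : (t ^ 5 / Ct) ^ 2 = t ^ 10 / Ct ^ 2 := by
    rw [div_pow]
    ring
  rw [e2, mul_div_assoc', div_le_div_iff₀ hC0 (by positivity)]
  have h11 := mul_le_mul_of_nonneg_right hCC (show 0 ≤ t ^ 10 by positivity)
  linarith only [h11]

/-- the numbers of the decrease -/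
lemma num_X {β c C Ct t X e b r T : ℝ} (hβ : 0 < β) (hC : 1 ≤ C) (ht : 0 < t) (ht1 : t ≤ 1)
    (hc : c = 1 / (2 + 16 * β * Ct)) (hr : r ≤ c * t ^ 5)
    (he : e ≤ 3 * (t ^ 15 / C ^ 2)) (hb : b = t ^ 18 / C)
    (hCt : 1 ≤ Ct) (hC1 : 24 * Ct / β ≤ C) (hC2 : 2 * Ct ≤ C)
    (hT : 1 / (Ct * t ^ 3) ≤ T)
    (hX : β * b / 2 * T - (e + 2 * β ^ 2 * (b / (t ^ 4) ^ 2 * r)) ≤ X) :
    β * t ^ 15 / (2 * C ^ 2) ≤ X := by
  have hC0 : 0 < C := by linarith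
  have hCt0 : 0 < Ct := by linarith
  refine le_trans ?_ hX
  have h1 : β * b / 2 * (1 / (Ct * t ^ 3)) ≤ β * b / 2 * T := by
    refine mul_le_mul_of_nonneg_left hT ?_
    rw [hb]
    positivity
  have h2 : β * b / 2 * (1 / (Ct * t ^ 3)) = β / (2 * Ct) * (t ^ 15 / C) := by
    rw [hb]
    field_simp
  have h3 : b / (t ^ 4) ^ 2 = t ^ 10 / C := by
    rw [hb]
    field_simp
  have h4 : b / (t ^ 4) ^ 2 * r ≤ c * (t ^ 15 / C) := by
    rw [h3]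
    calc t ^ 10 / C * r ≤ t ^ 10 / C * (c * t ^ 5) :=
          mul_le_mul_of_nonneg_left hr (by positivity)
      _ = _ := by ring
  have h5 : 2 * β ^ 2 * c ≤ β / (8 * Ct) := by
    rw [hc, mul_one_div, div_le_div_iff₀ (by positivity) (by positivity)]
    nlinarith [mul_pos hβ hCt0]
  have h6 : 3 * (t ^ 15 / C ^ 2) ≤ β / (8 * Ct) * (t ^ 15 / C) := by
    have h7 : 3 / C ≤ β / (8 * Ct) := by
      rw [div_le_iff₀ hβ] at hC1
      rw [div_le_div_iff₀ hC0 (by positivity)]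
      linarith
    have e1 : 3 * (t ^ 15 / C ^ 2) = 3 / C * (t ^ 15 / C) := by
      field_simp
    rw [e1]
    exact mul_le_mul_of_nonneg_right h7 (by positivity)
  have h8 : 2 * β ^ 2 * (b / (t ^ 4) ^ 2 * r) ≤ β / (8 * Ct) * (t ^ 15 / C) := by
    calc 2 * β ^ 2 * (b / (t ^ 4) ^ 2 * r) ≤ 2 * β ^ 2 * (c * (t ^ 15 / C)) :=
          mul_le_mul_of_nonneg_left h4 (by positivity)
      _ = 2 * β ^ 2 * c * (t ^ 15 / C) := by ring
      _ ≤ _ := mul_le_mul_of_nonneg_right h5 (by positivity)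
  have h9 : β * t ^ 15 / (2 * C ^ 2) ≤ β / (4 * Ct) * (t ^ 15 / C) := by
    have h10 : 1 / (2 * C) ≤ 1 / (4 * Ct) :=
      one_div_le_one_div_of_le (by positivity) (by linarith)
    have e2 : β * t ^ 15 / (2 * C ^ 2) = β * (1 / (2 * C)) * (t ^ 15 / C) := by
      field_simp
    have e3 : β / (4 * Ct) * (t ^ 15 / C) = β * (1 / (4 * Ct)) * (t ^ 15 / C) := by ring
    rw [e2, e3]
    exact mul_le_mul_of_nonneg_right (mul_le_mul_of_nonneg_left h10 hβ.le) (by positivity)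
  have e4 : β / (2 * Ct) * (t ^ 15 / C) = β / (8 * Ct) * (t ^ 15 / C) +
      β / (8 * Ct) * (t ^ 15 / C) + β / (4 * Ct) * (t ^ 15 / C) := by
    field_simp
    norm_num
  linarith only [h1, h2, h6, h8, h9, e4, he]

/-- **The decrease of the free energy.** -/
theorem xq {β P0 : ℝ} (hβ : 0 < β) (hP : ParU β P0) : XQ 15 18 β P0 := by
  obtain ⟨C₄, hC₄, hpar⟩ := hP
  obtain ⟨Ct, hCt1, htb⟩ := Vale.Agent.P146.R3.H729.TbLow.tb_low hβ C₄ hC₄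
  have hCt0 : 0 < Ct := by linarith
  obtain ⟨c, hc⟩ : ∃ c : ℝ, c = 1 / (2 + 16 * β * Ct) := ⟨_, rfl⟩
  have hc0 : 0 < c := by rw [hc]; positivity
  have hc2 : c ≤ 1 / 2 := by
    rw [hc]
    exact one_div_le_one_div_of_le (by norm_num) (by nlinarith [mul_pos hβ hCt0])
  obtain ⟨C, hC⟩ : ∃ C : ℝ, C = 1 + Ct + Ct ^ 2 * (8 / (β ^ 2 * c) * (β / 2 + 3) + 8) +
    24 * Ct / β + 2 * Ct := ⟨_, rfl⟩
  have q1 : 0 ≤ Ct ^ 2 * (8 / (β ^ 2 * c) * (β / 2 + 3) + 8) := by positivity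
  have q2 : 0 ≤ 24 * Ct / β := by positivity
  have hC1 : 1 ≤ C := by rw [hC]; linarith
  have hCt : Ct ≤ C := by rw [hC]; linarith
  have hCC : Ct ^ 2 * (8 / (β ^ 2 * c) * (β / 2 + 3) + 8) ≤ C := by rw [hC]; linarith
  have hCb : 24 * Ct / β ≤ C := by rw [hC]; linarith
  have hC2t : 2 * Ct ≤ C := by rw [hC]; linarith
  clear hC q1 q2
  have hC0 : 0 < C := by linarith
  refine ⟨C, hC1, fun N t ε hN ht htC hNt hε hεt hPN => ?_⟩
  have ht1 : t ≤ 1 := htC.trans (by rw [div_le_one hC0]; exact hC1)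
  have hk : ∀ k, 0 < t ^ k := fun k => by positivity
  have hk1 : ∀ k, t ^ k ≤ 1 := fun k => pow_le_one₀ ht.le ht1
  have hCsq : 1 ≤ C ^ 2 := one_le_pow₀ hC1
  obtain ⟨η, hη⟩ : ∃ η : ℝ, η = t ^ 15 / C ^ 2 := ⟨_, rfl⟩
  have hη0 : 0 < η := by rw [hη]; positivity
  have hη3 : η ≤ t ^ 3 := by
    rw [hη]
    calc t ^ 15 / C ^ 2 ≤ t ^ 15 / 1 := div_le_div_of_nonneg_left (hk 15).le one_pos hCsq
      _ = t ^ 15 := div_one _
      _ ≤ t ^ 3 := pow_le_pow_of_le_one ht.le ht1 (by norm_num)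
  obtain ⟨K, m, q, hm', hq, hq1, hPS, hLu⟩ := hpar η hη0 (hη3.trans (hk1 3))
  refine ⟨K, m, hm', ?_⟩
  by_contra hcon
  push Not at hcon
  have hbC : t ^ 18 / C ≤ 1 := by
    rw [div_le_one hC0]
    exact (hk1 18).trans hC1
  obtain ⟨b, hb⟩ : ∃ b : ℝ, b = t ^ 18 / C := ⟨_, rfl⟩
  rw [← hb] at hcon hbC
  have hb0 : 0 < b := by rw [hb]; positivity
  have hδ : c * t ^ 5 ≤ 1 / 2 := by
    calc c * t ^ 5 ≤ 1 / 2 * 1 := mul_le_mul hc2 (hk1 5) (hk 5).le (by norm_num)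
      _ = 1 / 2 := mul_one _
  have hκ : 0 < t ^ 15 / C ^ 2 / (3 * β ^ 2) := by positivity
  obtain ⟨M, i, hi0, hiM, hr1, hr2, hM⟩ := grid_ex (show 0 < c * t ^ 5 by positivity) hδ hκ
  have hM0 : 0 < M := by omega
  have hM' : (0 : ℝ) < M := by exact_mod_cast hM0
  have hi' : (0 : ℝ) < i := by exact_mod_cast hi0
  have hMe : 3 * (β ^ 2 / √(M : ℝ)) ≤ t ^ 15 / C ^ 2 := by
    have h1 := mul_le_mul_of_nonneg_left hM (show 0 ≤ 3 * β ^ 2 by positivity)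
    have e1 : 3 * β ^ 2 * (1 / √(M : ℝ)) = 3 * (β ^ 2 / √(M : ℝ)) := by ring
    have e2 : 3 * β ^ 2 * (t ^ 15 / C ^ 2 / (3 * β ^ 2)) = t ^ 15 / C ^ 2 := by
      field_simp
    rwa [e1, e2] at h1
  have hPP : PSK β K m q ≤ pN β N + (ε + η) := by linarith
  obtain ⟨j, hji, hQ, hX⟩ := win (y := t ^ 4) (b := b) hβ (hk 4) hN hm' hq hq1 hb0.le hPP hi0 hiM
  obtain ⟨X, hXd⟩ : ∃ X : ℝ, X = pN β N -
    gF K m (Ey N β (t ^ 4) 1 b) (spin (N := N)) (fun _ => 0) := ⟨_, rfl⟩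
  rw [← hXd] at hQ hX hcon
  obtain ⟨r, hrd⟩ : ∃ r : ℝ, r = (i : ℝ) / M := ⟨_, rfl⟩
  have hr0 : 0 < r := by rw [hrd]; positivity
  rw [← hrd] at hQ hX hr1 hr2
  have hεe : ε ≤ t ^ 15 / C ^ 2 := by
    rw [le_div_iff₀ (by positivity)]
    linarith
  obtain ⟨e, he⟩ : ∃ e : ℝ, e = ε + η + 3 * (β ^ 2 / √(M : ℝ)) := ⟨_, rfl⟩
  have heb : e ≤ 3 * (t ^ 15 / C ^ 2) := by
    rw [he]
    linarith [hη.le]
  rw [← he] at hQ hX
  have hXu : X ≤ β * t ^ 15 / (2 * C ^ 2) := by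
    have e1 : β * b / 2 * (1 / (C * t ^ 3)) = β * t ^ 15 / (2 * C ^ 2) := by
      rw [hb]
      field_simp
    linarith
  have hTb0 : 0 ≤ Tb (t ^ 4) (SI N K m q β (t ^ 4) (ga M j) b (gt M j)) :=
    (tb_bounds β (hk 4) hN hm' _ _ _).1
  have hX0 : 0 ≤ X + (e + 2 * β ^ 2 * (b / (t ^ 4) ^ 2 * r)) := by
    have := mul_nonneg (show 0 ≤ β * b / 2 by positivity) hTb0
    linarith only [hX, this]
  have hQ' := num_Q (Ct := Ct) hβ hc0 hC1 ht hr1 hr0 hXu heb hb hX0 hCt0 hCC hQ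
  have hga1 : ga M j ≤ 1 := ga_le M j
  have hga2 : 1 - t ^ 3 ≤ ga M j := by
    have h1 := ga_ge hM0 (show j ≤ M by omega)
    have h2 : (j : ℝ) / M ≤ r := by
      rw [hrd]
      have : (j : ℝ) ≤ i := by exact_mod_cast hji.le
      gcongr
    have h3 : c * t ^ 5 ≤ t ^ 3 := by
      calc c * t ^ 5 ≤ 1 * t ^ 5 := mul_le_mul_of_nonneg_right (by linarith) (hk 5).le
        _ = t ^ 5 := one_mul _
        _ ≤ t ^ 3 := pow_le_pow_of_le_one ht.le ht1 (by norm_num)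
    linarith
  have hT := htb N K m q t (ga M j) b (sg β q (gt M j)) hN hm' hq hq1 ht
    (htC.trans (one_div_le_one_div_of_le hCt0 hCt)) (hCt.trans hNt)
    (fun u hu => ⟨by linarith [(hLu u hu).1], by linarith [(hLu u hu).2]⟩)
    ⟨ga_nonneg M j, hga1⟩ hga2 ⟨hb0.le, hbC⟩ (by
      rw [hb]
      calc Ct * (t ^ 18 / C) = Ct / C * t ^ 18 := by ring
        _ ≤ 1 * t ^ 18 := mul_le_mul_of_nonneg_right (by
            rw [div_le_one hC0]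
            exact hCt) (hk 18).le
        _ = t ^ 18 := one_mul _
        _ ≤ t ^ 13 := pow_le_pow_of_le_one ht.le ht1 (by norm_num))
    (fun l _ => sg_nonneg hβ.le (gt_nonneg M j) l) hQ'
  have hfin := num_X hβ hC1 ht ht1 hc hr2 heb hb hCt1 hCb hC2t hT hX
  have e1 : β * b / 2 * (1 / (C * t ^ 3)) = β * t ^ 15 / (2 * C ^ 2) := by
    rw [hb]
    field_simp
  linarith

end Vale.Agent.P146.R3.H732.LB
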