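import Vale.Agent.P146.Bdl.B40

/-!
# P146, explicit lower exponent: the statements of the pieces
-/

open MeasureTheory ProbabilityTheory

namespace Vale.Agent.P146.R3.H732.LB

open Vale.Agent.P157 (spin)
open Vale.Agent.P157.Par (Path Exponents)
open Vale.Agent.P146.Sk
open Vale.Agent.P146.Sk.Gen (gF)

/-- The Parisi side: near minimisers of the functional (`P0` is its infimum) satisfy the contact
equation up to a quadratic error. -/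
def ParU (β P0 : ℝ) : Prop := ∃ C : ℝ, 1 ≤ C ∧ ∀ η : ℝ, 0 < η → η ≤ 1 →
  ∃ (K : ℕ) (m q : ℕ → ℝ), Exponents K m ∧ Path K q ∧ q K ≤ 1 ∧ PSK β K m q ≤ P0 + η ∧
    ∀ u ∈ Set.Icc (0 : ℝ) 1, 1 - C * u ^ 2 - η ≤ β * Vale.Agent.P166.F.Lam K m q u ∧
      β * Vale.Agent.P166.F.Lam K m q u ≤ 1 + η

/-- The decrease of the free energy under the perturbation by the resolvent. -/
def XQ (D E : ℕ) (β P0 : ℝ) : Prop := ∃ C : ℝ, 1 ≤ C ∧ ∀ (N : ℕ) (t ε : ℝ), 0 < N → 0 < t →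
  t ≤ 1 / C → C ≤ N * t ^ 24 → 0 ≤ ε → C ^ 2 * ε ≤ t ^ D → P0 ≤ pN β N + ε →
  ∃ (n : ℕ) (m : ℕ → ℝ), Exponents n m ∧
    β * (t ^ E / C) / 2 * (1 / (C * t ^ 3)) ≤
      pN β N - gF n m (Pw2.Ey N β (t ^ 4) 1 (t ^ E / C)) (spin (N := N)) (fun _ => 0)

end Vale.Agent.P146.R3.H732.LB
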