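import Vale.Agent.P146.R3.H732.LB1

set_option linter.all false

/-!
# P146, sharper lower exponent: the sign of the cross term, pointwise
-/

open MeasureTheory ProbabilityTheory Matrix Filter Topology

namespace Vale.Agent.P146.R3.H732.LC

open Vale.Agent.P157 (spin)
open Vale.Agent.P157.Lv
open Vale.Agent.P157.Lv.Sy
open Vale.Agent.P157.Par (Path Exponents topN lw spinPart)
open Vale.Agent.P146.Sk
open Vale.Agent.P146.Pw2
open Vale.Agent.P146.Sk.Gen (GI gz gl r0 gS gF gOb gIsOpt GD gV)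

variable {N : ℕ} {M W : Matrix (Fin N) (Fin N) ℝ} {y s : ℝ}

/-- Cauchy-Schwarz for positive semidefinite forms -/
lemma psd_cs (hM : Mᵀ = M) (h : ∀ v : Fin N → ℝ, 0 ≤ v ⬝ᵥ (M *ᵥ v)) (u v : Fin N → ℝ) :
    (u ⬝ᵥ (M *ᵥ v)) ^ 2 ≤ (u ⬝ᵥ (M *ᵥ u)) * (v ⬝ᵥ (M *ᵥ v)) := by
  have hs : v ⬝ᵥ (M *ᵥ u) = u ⬝ᵥ (M *ᵥ v) := by
    rw [dotProduct_comm, Rec.symm_dot hM, dotProduct_comm]
  have h1 : ∀ t : ℝ, 0 ≤ (v ⬝ᵥ (M *ᵥ v)) * (t * t) + (2 * (u ⬝ᵥ (M *ᵥ v))) * t +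
      u ⬝ᵥ (M *ᵥ u) := by
    intro t
    have h2 := h (u + t • v)
    rw [mulVec_add, mulVec_smul, dotProduct_add, add_dotProduct, add_dotProduct,
      dotProduct_smul, dotProduct_smul, smul_dotProduct, smul_dotProduct, hs] at h2
    simp only [smul_eq_mul] at h2
    linarith only [h2]
  have h3 := discrim_le_zero h1
  unfold discrim at h3
  linarith only [h3]

/-- the shifted real part is positive semidefinite -/
lemma psd_shift (hW : Wᵀ = W) (hy : 0 < y) (hs : 0 ≤ s)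
    (hg : ∀ v : Fin N → ℝ, v ⬝ᵥ (W *ᵥ v) ≤ (2 + s) * (v ⬝ᵥ v)) (v : Fin N → ℝ) :
    0 ≤ v ⬝ᵥ ((Ay y W + (s / y) • By y W) *ᵥ v) := by
  have hP : ∀ u : Fin N → ℝ, 0 ≤ u ⬝ᵥ (Km W *ᵥ u) + s * (u ⬝ᵥ u) := by
    intro u
    have h1 := hg u
    unfold Km
    rw [sub_mulVec, smul_mulVec, one_mulVec, dotProduct_sub, dotProduct_smul, smul_eq_mul]
    linarith only [h1]
  set u := Hy y W *ᵥ v with hu
  have hv : v = Pm y W *ᵥ u := by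
    rw [hu, mulVec_mulVec, Pm_mul_Hy hW hy, one_mulVec]
  have e1 : (Ay y W + (s / y) • By y W) *ᵥ v = Km W *ᵥ u + s • u := by
    rw [add_mulVec, smul_mulVec, Ay_def, By_def, smul_mulVec, smul_smul, ← mulVec_mulVec, ← hu]
    congr 2
    field_simp
  rw [e1]
  have hK : (Km W)ᵀ = Km W := Km_transpose hW
  have e2 : v = Km W *ᵥ (Km W *ᵥ u) + y ^ 2 • u := by
    conv_lhs => rw [hv]
    unfold Pm
    rw [add_mulVec, smul_mulVec, one_mulVec, ← mulVec_mulVec]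
  have e3 : ∀ a b : Fin N → ℝ, (Km W *ᵥ a) ⬝ᵥ b = a ⬝ᵥ (Km W *ᵥ b) := fun a b => by
    rw [Rec.symm_dot hK, dotProduct_comm]
  have e4 : v ⬝ᵥ (Km W *ᵥ u + s • u) =
      ((Km W *ᵥ u) ⬝ᵥ (Km W *ᵥ (Km W *ᵥ u)) + s * ((Km W *ᵥ u) ⬝ᵥ (Km W *ᵥ u))) +
      y ^ 2 * (u ⬝ᵥ (Km W *ᵥ u) + s * (u ⬝ᵥ u)) := by
    have e5 : (Km W *ᵥ (Km W *ᵥ u)) ⬝ᵥ (Km W *ᵥ u) =
        (Km W *ᵥ u) ⬝ᵥ (Km W *ᵥ (Km W *ᵥ u)) := e3 _ _
    have e6 : (Km W *ᵥ (Km W *ᵥ u)) ⬝ᵥ u = (Km W *ᵥ u) ⬝ᵥ (Km W *ᵥ u) := e3 _ _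
    conv_lhs => rw [e2]
    rw [add_dotProduct, dotProduct_add, dotProduct_add, smul_dotProduct, smul_dotProduct,
      dotProduct_smul, dotProduct_smul, e5, e6]
    simp only [smul_eq_mul]
    ring
  rw [e4]
  have h1 := hP (Km W *ᵥ u)
  have h2 := mul_nonneg (sq_nonneg y) (hP u)
  linarith only [h1, h2]

lemma psd_By (hW : Wᵀ = W) (hy : 0 < y) (v : Fin N → ℝ) : 0 ≤ v ⬝ᵥ (By y W *ᵥ v) := by
  rw [By_def, smul_mulVec, dotProduct_smul, smul_eq_mul]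
  exact mul_nonneg hy.le (dot_Hy_nonneg hW hy v)

/-- numbers -/
lemma prod_le {u w p p' q q' : ℝ} (hp : 0 ≤ p) (hp' : 0 ≤ p') (hq : 0 ≤ q) (hq' : 0 ≤ q')
    (hu : u ^ 2 ≤ p * p') (hw : w ^ 2 ≤ q * q') : u * w ≤ 1 / 2 * (p * q) + 1 / 2 * (p' * q') := by
  refine abs_le_of_sq_le_sq' ?_ (by positivity) |>.2
  have h1 : (u * w) ^ 2 ≤ (p * q) * (p' * q') := by
    calc (u * w) ^ 2 = u ^ 2 * w ^ 2 := by ring
      _ ≤ (p * p') * (q * q') := mul_le_mul hu hw (sq_nonneg _) (by positivity)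
      _ = _ := by ring
  nlinarith [sq_nonneg (p * q - p' * q')]

/-- the product of the two forms -/
noncomputable def f2 (y : ℝ) (W : Matrix (Fin N) (Fin N) ℝ) (u v : Fin N → ℝ) : ℝ :=
  (1 / (N : ℝ) * (u ⬝ᵥ (Ay y W *ᵥ v))) * (1 / (N : ℝ) * (u ⬝ᵥ (By y W *ᵥ v)))

lemma form_le (hN : 0 < N) {A : Matrix (Fin N) (Fin N) ℝ} {α : ℝ} (hA : OpB A α) (hα : 0 ≤ α)
    {u v : Fin N → ℝ} (hu : nv u ^ 2 = N) (hv : nv v ^ 2 = N) :
    |1 / (N : ℝ) * (u ⬝ᵥ (A *ᵥ v))| ≤ α := by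
  have hN' : (0 : ℝ) < N := by exact_mod_cast hN
  have h1 := hA.abs_dot_le u v
  have h2 : nv u * nv v = N := by
    have h3 : (nv u * nv v) ^ 2 = (N : ℝ) ^ 2 := by rw [mul_pow, hu, hv]; ring
    have h4 : 0 ≤ nv u * nv v := mul_nonneg (nv_nonneg _) (nv_nonneg _)
    nlinarith [sq_nonneg (nv u * nv v - N), sq_nonneg (nv u * nv v + N)]
  rw [abs_mul, abs_of_pos (by positivity : (0 : ℝ) < 1 / N)]
  rw [h2] at h1
  calc 1 / (N : ℝ) * |u ⬝ᵥ (A *ᵥ v)| ≤ 1 / N * (α * N) := mul_le_mul_of_nonneg_left h1 (by positivity)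
    _ = α := by field_simp

/-- the form on the good event -/
lemma f2_good (hN : 0 < N) (hW : Wᵀ = W) (hy : 0 < y) (hs : 0 ≤ s)
    (hg : ∀ v : Fin N → ℝ, v ⬝ᵥ (W *ᵥ v) ≤ (2 + s) * (v ⬝ᵥ v)) {u v : Fin N → ℝ}
    (hu : nv u ^ 2 = N) (hv : nv v ^ 2 = N) :
    f2 y W u v ≤ 1 / 2 * f2 y W u u + 1 / 2 * f2 y W v v + s / y ^ 3 := by
  have hN' : (0 : ℝ) < N := by exact_mod_cast hN
  have hMs : (Ay y W + (s / y) • By y W)ᵀ = Ay y W + (s / y) • By y W := by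
    rw [transpose_add, transpose_smul, Ay_transpose hW hy, By_transpose hW]
  have hpM := psd_shift hW hy hs hg
  have hpB := psd_By hW hy
  have c1 := psd_cs hMs hpM u v
  have c2 := psd_cs (By_transpose hW) hpB u v
  have e : ∀ a b : Fin N → ℝ, a ⬝ᵥ ((Ay y W + (s / y) • By y W) *ᵥ b) =
      a ⬝ᵥ (Ay y W *ᵥ b) + s / y * (a ⬝ᵥ (By y W *ᵥ b)) := by
    intro a b
    rw [add_mulVec, smul_mulVec, dotProduct_add, dotProduct_smul, smul_eq_mul]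
  have p1 := hpM u
  have p2 := hpM v
  rw [e] at c1 p1 p2
  rw [e, e] at c1
  have p3 := hpB u
  have p4 := hpB v
  have key := prod_le p1 p2 p3 p4 c1 c2
  have hb := fun {a : Fin N → ℝ} (ha : nv a ^ 2 = N) =>
    form_le hN (By_opB hW hy) (by positivity) ha ha
  have bu := hb hu
  have bv := hb hv
  have sq1 : (1 / (N : ℝ) * (u ⬝ᵥ (By y W *ᵥ u))) ^ 2 ≤ 1 / y ^ 2 := by
    rw [← sq_abs]
    calc _ ≤ (1 / y) ^ 2 := pow_le_pow_left₀ (abs_nonneg _) bu 2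
      _ = _ := by rw [one_div, one_div, inv_pow]
  have sq2 : (1 / (N : ℝ) * (v ⬝ᵥ (By y W *ᵥ v))) ^ 2 ≤ 1 / y ^ 2 := by
    rw [← sq_abs]
    calc _ ≤ (1 / y) ^ 2 := pow_le_pow_left₀ (abs_nonneg _) bv 2
      _ = _ := by rw [one_div, one_div, inv_pow]
  have k0 : 0 ≤ s / y * (1 / (N : ℝ) * (u ⬝ᵥ (By y W *ᵥ v))) ^ 2 := by positivity
  have k1 := mul_le_mul_of_nonneg_left sq1 (show 0 ≤ s / y by positivity)
  have k2 := mul_le_mul_of_nonneg_left sq2 (show 0 ≤ s / y by positivity)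
  have e5 : s / y * (1 / y ^ 2) = s / y ^ 3 := by
    rw [div_mul_div_comm, mul_one]
    congr 1
    ring
  rw [e5] at k1 k2
  have key2 := mul_le_mul_of_nonneg_left key (show 0 ≤ (1 / (N : ℝ)) ^ 2 by positivity)
  unfold f2
  linarith only [key2, k0, k1, k2]

/-- the form in general -/
lemma f2_all (hN : 0 < N) (hW : Wᵀ = W) (hy : 0 < y) {u v : Fin N → ℝ}
    (hu : nv u ^ 2 = N) (hv : nv v ^ 2 = N) : |f2 y W u v| ≤ 1 / y ^ 2 := by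
  unfold f2
  rw [abs_mul]
  calc _ ≤ 1 / y * (1 / y) := mul_le_mul (form_le hN (Ay_opB hW hy) (by positivity) hu hv)
        (form_le hN (By_opB hW hy) (by positivity) hu hv) (abs_nonneg _) (by positivity)
    _ = _ := by rw [div_mul_div_comm, mul_one, sq]

end Vale.Agent.P146.R3.H732.LC
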