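import Vale.Agent.P146.R3.H732.LC1

set_option linter.all false

/-!
# P146, sharper lower exponent: the one-sided integration by parts for `T_w`
-/

open MeasureTheory ProbabilityTheory Matrix Filter Topology

namespace Vale.Agent.P146.R3.H732.LC

open Vale.Agent.P157 (spin)
open Vale.Agent.P157.Lv
open Vale.Agent.P157.Lv.Sy
open Vale.Agent.P157.Par (Path Exponents topN lw spinPart)
open Vale.Agent.P146.Sk
open Vale.Agent.P146.Pw2
open Vale.Agent.P146.R3.H732.LB
open Vale.Agent.P146.Sk.Gen (GI gz gl r0 gS gF gOb gIsOpt GD gV)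

variable {N K : ℕ} {m : ℕ → ℝ} {β y a b : ℝ} {s : ℕ → ℝ}

section gen

variable {ι X : Type} [Fintype ι] [DecidableEq ι] [Fintype X] [DecidableEq X] [Nonempty X]
  {S : Sy ι X}

/-- conditional averages of functions with coefficients of the level zero -/
lemma T_pr0 (hS : S.Reg) {l : ℕ} (hl : l ≤ S.K) {f : (ι → ℝ) → X → ℝ} (hf : Nh f)
    (hd : ∀ x, Dep S.lev 0 (fun z => f z x)) (z : ι → ℝ) :
    S.T l f z = ∑ x, S.pr l z x * f z x := by
  have e : f = fun (z : ι → ℝ) (y : X) => ∑ x, f z x * (fun (_ : ι → ℝ) (y : X) =>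
        if y = x then (1 : ℝ) else 0) z y := by
    funext z y
    simp
  have hn : ∀ x ∈ (Finset.univ : Finset X), Nh (fun (z : ι → ℝ) (y : X) =>
      f z x * (fun (_ : ι → ℝ) (y : X) => if y = x then (1 : ℝ) else 0) z y) := fun x _ =>
    Nh.mul (Nh.fst (hf x)) (Nh.snd fun y => if y = x then (1 : ℝ) else 0)
  conv_lhs => rw [e]
  rw [hS.T_sum hl Finset.univ hn]
  refine Finset.sum_congr rfl fun x _ => ?_
  rw [T_mul_left S ((hd x).mono (Nat.zero_le l)), mul_comm]
  rfl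

/-- the second marginal of a pair -/
lemma PE_snd (hS : S.Reg) {i : ℕ} {f : (ι → ℝ) → X → ℝ} (hf : Nh f)
    (hd : ∀ x, Dep S.lev 0 (fun z => f z x)) :
    Rec.PE S i (fun z _ x' => f z x') = S.Ex f := by
  unfold Rec.PE
  split_ifs with hi
  · rw [← hS.Ex_T hi hf]
    congr 1
    funext z x
    rw [T_pr0 hS hi hf hd]
  · rfl

end gen

section sys

/-- the product of the forms for a pair -/
noncomputable def FF (N K : ℕ) (y : ℝ) (z : GI (Ix N) N K → ℝ) (x x' : Fin N → Bool) : ℝ :=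
  f2 y (Wm N (r0 z)) (spin x) (spin x')

lemma eg_form {P : (Ix N → ℝ) → Matrix (Fin N) (Fin N) ℝ} (hP : EGM P) (u v : Fin N → ℝ) :
    EG (fun g : Ix N → ℝ => 1 / (N : ℝ) * (u ⬝ᵥ (P g *ᵥ v))) := by
  refine EG.const_mul _ ?_
  simp only [dotProduct, mulVec]
  exact EG.sum _ fun i _ => (EG.const (u i)).mul (EG.sum _ fun j _ => (hP i j).mul (EG.const _))

lemma eg_f2 (hy : 0 < y) (u v : Fin N → ℝ) : EG (fun g : Ix N → ℝ => f2 y (Wm N g) u v) :=
  (eg_form (egm_ay hy) u v).mul (eg_form (egm_by hy) u v)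

lemma nh2_FF (hy : 0 < y) : Rec.Nh2 (FF N K y) := fun x' x =>
  Gen.EG.r0 (eg_f2 hy (spin x) (spin x'))

lemma dep_r0 (S : Sy (GI (Ix N) N K) (Fin N → Bool)) (hl : S.lev = gl) (F : (Ix N → ℝ) → ℝ) :
    Dep S.lev 0 (fun z => F (r0 z)) := by
  rw [hl]
  exact Rec.dep_g (g := fun e => (Sum.inl e : GI (Ix N) N K)) (fun e => rfl) F

lemma sum_Me_Me (hN : 0 < N) (x u v : Fin N → ℝ) :
    ∑ e : Ix N, Me x x e * Me u v e = 2 / N * ((x ⬝ᵥ u) * (x ⬝ᵥ v)) := by
  have hN' : (0 : ℝ) < N := by exact_mod_cast hN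
  have h1 : ∀ e : Ix N, Me x x e * Me u v e = 2 * (Me u v e * (x e.1 * x e.2 / √(2 * (N : ℝ)))) := by
    intro e
    unfold Me
    ring
  simp only [h1, ← Finset.mul_sum]
  rw [sum_Me_mul hN, dotProduct_comm u x, dotProduct_comm v x]
  ring

/-- the cross term -/
lemma cross_i (hN : 0 < N) (hy : 0 < y) (hm' : Exponents K m) (i : ℕ) :
    (sy N K m β y a b s).Ex (fun z x => ∑ e : Ix N, Me (spin x) (spin x) e *
      Rec.Ti (sy N K m β y a b s) i (fun z x => Gd.Bq N β y b e (r0 z) x) z x) =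
      -(2 * (β * b)) * (N * Rec.PE (sy N K m β y a b s) i (FF N K y)) := by
  have hN' : (0 : ℝ) < N := by exact_mod_cast hN
  have h := Gd.gd_Dq (K := K) hN hy hm' β a b
  set S := sy N K m β y a b s with hSd
  have hS : S.Reg := Gen.gS_reg h s
  have hlev : S.lev = gl := rfl
  have key : ∀ (z : GI (Ix N) N K → ℝ) (x x' : Fin N → Bool), ∑ e : Ix N,
      Me (spin x) (spin x) e * Gd.Bq N β y b e (r0 z) x' = -(2 * (β * b)) * (N * FF N K y z x x') := by
    intro z x x'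
    have e1 : ∀ e : Ix N, Me (spin x) (spin x) e * Gd.Bq N β y b e (r0 z) x' =
        -(β * b) * (Me (spin x) (spin x) e * Me (Ay y (Wm N (r0 z)) *ᵥ spin x')
          (By y (Wm N (r0 z)) *ᵥ spin x') e) := by
      intro e
      unfold Gd.Bq
      ring
    simp only [e1, ← Finset.mul_sum]
    rw [sum_Me_Me hN]
    unfold FF f2
    field_simp
  have hBe : ∀ (e : Ix N) (x : Fin N → Bool), EG (fun z : Ix N → ℝ => Gd.Bq N β y b e z x) :=
    fun e x => EG.of_bdd (Gd.measurable_Bq hy β b e x) fun g => Gd.abs_Bq_le hN hy β b e g x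
  rw [show -(2 * (β * b)) * ((N : ℝ) * Rec.PE S i (FF N K y)) =
    (-(2 * (β * b)) * N) * Rec.PE S i (FF N K y) by ring, ← Rec.PE_const_mul]
  unfold Rec.PE Rec.Ti
  split_ifs with hi
  · congr 1
    funext z x
    have h1 : ∀ e : Ix N, S.T i (fun z x => Gd.Bq N β y b e (r0 z) x) z =
        ∑ x', S.pr i z x' * Gd.Bq N β y b e (r0 z) x' := fun e =>
      T_pr0 hS hi (fun x => Gen.EG.r0 (hBe e x)) (fun x => dep_r0 S hlev fun g =>
        Gd.Bq N β y b e g x) z
    simp only [h1, Finset.mul_sum]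
    rw [Finset.sum_comm]
    refine Finset.sum_congr rfl fun x' _ => ?_
    calc ∑ e : Ix N, Me (spin x) (spin x) e * (S.pr i z x' * Gd.Bq N β y b e (r0 z) x') =
          S.pr i z x' * ∑ e : Ix N, Me (spin x) (spin x) e * Gd.Bq N β y b e (r0 z) x' := by
          rw [Finset.mul_sum]
          exact Finset.sum_congr rfl fun e _ => by ring
      _ = _ := by rw [key]; ring
  · congr 1
    funext z x
    rw [key]
    ring

/-- one term of the integration by parts, exactly -/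
lemma term_eq (hN : 0 < N) (hy : 0 < y) (hm' : Exponents K m) (i : ℕ) :
    (sy N K m β y a b s).Ex (fun z x => ∑ e : Ix N, Me (spin x) (spin x) e *
      Rec.Ti (sy N K m β y a b s) i (Gen.gD (Gd.Dq N β y a b) spin s (Sum.inl e)) z x) =
      N * (β * a * P2 (sy N K m β y a b s) i -
        2 * (β * b) * Rec.PE (sy N K m β y a b s) i (FF N K y)) := by
  have hN' : (0 : ℝ) < N := by exact_mod_cast hN
  have h := Gd.gd_Dq (K := K) hN hy hm' β a b
  have hBe : ∀ (e : Ix N) (x : Fin N → Bool), EG (fun z : Ix N → ℝ => Gd.Bq N β y b e z x) :=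
    fun e x => EG.of_bdd (Gd.measurable_Bq hy β b e x) fun g => Gd.abs_Bq_le hN hy β b e g x
  have hBw : ∀ (z : Ix N → ℝ) (x : Fin N → Bool), ∑ e, Gd.Bq N β y b e z x ^ 2 ≤
      N * (2 * β ^ 2 * b ^ 2 / y ^ 4) := fun z x => Gd.sum_Bq_sq hN hy β b z x
  have hcr := cross_i (m := m) (β := β) (a := a) (b := b) (s := s) hN hy hm' i
  have hC : Rec.Ctx (sy N K m β y a b s) (Gen.gD (Gd.Dq N β y a b) spin s)
      (fun e => (Sum.inl e : GI (Ix N) N K)) spin (β * a)
      (fun e z x => Gd.Bq N β y b e (r0 z) x) (fun _ => 2 * β ^ 2 * b ^ 2 / y ^ 4) :=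
    ctx_q (s := s) hN h (fun e z x => rfl) hBe hBw
  set S := sy N K m β y a b s with hSdef
  have hS : S.Reg := Gen.gS_reg h s
  have nM : ∀ e : Ix N, Nh (ι := GI (Ix N) N K)
      (fun _ x => Me (spin (N := N) x) (spin x) e) := fun e => Nh.snd fun x =>
        Me (spin (N := N) x) (spin x) e
  have nP : ∀ e : Ix N, Nh (ι := GI (Ix N) N K)
      (fun _ x => spin (N := N) x e.1 * spin x e.2 / √(2 * (N : ℝ))) := fun e =>
    Nh.snd fun x => spin (N := N) x e.1 * spin x e.2 / √(2 * (N : ℝ))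
  have nB : ∀ e : Ix N, Nh (ι := GI (Ix N) N K) (fun z x => Gd.Bq N β y b e (r0 z) x) := hC.nB
  have hD : ∀ e : Ix N, Gen.gD (Gd.Dq N β y a b) spin s (Sum.inl e : GI (Ix N) N K) =
      fun z x => (β * a) * (fun (_ : GI (Ix N) N K → ℝ) (x : Fin N → Bool) =>
        spin x e.1 * spin x e.2 / √(2 * (N : ℝ))) z x + Gd.Bq N β y b e (r0 z) x := by
    intro e
    funext z x
    exact hC.dB e z x
  have e1 : (fun z x => ∑ e : Ix N, Me (spin x) (spin x) e *
      Rec.Ti S i (Gen.gD (Gd.Dq N β y a b) spin s (Sum.inl e)) z x) = fun z x =>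
      (β * a) * ∑ e : Ix N, Me (spin x) (spin x) e *
        Rec.Ti S i (fun _ x => spin x e.1 * spin x e.2 / √(2 * (N : ℝ))) z x +
      ∑ e : Ix N, Me (spin x) (spin x) e *
        Rec.Ti S i (fun z x => Gd.Bq N β y b e (r0 z) x) z x := by
    funext z x
    rw [Finset.mul_sum, ← Finset.sum_add_distrib]
    refine Finset.sum_congr rfl fun e _ => ?_
    rw [hD e, Rec.Ti_add hS i (Nh.const_mul (β * a) (nP e)) (nB e), Rec.Ti_const_mul]
    ring
  have n1 : Nh (fun (z : GI (Ix N) N K → ℝ) x => ∑ e : Ix N, Me (spin x) (spin x) e *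
        Rec.Ti S i (fun _ x => spin x e.1 * spin x e.2 / √(2 * (N : ℝ))) z x) :=
    Nh.sum _ fun e _ => Nh.mul (nM e) (Rec.nh_Ti hS i (nP e))
  have n2 : Nh (fun (z : GI (Ix N) N K → ℝ) x => ∑ e : Ix N, Me (spin x) (spin x) e *
        Rec.Ti S i (fun z x => Gd.Bq N β y b e (r0 z) x) z x) :=
    Nh.sum _ fun e _ => Nh.mul (nM e) (Rec.nh_Ti hS i (nB e))
  rw [e1, hS.Ex_add (Nh.const_mul (β * a) n1) n2, Sy.Ex_const_mul, hcr]
  have hmain := Rec.LL_main hC (A := fun _ => (1 : Matrix (Fin N) (Fin N) ℝ)) (EGM.const _)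
    i (S.K + 1) (S.K + 1)
  have e2 : ∀ (z : GI (Ix N) N K → ℝ) (x : Fin N → Bool),
      Rec.yv S spin (S.K + 1) z x = spin x := fun z x => Rec.yv_gt (by omega) z x
  simp only [e2, one_mulVec] at hmain
  rw [hmain]
  have e3 : Rec.PE S i (fun z x x' => (1 / (N : ℝ) * (spin x ⬝ᵥ spin x')) *
      (1 / (N : ℝ) * (spin x ⬝ᵥ spin x'))) = P2 S i := by
    unfold P2
    congr 1
    funext z x x'
    unfold Rov
    simp only [dotProduct]
    ring
  rw [e3]
  ring

/-- the exact identity for `T_w` -/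
theorem tw_eq (hN : 0 < N) (hy : 0 < y) (hm' : Exponents K m) :
    Tw (sy N K m β y a b s) = β * a * (1 - ∑ l ∈ Finset.range (K + 1), (m (l + 1) - m l) *
      (sy N K m β y a b s).pairEx l (fun x x' => Rov spin x x' ^ 2)) -
      2 * (β * b) * (Rec.PE (sy N K m β y a b s) (K + 1) (FF N K y) -
        ∑ l ∈ Finset.range (K + 1), (m (l + 1) - m l) *
          Rec.PE (sy N K m β y a b s) l (FF N K y)) := by
  have hN' : (0 : ℝ) < N := by exact_mod_cast hN
  have h := Gd.gd_Dq (K := K) hN hy hm' β a b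
  have hBe : ∀ (e : Ix N) (x : Fin N → Bool), EG (fun z : Ix N → ℝ => Gd.Bq N β y b e z x) :=
    fun e x => EG.of_bdd (Gd.measurable_Bq hy β b e x) fun g => Gd.abs_Bq_le hN hy β b e g x
  have hBw : ∀ (z : Ix N → ℝ) (x : Fin N → Bool), ∑ e, Gd.Bq N β y b e z x ^ 2 ≤
      N * (2 * β ^ 2 * b ^ 2 / y ^ 4) := fun z x => Gd.sum_Bq_sq hN hy β b z x
  have ht := fun i => term_eq (m := m) (β := β) (a := a) (b := b) (s := s) hN hy hm' i
  have hC : Rec.Ctx (sy N K m β y a b s) (Gen.gD (Gd.Dq N β y a b) spin s)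
      (fun e => (Sum.inl e : GI (Ix N) N K)) spin (β * a)
      (fun e z x => Gd.Bq N β y b e (r0 z) x) (fun _ => 2 * β ^ 2 * b ^ 2 / y ^ 4) :=
    ctx_q (s := s) hN h (fun e z x => rfl) hBe hBw
  set S := sy N K m β y a b s with hSdef
  have hS : S.Reg := Gen.gS_reg h s
  have hSK : S.K = K := rfl
  have hSp : ∀ l, S.p l = m (l + 1) - m l := fun l => rfl
  have h1 := Rec.ibp_sum hC (h := fun e _ x => Me (spin x) (spin x) e) (h' := fun _ _ _ => 0)
    (fun e x => PD.const _) (fun e => Nh.snd fun x => Me (spin (N := N) x) (spin x) e)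
    (fun e => Nh.fst (EG.const 0))
  have e0 : S.Ex (fun z x => ∑ e : Ix N, z (Sum.inl e) * Me (spin x) (spin x) e) =
      N * Tw S := by
    unfold Tw
    have e1 : (fun (z : GI (Ix N) N K → ℝ) (x : Fin N → Bool) =>
        ∑ e : Ix N, z (Sum.inl e) * Me (spin x) (spin x) e) =
        fun z x => qf (Wm N (r0 z)) (spin x) := by
      funext z x
      rw [qf_eq, ← sum_Me_z]
      rfl
    rw [e1]
    field_simp
  have e2 : S.Ex (fun (z : GI (Ix N) N K → ℝ) (x : Fin N → Bool) => ∑ e : Ix N, (0 : ℝ)) = 0 := by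
    simp only [Finset.sum_const_zero]
    exact hS.Ex_const 0
  rw [e0, e2, zero_add, hSK, ht (K + 1)] at h1
  simp only [hSp, ht] at h1
  have e3 : P2 S (K + 1) = 1 := P2_top hS hN
  rw [e3] at h1
  have e4 : ∑ l ∈ Finset.range (K + 1), (m (l + 1) - m l) * ((N : ℝ) * (β * a * P2 S l -
      2 * (β * b) * Rec.PE S l (FF N K y))) = N * (β * a * ∑ l ∈ Finset.range (K + 1),
      (m (l + 1) - m l) * S.pairEx l (fun x x' => Rov spin x x' ^ 2) -
      2 * (β * b) * ∑ l ∈ Finset.range (K + 1), (m (l + 1) - m l) * Rec.PE S l (FF N K y)) := by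
    rw [Finset.mul_sum, Finset.mul_sum, ← Finset.sum_sub_distrib, Finset.mul_sum]
    refine Finset.sum_congr rfl fun l hl => ?_
    have hl' : l ≤ S.K := Nat.lt_succ_iff.1 (Finset.mem_range.1 hl)
    rw [P2_le hS hl']
    ring
  rw [e4] at h1
  have h2 : (N : ℝ) * Tw S = N * (β * a * (1 - ∑ l ∈ Finset.range (K + 1),
      (m (l + 1) - m l) * S.pairEx l (fun x x' => Rov spin x x' ^ 2)) -
      2 * (β * b) * (Rec.PE S (K + 1) (FF N K y) - ∑ l ∈ Finset.range (K + 1),
        (m (l + 1) - m l) * Rec.PE S l (FF N K y))) := by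
    rw [h1]
    ring
  exact mul_left_cancel₀ hN'.ne' h2

end sys

/-! ### The sign -/

/-- the bad event -/
def bad (N : ℕ) (σ : ℝ) : Set (Ix N → ℝ) :=
  {g | ∃ v : Fin N → ℝ, (2 + σ) * (v ⬝ᵥ v) < v ⬝ᵥ (Wm N g *ᵥ v)}

lemma measurable_bad (N : ℕ) (σ : ℝ) : MeasurableSet (bad N σ) := by
  refine IsOpen.measurableSet ?_
  have : bad N σ = ⋃ v : Fin N → ℝ, {g | (2 + σ) * (v ⬝ᵥ v) < v ⬝ᵥ (Wm N g *ᵥ v)} := by
    ext g
    simp [bad]
  rw [this]
  refine isOpen_iUnion fun v => isOpen_lt continuous_const ?_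
  simp only [dotProduct, mulVec, Wm, Matrix.of_apply]
  fun_prop

/-- **The one-sided integration by parts.** -/
theorem tw_up (hβ : 0 ≤ β) (hN : 0 < N) (hy : 0 < y) (hb : 0 ≤ b) (hm' : Exponents K m)
    {σ p : ℝ} (hσ : 0 ≤ σ) (hp : (gI (Ix N)).real (bad N σ) ≤ p) :
    Tw (sy N K m β y a b s) ≤ β * a * (1 - ∑ l ∈ Finset.range (K + 1), (m (l + 1) - m l) *
      (sy N K m β y a b s).pairEx l (fun x x' => Rov spin x x' ^ 2)) +
      2 * β * (b * (σ / y ^ 3 + 2 * p / y ^ 2)) := by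
  have hN' : (0 : ℝ) < N := by exact_mod_cast hN
  have h := Gd.gd_Dq (K := K) hN hy hm' β a b
  rw [tw_eq hN hy hm']
  set S := sy N K m β y a b s with hSdef
  have hS : S.Reg := Gen.gS_reg h s
  have hSK : S.K = K := rfl
  have hpw : ∀ l ∈ Finset.range (K + 1), 0 ≤ m (l + 1) - m l := fun l hl => by
    have := hm'.2.2 l (Nat.lt_succ_iff.1 (Finset.mem_range.1 hl))
    linarith
  have hp1 : ∑ l ∈ Finset.range (K + 1), (m (l + 1) - m l) = 1 := by
    rw [Finset.sum_range_sub, hm'.1, hm'.2.1, sub_zero]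
  -- the error
  set ρ : (Ix N → ℝ) → ℝ := fun g => σ / y ^ 3 + 2 / y ^ 2 * (bad N σ).indicator 1 g with hρ
  have hind : EG (fun g : Ix N → ℝ => ((bad N σ).indicator 1 g : ℝ)) := by
    refine EG.of_bdd (measurable_one.indicator (measurable_bad N σ)) (C := 1) fun g => ?_
    by_cases hg : g ∈ bad N σ
    · rw [Set.indicator_of_mem hg, Pi.one_apply, abs_one]
    · rw [Set.indicator_of_notMem hg, abs_zero]
      exact zero_le_one
  have hρe : EG ρ := (EG.const _).add (hind.const_mul _)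
  have hρi : S.Ex (fun z _ => ρ (r0 z)) ≤ σ / y ^ 3 + 2 * p / y ^ 2 := by
    rw [hSdef, Gen.gS_Ex_zero h s hρe, hρ,
      integral_add (integrable_const _) (hind.const_mul _).integrable, integral_const_mul,
      integral_const, probReal_univ, one_smul, integral_indicator_one (measurable_bad N σ)]
    have := mul_le_mul_of_nonneg_left hp (show 0 ≤ 2 / y ^ 2 by positivity)
    have e : 2 * p / y ^ 2 = 2 / y ^ 2 * p := by ring
    rw [e]
    linarith only [this]
  -- the pointwise inequality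
  have hpt : ∀ (z : GI (Ix N) N K → ℝ) (x x' : Fin N → Bool),
      FF N K y z x x' ≤ 1 / 2 * FF N K y z x x + 1 / 2 * FF N K y z x' x' + ρ (r0 z) := by
    intro z x x'
    have hnv : ∀ x : Fin N → Bool, nv (spin (N := N) x) ^ 2 = N := fun x => by
      rw [nv_sq, spin_norm]
    have hW := Wm_transpose (N := N) (r0 z)
    simp only [hρ]
    by_cases hg : r0 z ∈ bad N σ
    · rw [Set.indicator_of_mem hg, Pi.one_apply, mul_one]
      have h1 := (abs_le.1 (f2_all hN hW hy (hnv x) (hnv x'))).2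
      have h2 := (abs_le.1 (f2_all hN hW hy (hnv x) (hnv x))).1
      have h3 := (abs_le.1 (f2_all hN hW hy (hnv x') (hnv x'))).1
      have h4 : 0 ≤ σ / y ^ 3 := by positivity
      have e : 2 / y ^ 2 = 2 * (1 / y ^ 2) := by ring
      rw [e]
      unfold FF
      linarith only [h1, h2, h3, h4]
    · rw [Set.indicator_of_notMem hg, mul_zero, add_zero]
      have hg' : ∀ v : Fin N → ℝ, v ⬝ᵥ (Wm N (r0 z) *ᵥ v) ≤ (2 + σ) * (v ⬝ᵥ v) := by
        intro v
        by_contra hc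
        exact hg ⟨v, not_le.1 hc⟩
      exact f2_good hN hW hy hσ hg' (hnv x) (hnv x')
  -- the pairs
  have nF := nh2_FF (N := N) (K := K) hy
  have nd : Nh (fun z x => FF N K y z x x) := fun x => nF x x
  have hlev : S.lev = gl := rfl
  have hdd : ∀ x, Dep S.lev 0 (fun z => FF N K y z x x) := fun x =>
    dep_r0 S hlev fun g => f2 y (Wm N g) (spin x) (spin x)
  have hPE : ∀ l ∈ Finset.range (K + 1), Rec.PE S l (FF N K y) ≤
      Rec.PE S (K + 1) (FF N K y) + (σ / y ^ 3 + 2 * p / y ^ 2) := by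
    intro l hl
    have hl' : l ≤ S.K := Nat.lt_succ_iff.1 (Finset.mem_range.1 hl)
    have n1 : Rec.Nh2 (fun (z : GI (Ix N) N K → ℝ) (x x' : Fin N → Bool) =>
        1 / 2 * FF N K y z x x) := fun x' => Nh.const_mul _ nd
    have n2 : Rec.Nh2 (fun (z : GI (Ix N) N K → ℝ) (x x' : Fin N → Bool) =>
        1 / 2 * FF N K y z x' x') := fun x' => Nh.const_mul _ (Nh.fst (nd x'))
    have n3 : Rec.Nh2 (fun (z : GI (Ix N) N K → ℝ) (x x' : Fin N → Bool) => ρ (r0 z)) :=
      fun x' => Nh.fst (Gen.EG.r0 hρe)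
    have h1 := Rec.PE_mono hS l nF ((n1.add n2).add n3) hpt
    rw [Rec.PE_add hS l (n1.add n2) n3, Rec.PE_add hS l n1 n2, Rec.PE_const_mul,
      Rec.PE_const_mul, Rec.PE_fst hS l (fun z x => FF N K y z x x),
      Rec.PE_fst hS l (fun z _ => ρ (r0 z)), PE_snd hS nd hdd] at h1
    have e5 : Rec.PE S (K + 1) (FF N K y) = S.Ex (fun z x => FF N K y z x x) := by
      unfold Rec.PE
      rw [if_neg (by rw [hSK]; omega)]
    rw [e5]
    linarith only [h1, hρi]
  have hsum : ∑ l ∈ Finset.range (K + 1), (m (l + 1) - m l) * Rec.PE S l (FF N K y) ≤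
      Rec.PE S (K + 1) (FF N K y) + (σ / y ^ 3 + 2 * p / y ^ 2) := by
    have h1 : ∑ l ∈ Finset.range (K + 1), (m (l + 1) - m l) * Rec.PE S l (FF N K y) ≤
        ∑ l ∈ Finset.range (K + 1), (m (l + 1) - m l) *
          (Rec.PE S (K + 1) (FF N K y) + (σ / y ^ 3 + 2 * p / y ^ 2)) :=
      Finset.sum_le_sum fun l hl => mul_le_mul_of_nonneg_left (hPE l hl) (hpw l hl)
    rwa [← Finset.sum_mul, hp1, one_mul] at h1
  have h2 : 0 ≤ 2 * (β * b) := by positivity
  have h3 := mul_le_mul_of_nonneg_left (show -(σ / y ^ 3 + 2 * p / y ^ 2) ≤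
    Rec.PE S (K + 1) (FF N K y) - ∑ l ∈ Finset.range (K + 1), (m (l + 1) - m l) *
      Rec.PE S l (FF N K y) by linarith only [hsum]) h2
  linarith only [h3]

end Vale.Agent.P146.R3.H732.LC
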