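import Vale.Agent.P146.R3.H732.LC2
import Vale.Agent.P146.R3.H732.LB3

set_option linter.all false

/-!
# P146, sharper lower exponent: the window with a one-sided cross term
-/

open MeasureTheory ProbabilityTheory Matrix Filter Topology

namespace Vale.Agent.P146.R3.H732.LC

open Vale.Agent.P157 (spin)
open Vale.Agent.P157.Lv
open Vale.Agent.P157.Lv.Sy
open Vale.Agent.P157.Par (Path Exponents topN lw spinPart incr incr_zero_def incr_succ_def)
open Vale.Agent.P146.Sk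
open Vale.Agent.P146.Pw2
open Vale.Agent.P146.R3.H732.LB
open Vale.Agent.P146.Sk.Gen (GI gz gl r0 gS gF gOb gIsOpt GD gV)

variable {N K : ℕ} {m q : ℕ → ℝ} {β y a b t a' t' e : ℝ}

/-- the one-sided bound of `T_w` along the interpolation -/
def UpT (N K : ℕ) (m q : ℕ → ℝ) (β y b e : ℝ) : Prop := ∀ a t : ℝ,
  Tw (SI N K m q β y a b t) ≤ β * a * (1 - ∑ l ∈ Finset.range (K + 1), (m (l + 1) - m l) *
      (SI N K m q β y a b t).pairEx l (fun x x' => Rov spin x x' ^ 2)) + 2 * β * e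

/-- numbers -/
lemma step_real_up {β a t a' t' P Z q Q c W T L e : ℝ} (ha : 0 ≤ a) (ha' : a' ≤ a)
    (hat : a ^ 2 + t ^ 2 = 1)
    (hat' : a' ^ 2 + t' ^ 2 = 1) (hP : 0 ≤ P) (hZ : |q - Z| ≤ 1) (hQ : Q = P - 2 * Z + W)
    (hc : c = β ^ 2 / 4 * (1 - 2 * q + W)) (hT : T ≤ β * a * (1 - P) + 2 * β * e)
    (hβ : 0 ≤ β) (he : 0 ≤ e)
    (hL : β / 2 * ((a' - a) * T) + (t' - t) * (t * (β ^ 2 * (q - Z))) ≤ L) :
    -(t' ^ 2 - t ^ 2) * (c - β ^ 2 / 4 * Q) -
      (β ^ 2 / 4 * (a' - a) ^ 2 + β ^ 2 / 2 * (t' - t) ^ 2 + 2 * β ^ 2 * (|a' - a| * e)) ≤ L := by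
  have h0 : 0 ≤ a - a' := by linarith
  have hbe := mul_nonneg hβ he
  have h1 : (a - a') * T ≤ (a - a') * (β * a * (1 - P) + 4 * β * e) :=
    mul_le_mul_of_nonneg_left (by linarith only [hT, hbe]) h0
  have h2 : β / 2 * ((a' - a) * (β * a * (1 - P) + 4 * β * e)) ≤ β / 2 * ((a' - a) * T) := by
    refine mul_le_mul_of_nonneg_left ?_ (by positivity)
    linarith only [h1]
  refine step_real (T := β * a * (1 - P) + 4 * β * e) ha hat hat' hP hZ hQ hc ?_ hβ ?_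
  · rw [show β * a * (1 - P) + 4 * β * e - β * a * (1 - P) = 4 * β * e by ring,
      abs_of_nonneg (by linarith only [hbe])]
  · linarith only [h2, hL]

/-- the step -/
theorem step_up (hβ : 0 ≤ β) (ht : 0 ≤ t) (ha : 0 ≤ a) (ha' : a' ≤ a) (hy : 0 < y) (hN : 0 < N)
    (hm' : Exponents K m) (hq : Path K q) (hq1 : q K ≤ 1) (he : 0 ≤ e)
    (hT : UpT N K m q β y b e) (hat : a ^ 2 + t ^ 2 = 1) (hat' : a' ^ 2 + t' ^ 2 = 1) :
    -(t' ^ 2 - t ^ 2) * (cq β K m q - β ^ 2 / 4 * QQ K m q (SI N K m q β y a b t)) -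
      (β ^ 2 / 4 * (a' - a) ^ 2 + β ^ 2 / 2 * (t' - t) ^ 2 + 2 * β ^ 2 * (|a' - a| * e)) ≤
      GG N K m q β y a' b t' - GG N K m q β y a b t := by
  obtain ⟨f1, f2, f3, f4⟩ := sys_facts (m := m) hβ ht hy hN hm' hq hq1 a b
  exact step_real_up ha ha' hat hat' f2 f3 f1 rfl (hT a t) hβ he
    (tangent_at hβ ht hy hN hm' hq a b a' t')

/-- forward steps -/
lemma fwd_up (hβ : 0 ≤ β) (hy : 0 < y) (hN : 0 < N) (hm' : Exponents K m)
    (hq : Path K q) (hq1 : q K ≤ 1) (he : 0 ≤ e) (hT : UpT N K m q β y b e)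
    {M i : ℕ} (hM : 0 < M) (hi : i < M) :
    -(1 / (M : ℝ)) * (cq β K m q - β ^ 2 / 4 * gQ N K m q β y b M i) -
      ((β ^ 2 / 4 * (1 / √(M : ℝ)) + 2 * β ^ 2 * e) * (ga M i - ga M (i + 1)) +
        β ^ 2 / 2 * (1 / √(M : ℝ)) * (gt M (i + 1) - gt M i)) ≤
      gG N K m q β y b M (i + 1) - gG N K m q β y b M i := by
  have hM' : (0 : ℝ) < M := by exact_mod_cast hM
  obtain ⟨a0, a1⟩ := ga_step hM hi
  have h := step_up (β := β) (m := m) (b := b) hβ (gt_nonneg M i)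
    (ga_nonneg M i) (show ga M (i + 1) ≤ ga M i by linarith only [a0]) hy hN hm' hq hq1 he hT
    (g_sq hM hi.le) (g_sq hM (show i + 1 ≤ M by omega))
  refine le_trans ?_ h
  obtain ⟨t0, t1⟩ := gt_step (i := i) hM
  have e1 : gt M (i + 1) ^ 2 - gt M i ^ 2 = 1 / M := by
    rw [gt_sq, gt_sq]
    push_cast
    field_simp
    ring
  have e2 : (ga M (i + 1) - ga M i) ^ 2 ≤ 1 / √(M : ℝ) * (ga M i - ga M (i + 1)) := by
    have := sq_le_of a0 a1
    calc (ga M (i + 1) - ga M i) ^ 2 = (ga M i - ga M (i + 1)) ^ 2 := by ring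
      _ ≤ _ := this
  have e3 : (gt M (i + 1) - gt M i) ^ 2 ≤ 1 / √(M : ℝ) * (gt M (i + 1) - gt M i) :=
    sq_le_of t0 t1
  have e4 : |ga M (i + 1) - ga M i| = ga M i - ga M (i + 1) := by
    rw [abs_sub_comm, abs_of_nonneg a0]
  rw [e1, e4]
  have e5 : β ^ 2 / 4 * (ga M (i + 1) - ga M i) ^ 2 ≤
      β ^ 2 / 4 * (1 / √(M : ℝ) * (ga M i - ga M (i + 1))) :=
    mul_le_mul_of_nonneg_left e2 (by positivity)
  have e6 : β ^ 2 / 2 * (gt M (i + 1) - gt M i) ^ 2 ≤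
      β ^ 2 / 2 * (1 / √(M : ℝ) * (gt M (i + 1) - gt M i)) :=
    mul_le_mul_of_nonneg_left e3 (by positivity)
  show _ ≤ -(1 / (M : ℝ)) * (cq β K m q - β ^ 2 / 4 * gQ N K m q β y b M i) - _
  linarith only [e5, e6]

/-- the forward sum -/
lemma sum_up (hβ : 0 ≤ β) (hy : 0 < y) (hN : 0 < N) (hm' : Exponents K m)
    (hq : Path K q) (hq1 : q K ≤ 1) (he : 0 ≤ e) (hT : UpT N K m q β y b e)
    {M i : ℕ} (hM : 0 < M) (hi : i ≤ M) :
    -(1 / (M : ℝ)) * (i * cq β K m q -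
      β ^ 2 / 4 * ∑ j ∈ Finset.range i, gQ N K m q β y b M j) -
      (β ^ 2 / √(M : ℝ) + 2 * β ^ 2 * (e * (i / M))) ≤
      gG N K m q β y b M i - gG N K m q β y b M 0 := by
  have h := tele (G := gG N K m q β y b M) (Q := gQ N K m q β y b M) (A := ga M) (T := gt M)
    (c := cq β K m q) (r := β ^ 2 / 4) (s := β ^ 2 / 4 * (1 / √(M : ℝ)) + 2 * β ^ 2 * e)
    (s' := β ^ 2 / 2 * (1 / √(M : ℝ))) (h := -(1 / (M : ℝ))) i
    fun j hj => fwd_up hβ hy hN hm' hq hq1 he hT hM (by omega)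
  have h2 := err_le (β := β) (e := e) he hM hi
  linarith only [h, h2]

/-- **The window.** -/
theorem win_up (hβ : 0 < β) (hy : 0 < y) (hN : 0 < N) (hm' : Exponents K m)
    (hq : Path K q) (hq1 : q K ≤ 1) (hb : 0 ≤ b) (he : 0 ≤ e) (hT : UpT N K m q β y b e)
    {ε : ℝ} (hP : PSK β K m q ≤ pN β N + ε) {M i : ℕ} (hi0 : 0 < i) (hi : i < M) :
    ∃ j < i, gQ N K m q β y b M j ≤ 4 / (β ^ 2 * (i / M)) *
        (pN β N - gF K m (Ey N β y 1 b) (spin (N := N)) (fun _ => 0) +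
          (ε + 3 * (β ^ 2 / √(M : ℝ)) + 2 * β ^ 2 * (e * (i / M)))) ∧
      β * b / 2 * Tb y (SI N K m q β y (ga M j) b (gt M j)) -
          (ε + 3 * (β ^ 2 / √(M : ℝ)) + 2 * β ^ 2 * (e * (i / M))) ≤
        pN β N - gF K m (Ey N β y 1 b) (spin (N := N)) (fun _ => 0) := by
  have hM : 0 < M := by omega
  have hM' : (0 : ℝ) < M := by exact_mod_cast hM
  have hi' : (0 : ℝ) < i := by exact_mod_cast hi0
  have hMs : 0 ≤ β ^ 2 / √(M : ℝ) := by positivity
  set X := pN β N - gF K m (Ey N β y 1 b) (spin (N := N)) (fun _ => 0) with hX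
  set κ := β ^ 2 / √(M : ℝ) with hκ
  have s0 : gG N K m q β y 0 M 0 = pN β N := by
    unfold gG
    rw [ga_zero, gt_zero, GG_start0 hy hN hm']
  have sb : gG N K m q β y b M 0 = gF K m (Ey N β y 1 b) (spin (N := N)) (fun _ => 0) := by
    unfold gG
    rw [ga_zero, gt_zero, GG_start hy hN hm']
  have sM : gG N K m q β y 0 M M + cq β K m q = PSK β K m q := by
    unfold gG
    rw [ga_top hM, gt_top hM]
    exact GG_end hβ.le hN hm' hq y
  -- the whole interpolation at `b = 0`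
  have t1 := sum_fwd (b := 0) (m := m) hβ.le hy hN hm' hq hq1 le_rfl hM (le_refl M)
  have e1 : (0 : ℝ) / y ^ 2 * ((M : ℝ) / M) = 0 := by simp
  rw [e1, mul_zero, add_zero, s0] at t1
  have e2 : -(1 / (M : ℝ)) * (M * cq β K m q -
      β ^ 2 / 4 * ∑ j ∈ Finset.range M, gQ N K m q β y 0 M j) = -cq β K m q +
      1 / M * (β ^ 2 / 4 * ∑ j ∈ Finset.range M, gQ N K m q β y 0 M j) := by
    field_simp
    ring
  rw [e2] at t1
  have h1 : 1 / (M : ℝ) * (β ^ 2 / 4 * ∑ j ∈ Finset.range M, gQ N K m q β y 0 M j) ≤ ε + κ := by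
    linarith only [t1, sM, hP]
  -- the sum over a window at `b = 0`
  have hQ0 : ∀ j, 0 ≤ gQ N K m q β y 0 M j := fun j =>
    gQ_nonneg hβ.le hy hN hm' hq hq1 0 M j
  have h2 : ∀ k < M, ∑ j ∈ Finset.range k, gQ N K m q β y 0 M (j + 1) ≤
      ∑ j ∈ Finset.range M, gQ N K m q β y 0 M j := by
    intro k hk
    have h3 : ∑ j ∈ Finset.range (k + 1), gQ N K m q β y 0 M j ≤
        ∑ j ∈ Finset.range M, gQ N K m q β y 0 M j :=
      Finset.sum_le_sum_of_subset_of_nonneg (Finset.range_mono (by omega)) fun j _ _ => hQ0 j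
    rw [Finset.sum_range_succ'] at h3
    linarith only [h3, hQ0 0]
  -- the comparison at every time of the window
  have key : ∀ k ≤ i, gG N K m q β y 0 M k - gG N K m q β y b M k +
      1 / M * (β ^ 2 / 4 * ∑ j ∈ Finset.range k, gQ N K m q β y b M j) -
      (ε + 3 * κ + 2 * β ^ 2 * (e * (i / M))) ≤ X := by
    intro k hk
    have t2 := sum_bwd (b := 0) (m := m) hβ.le hy hN hm' hq hq1 le_rfl hM (show k ≤ M by omega)
    have t3 := sum_up (b := b) (m := m) hβ.le hy hN hm' hq hq1 he hT hM (show k ≤ M by omega)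
    have e3 : (0 : ℝ) / y ^ 2 * ((k : ℝ) / M) = 0 := by simp
    rw [e3, mul_zero, add_zero, s0] at t2
    rw [sb] at t3
    have h4 := h2 k (by omega)
    have h5 : 1 / (M : ℝ) * (β ^ 2 / 4 * ∑ j ∈ Finset.range k, gQ N K m q β y 0 M (j + 1)) ≤
        ε + κ := by
      refine le_trans ?_ h1
      exact mul_le_mul_of_nonneg_left (mul_le_mul_of_nonneg_left h4 (by positivity))
        (by positivity)
    have h6 : e * ((k : ℝ) / M) ≤ e * ((i : ℝ) / M) := by
      refine mul_le_mul_of_nonneg_left ?_ he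
      have : (k : ℝ) ≤ i := by exact_mod_cast hk
      gcongr
    have h7 : 2 * β ^ 2 * (e * ((k : ℝ) / M)) ≤
        2 * β ^ 2 * (e * ((i : ℝ) / M)) := mul_le_mul_of_nonneg_left h6 (by positivity)
    linarith only [t2, t3, h5, h7, hX]
  have hTb : ∀ k, β * b / 2 * Tb y (SI N K m q β y (ga M k) b (gt M k)) ≤
      gG N K m q β y 0 M k - gG N K m q β y b M k := fun k =>
    GG_tangent_b hβ.le hy hN hm' q (ga M k) b (gt M k)
  have hTb0 : ∀ k, 0 ≤ gG N K m q β y 0 M k - gG N K m q β y b M k := fun k => by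
    refine le_trans (mul_nonneg (by positivity) ?_) (hTb k)
    exact (tb_bounds β hy hN hm' _ _ _).1
  have hQb : ∀ j, 0 ≤ gQ N K m q β y b M j := fun j =>
    gQ_nonneg hβ.le hy hN hm' hq hq1 b M j
  -- the minimum over the window
  obtain ⟨j, hj, hjm⟩ := Finset.exists_min_image (Finset.range i)
    (fun j => gQ N K m q β y b M j) ⟨0, Finset.mem_range.2 hi0⟩
  refine ⟨j, Finset.mem_range.1 hj, ?_, ?_⟩
  · have h8 := key i le_rfl
    have h9 := hTb0 i
    have h10 : (i : ℝ) * gQ N K m q β y b M j ≤ ∑ j ∈ Finset.range i, gQ N K m q β y b M j := by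
      have := Finset.card_nsmul_le_sum (Finset.range i) (fun j => gQ N K m q β y b M j)
        (gQ N K m q β y b M j) fun k hk => hjm k hk
      rwa [Finset.card_range, nsmul_eq_mul] at this
    have h11 : 1 / (M : ℝ) * (β ^ 2 / 4 * (i * gQ N K m q β y b M j)) ≤
        X + (ε + 3 * κ + 2 * β ^ 2 * (e * (i / M))) := by
      refine le_trans (mul_le_mul_of_nonneg_left (mul_le_mul_of_nonneg_left h10
        (by positivity)) (by positivity)) ?_
      linarith only [h8, h9]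
    have h12 := mul_le_mul_of_nonneg_left h11
      (show 0 ≤ 4 / (β ^ 2 * ((i : ℝ) / M)) by positivity)
    refine le_trans (le_of_eq ?_) h12
    field_simp
  · have hj' : j < i := Finset.mem_range.1 hj
    have h8 := key j hj'.le
    have h9 := hTb j
    have h10 : 0 ≤ 1 / (M : ℝ) * (β ^ 2 / 4 * ∑ j ∈ Finset.range j, gQ N K m q β y b M j) :=
      mul_nonneg (by positivity) (mul_nonneg (by positivity)
        (Finset.sum_nonneg fun k _ => hQb k))
    linarith only [h8, h9, h10]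

/-- the tail of the largest eigenvalue -/
def LamMax (C : ℝ) : Prop := ∀ (N : ℕ) (s : ℝ), 0 < N → 0 < s →
  (gI (Ix N)).real (bad N s) ≤ C / (N * s ^ 2)

/-- the one-sided bound from the tail of the largest eigenvalue -/
lemma upT_of {C : ℝ} (hL : LamMax C) (hβ : 0 ≤ β) (hN : 0 < N) (hy : 0 < y) (hy1 : y ≤ 1)
    (hb : 0 ≤ b) (hm' : Exponents K m) (hC : C ≤ N * y ^ 6) :
    UpT N K m q β y b (3 * b / y) := by
  intro a t
  have hN' : (0 : ℝ) < N := by exact_mod_cast hN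
  have h1 := tw_up (β := β) (m := m) (a := a) (s := sg β q t) hβ hN hy hb hm'
    (σ := y ^ 2) (by positivity) (hL N (y ^ 2) hN (by positivity))
  refine h1.trans (add_le_add le_rfl ?_)
  refine mul_le_mul_of_nonneg_left ?_ (by positivity)
  have e1 : y ^ 2 / y ^ 3 = 1 / y := by
    field_simp
  have h2 : C / (N * (y ^ 2) ^ 2) ≤ y ^ 2 := by
    rw [div_le_iff₀ (by positivity)]
    calc C ≤ N * y ^ 6 := hC
      _ = _ := by ring
  have h3 : 2 * (C / (N * (y ^ 2) ^ 2)) / y ^ 2 ≤ 2 / y := by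
    rw [div_le_div_iff₀ (by positivity) hy]
    have h4 : C / (N * (y ^ 2) ^ 2) * y ≤ y ^ 2 * 1 :=
      mul_le_mul h2 hy1 hy.le (by positivity)
    linarith only [h4]
  rw [e1]
  calc b * (1 / y + 2 * (C / (N * (y ^ 2) ^ 2)) / y ^ 2) ≤ b * (1 / y + 2 / y) :=
        mul_le_mul_of_nonneg_left (by linarith only [h3]) hb
    _ = 3 * b / y := by ring

end Vale.Agent.P146.R3.H732.LC
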