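import Vale.Agent.P146.R3.H732.LC3
import Vale.Agent.P146.R3.H732.LB5

set_option linter.all false

/-!
# P146, sharper lower exponent: the choice of the parameters
-/

open MeasureTheory ProbabilityTheory Matrix Filter Topology

namespace Vale.Agent.P146.R3.H732.LC

open Vale.Agent.P157 (spin)
open Vale.Agent.P157.Lv
open Vale.Agent.P157.Lv.Sy
open Vale.Agent.P157.Par (Path Exponents topN lw spinPart incr incr_zero_def incr_succ_def)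
open Vale.Agent.P146.Sk
open Vale.Agent.P146.Pw2
open Vale.Agent.P166.F (Lam)
open Vale.Agent.P146.R3.H732.LB
open Vale.Agent.P146.R3.H729.TbLow (Qd)
open Vale.Agent.P146.Sk.Gen (GI gz gl r0 gS gF gOb gIsOpt GD gV)

/-- The Parisi side with both quadratic bounds. -/
def ParU2 (β P0 : ℝ) : Prop := ∃ C : ℝ, 1 ≤ C ∧ ∀ η : ℝ, 0 < η → η ≤ 1 →
  ∃ (K : ℕ) (m q : ℕ → ℝ), Exponents K m ∧ Path K q ∧ q K ≤ 1 ∧ PSK β K m q ≤ P0 + η ∧
    ∀ u ∈ Set.Icc (0 : ℝ) 1, 1 - C * u ^ 2 - η ≤ β * Lam K m q u ∧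
      β * Lam K m q u ≤ 1 - u ^ 2 / C + η

/-- The lower bound of the quadratic form from a small deviation. -/
def TB9 (β : ℝ) : Prop := ∀ C₀ : ℝ, 1 ≤ C₀ → ∃ C : ℝ, 1 ≤ C ∧ ∀ (N K : ℕ) (m q : ℕ → ℝ)
  (t a b : ℝ) (s : ℕ → ℝ), 0 < N → Exponents K m → Path K q → q K ≤ 1 → 0 < t → t ≤ 1 / C →
  C ≤ N * t ^ 24 → (∀ u ∈ Set.Icc (0 : ℝ) 1, 1 - C₀ * u ^ 2 - t ^ 3 ≤ β * Lam K m q u ∧
    β * Lam K m q u ≤ 1 - u ^ 2 / C₀ + t ^ 3) → a ∈ Set.Icc (0 : ℝ) 1 → C * (1 - a) ≤ t ^ 2 →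
  b ∈ Set.Icc (0 : ℝ) 1 → C * b ≤ t ^ 11 → (∀ l ≤ K, 0 ≤ s l) →
  C ^ 2 * Qd K m q (sy N K m β (t ^ 4) a b s) ≤ t ^ 7 →
  1 / (C * t ^ 3) ≤ Tb (t ^ 4) (sy N K m β (t ^ 4) a b s)

/-- the numbers of the deviation -/
lemma num_Q9 {β c C Ct t X e b r Q : ℝ} (hβ : 0 < β) (hc : 0 < c) (hC : 1 ≤ C) (ht : 0 < t)
    (ht1 : t ≤ 1)
    (hr : c * t ^ 2 / 2 ≤ r) (hr0 : 0 < r) (hX : X ≤ β * t ^ 9 / (2 * C ^ 2))
    (he : e ≤ 3 * (t ^ 9 / C ^ 2)) (hb : b = t ^ 12 / C)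
    (hCt : 0 < Ct) (hCC : Ct ^ 2 * (8 / (β ^ 2 * c) * (β / 2 + 3) + 24) ≤ C)
    (hQ : Q ≤ 4 / (β ^ 2 * r) * (X + (e + 2 * β ^ 2 * (3 * b / t ^ 4 * r)))) :
    Ct ^ 2 * Q ≤ t ^ 7 := by
  have hC0 : 0 < C := by linarith
  have h1 : 4 / (β ^ 2 * r) * (X + (e + 2 * β ^ 2 * (3 * b / t ^ 4 * r))) =
      4 / (β ^ 2 * r) * (X + e) + 24 * (b / t ^ 4) := by
    field_simp
    ring
  have h2 : X + e ≤ (β / 2 + 3) * (t ^ 9 / C ^ 2) := by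
    have e1 : β * t ^ 9 / (2 * C ^ 2) = β / 2 * (t ^ 9 / C ^ 2) := by
      field_simp
    rw [e1] at hX
    linarith
  have h3 : 4 / (β ^ 2 * r) * (X + e) ≤ 4 / (β ^ 2 * r) * ((β / 2 + 3) * (t ^ 9 / C ^ 2)) :=
    mul_le_mul_of_nonneg_left h2 (by positivity)
  have h4 : 4 / (β ^ 2 * r) ≤ 4 / (β ^ 2 * (c * t ^ 2 / 2)) :=
    div_le_div_of_nonneg_left (by norm_num) (by positivity)
      (mul_le_mul_of_nonneg_left hr (by positivity))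
  have h5 : 4 / (β ^ 2 * r) * ((β / 2 + 3) * (t ^ 9 / C ^ 2)) ≤
      4 / (β ^ 2 * (c * t ^ 2 / 2)) * ((β / 2 + 3) * (t ^ 9 / C ^ 2)) :=
    mul_le_mul_of_nonneg_right h4 (by positivity)
  have h6 : 4 / (β ^ 2 * (c * t ^ 2 / 2)) * ((β / 2 + 3) * (t ^ 9 / C ^ 2)) =
      8 / (β ^ 2 * c) * (β / 2 + 3) * (t ^ 7 / C ^ 2) := by
    field_simp
    ring
  have h7 : t ^ 7 / C ^ 2 ≤ t ^ 7 / C := by
    refine div_le_div_of_nonneg_left (by positivity) hC0 ?_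
    nlinarith
  have h8 : 8 / (β ^ 2 * c) * (β / 2 + 3) * (t ^ 7 / C ^ 2) ≤
      8 / (β ^ 2 * c) * (β / 2 + 3) * (t ^ 7 / C) :=
    mul_le_mul_of_nonneg_left h7 (by positivity)
  have h9 : b / t ^ 4 ≤ t ^ 7 / C := by
    have e1 : b / t ^ 4 = t ^ 7 / C * t := by
      rw [hb]
      field_simp
    rw [e1]
    calc t ^ 7 / C * t ≤ t ^ 7 / C * 1 := mul_le_mul_of_nonneg_left ht1 (by positivity)
      _ = _ := mul_one _
  have h10 : Q ≤ (8 / (β ^ 2 * c) * (β / 2 + 3) + 24) * (t ^ 7 / C) := by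
    rw [h1] at hQ
    linarith only [hQ, h3, h5, h6, h8, h9]
  have h11 := mul_le_mul_of_nonneg_left h10 (show 0 ≤ Ct ^ 2 by positivity)
  refine h11.trans ?_
  have h12 := mul_le_mul_of_nonneg_right hCC (show 0 ≤ t ^ 7 / C by positivity)
  have e2 : C * (t ^ 7 / C) = t ^ 7 := by field_simp
  rw [e2] at h12
  linarith only [h12]

/-- the numbers of the decrease -/
lemma num_X9 {β c C Ct t X e b r T : ℝ} (hβ : 0 < β) (hC : 1 ≤ C) (ht : 0 < t) (ht1 : t ≤ 1)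
    (hc0 : 0 < c) (hc : c * (48 * β * Ct) ≤ 1) (hr : r ≤ c * t ^ 2)
    (he : e ≤ 3 * (t ^ 9 / C ^ 2)) (hb : b = t ^ 12 / C)
    (hCt : 1 ≤ Ct) (hC1 : 24 * Ct / β ≤ C) (hC2 : 2 * Ct ≤ C)
    (hT : 1 / (Ct * t ^ 3) ≤ T)
    (hX : β * b / 2 * T - (e + 2 * β ^ 2 * (3 * b / t ^ 4 * r)) ≤ X) :
    β * t ^ 9 / (2 * C ^ 2) ≤ X := by
  have hC0 : 0 < C := by linarith
  have hCt0 : 0 < Ct := by linarith
  refine le_trans ?_ hX
  have h1 : β * b / 2 * (1 / (Ct * t ^ 3)) ≤ β * b / 2 * T := by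
    refine mul_le_mul_of_nonneg_left hT ?_
    rw [hb]
    positivity
  have h2 : β * b / 2 * (1 / (Ct * t ^ 3)) = β / (2 * Ct) * (t ^ 9 / C) := by
    rw [hb]
    field_simp
  have h4 : 3 * b / t ^ 4 * r ≤ 3 * c * (t ^ 9 / C) := by
    have e0 : 3 * b / t ^ 4 = 3 * (t ^ 8 / C) := by
      rw [hb]
      field_simp
    rw [e0]
    calc 3 * (t ^ 8 / C) * r ≤ 3 * (t ^ 8 / C) * (c * t ^ 2) :=
          mul_le_mul_of_nonneg_left hr (by positivity)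
      _ = 3 * c * (t ^ 9 / C) * t := by ring
      _ ≤ 3 * c * (t ^ 9 / C) * 1 := mul_le_mul_of_nonneg_left ht1 (by positivity)
      _ = _ := mul_one _
  have h5 : 2 * β ^ 2 * (3 * c) ≤ β / (8 * Ct) := by
    rw [le_div_iff₀ (by positivity)]
    have := mul_le_mul_of_nonneg_left hc hβ.le
    linarith only [this]
  have h6 : 3 * (t ^ 9 / C ^ 2) ≤ β / (8 * Ct) * (t ^ 9 / C) := by
    have h7 : 3 / C ≤ β / (8 * Ct) := by
      rw [div_le_iff₀ hβ] at hC1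
      rw [div_le_div_iff₀ hC0 (by positivity)]
      linarith
    have e1 : 3 * (t ^ 9 / C ^ 2) = 3 / C * (t ^ 9 / C) := by
      field_simp
    rw [e1]
    exact mul_le_mul_of_nonneg_right h7 (by positivity)
  have h8 : 2 * β ^ 2 * (3 * b / t ^ 4 * r) ≤ β / (8 * Ct) * (t ^ 9 / C) := by
    calc 2 * β ^ 2 * (3 * b / t ^ 4 * r) ≤ 2 * β ^ 2 * (3 * c * (t ^ 9 / C)) :=
          mul_le_mul_of_nonneg_left h4 (by positivity)
      _ = 2 * β ^ 2 * (3 * c) * (t ^ 9 / C) := by ring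
      _ ≤ _ := mul_le_mul_of_nonneg_right h5 (by positivity)
  have h9 : β * t ^ 9 / (2 * C ^ 2) ≤ β / (4 * Ct) * (t ^ 9 / C) := by
    have h10 : 1 / (2 * C) ≤ 1 / (4 * Ct) :=
      one_div_le_one_div_of_le (by positivity) (by linarith)
    have e2 : β * t ^ 9 / (2 * C ^ 2) = β * (1 / (2 * C)) * (t ^ 9 / C) := by
      field_simp
    have e3 : β / (4 * Ct) * (t ^ 9 / C) = β * (1 / (4 * Ct)) * (t ^ 9 / C) := by ring
    rw [e2, e3]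
    exact mul_le_mul_of_nonneg_right (mul_le_mul_of_nonneg_left h10 hβ.le) (by positivity)
  have e4 : β / (2 * Ct) * (t ^ 9 / C) = β / (8 * Ct) * (t ^ 9 / C) +
      β / (8 * Ct) * (t ^ 9 / C) + β / (4 * Ct) * (t ^ 9 / C) := by
    field_simp
    norm_num
  linarith only [h1, h2, h6, h8, h9, e4, he]

/-- **The decrease of the free energy, sharper.** -/
theorem xq9 {β P0 CL : ℝ} (hβ : 0 < β) (hP : ParU2 β P0) (hTB : TB9 β) (hLM : LamMax CL) :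
    XQ 9 12 β P0 := by
  obtain ⟨C₄, hC₄, hpar⟩ := hP
  obtain ⟨Ct, hCt1, htb⟩ := hTB C₄ hC₄
  have hCt0 : 0 < Ct := by linarith
  obtain ⟨c, hc⟩ : ∃ c : ℝ, c = 1 / (2 + 48 * β * Ct + Ct) := ⟨_, rfl⟩
  have hden : 0 < 2 + 48 * β * Ct + Ct := by positivity
  have hc0 : 0 < c := by rw [hc]; positivity
  have hc2 : c ≤ 1 / 2 := by
    rw [hc]
    exact one_div_le_one_div_of_le (by norm_num) (by
      have : 0 < 48 * β * Ct := by positivity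
      linarith)
  have hc3 : c * (48 * β * Ct) ≤ 1 := by
    rw [hc, one_div_mul_eq_div, div_le_one hden]
    linarith
  have hc4 : c * Ct ≤ 1 := by
    rw [hc, one_div_mul_eq_div, div_le_one hden]
    have : 0 < 48 * β * Ct := by positivity
    linarith
  obtain ⟨C, hC⟩ : ∃ C : ℝ, C = 1 + Ct + Ct ^ 2 * (8 / (β ^ 2 * c) * (β / 2 + 3) + 24) +
    24 * Ct / β + 2 * Ct + |CL| := ⟨_, rfl⟩
  have q1 : 0 ≤ Ct ^ 2 * (8 / (β ^ 2 * c) * (β / 2 + 3) + 24) := by positivity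
  have q2 : 0 ≤ 24 * Ct / β := by positivity
  have q3 := abs_nonneg CL
  have q4 := le_abs_self CL
  have hC1 : 1 ≤ C := by rw [hC]; linarith
  have hCt : Ct ≤ C := by rw [hC]; linarith
  have hCC : Ct ^ 2 * (8 / (β ^ 2 * c) * (β / 2 + 3) + 24) ≤ C := by rw [hC]; linarith
  have hCb : 24 * Ct / β ≤ C := by rw [hC]; linarith
  have hC2t : 2 * Ct ≤ C := by rw [hC]; linarith
  have hCL : CL ≤ C := by rw [hC]; linarith
  clear hC q1 q2 q3 q4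
  have hC0 : 0 < C := by linarith
  refine ⟨C, hC1, fun N t ε hN ht htC hNt hε hεt hPN => ?_⟩
  have ht1 : t ≤ 1 := htC.trans (by rw [div_le_one hC0]; exact hC1)
  have hk : ∀ k, 0 < t ^ k := fun k => by positivity
  have hk1 : ∀ k, t ^ k ≤ 1 := fun k => pow_le_one₀ ht.le ht1
  have hCsq : 1 ≤ C ^ 2 := one_le_pow₀ hC1
  obtain ⟨η, hη⟩ : ∃ η : ℝ, η = t ^ 9 / C ^ 2 := ⟨_, rfl⟩
  have hη0 : 0 < η := by rw [hη]; positivity
  have hη3 : η ≤ t ^ 3 := by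
    rw [hη]
    calc t ^ 9 / C ^ 2 ≤ t ^ 9 / 1 := div_le_div_of_nonneg_left (hk 9).le one_pos hCsq
      _ = t ^ 9 := div_one _
      _ ≤ t ^ 3 := pow_le_pow_of_le_one ht.le ht1 (by norm_num)
  obtain ⟨K, m, q, hm', hq, hq1, hPS, hLu⟩ := hpar η hη0 (hη3.trans (hk1 3))
  refine ⟨K, m, hm', ?_⟩
  by_contra hcon
  push Not at hcon
  have hbC : t ^ 12 / C ≤ 1 := by
    rw [div_le_one hC0]
    exact (hk1 12).trans hC1
  obtain ⟨b, hb⟩ : ∃ b : ℝ, b = t ^ 12 / C := ⟨_, rfl⟩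
  rw [← hb] at hcon hbC
  have hb0 : 0 < b := by rw [hb]; positivity
  have hδ : c * t ^ 2 ≤ 1 / 2 := by
    calc c * t ^ 2 ≤ 1 / 2 * 1 := mul_le_mul hc2 (hk1 2) (hk 2).le (by norm_num)
      _ = 1 / 2 := mul_one _
  have hκ : 0 < t ^ 9 / C ^ 2 / (3 * β ^ 2) := by positivity
  obtain ⟨M, i, hi0, hiM, hr1, hr2, hM⟩ := grid_ex (show 0 < c * t ^ 2 by positivity) hδ hκ
  have hM0 : 0 < M := by omega
  have hM' : (0 : ℝ) < M := by exact_mod_cast hM0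
  have hi' : (0 : ℝ) < i := by exact_mod_cast hi0
  have hMe : 3 * (β ^ 2 / √(M : ℝ)) ≤ t ^ 9 / C ^ 2 := by
    have h1 := mul_le_mul_of_nonneg_left hM (show 0 ≤ 3 * β ^ 2 by positivity)
    have e1 : 3 * β ^ 2 * (1 / √(M : ℝ)) = 3 * (β ^ 2 / √(M : ℝ)) := by ring
    have e2 : 3 * β ^ 2 * (t ^ 9 / C ^ 2 / (3 * β ^ 2)) = t ^ 9 / C ^ 2 := by
      field_simp
    rwa [e1, e2] at h1
  have hPP : PSK β K m q ≤ pN β N + (ε + η) := by linarith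
  have hup : UpT N K m q β (t ^ 4) b (3 * b / t ^ 4) :=
    upT_of hLM hβ.le hN (hk 4) (hk1 4) hb0.le hm' (by
      calc CL ≤ C := hCL
        _ ≤ N * t ^ 24 := hNt
        _ = _ := by ring)
  obtain ⟨j, hji, hQ, hX⟩ := win_up (y := t ^ 4) (b := b) hβ (hk 4) hN hm' hq hq1 hb0.le
    (show 0 ≤ 3 * b / t ^ 4 by positivity) hup hPP hi0 hiM
  obtain ⟨X, hXd⟩ : ∃ X : ℝ, X = pN β N -
    gF K m (Ey N β (t ^ 4) 1 b) (spin (N := N)) (fun _ => 0) := ⟨_, rfl⟩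
  rw [← hXd] at hQ hX hcon
  obtain ⟨r, hrd⟩ : ∃ r : ℝ, r = (i : ℝ) / M := ⟨_, rfl⟩
  have hr0 : 0 < r := by rw [hrd]; positivity
  rw [← hrd] at hQ hX hr1 hr2
  have hεe : ε ≤ t ^ 9 / C ^ 2 := by
    rw [le_div_iff₀ (by positivity)]
    linarith
  obtain ⟨e, he⟩ : ∃ e : ℝ, e = ε + η + 3 * (β ^ 2 / √(M : ℝ)) := ⟨_, rfl⟩
  have heb : e ≤ 3 * (t ^ 9 / C ^ 2) := by
    rw [he]
    linarith [hη.le]
  rw [← he] at hQ hX
  have hXe : β * b / 2 * (1 / (C * t ^ 3)) = β * t ^ 9 / (2 * C ^ 2) := by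
    rw [hb]
    field_simp
  have hXu : X ≤ β * t ^ 9 / (2 * C ^ 2) := by linarith
  have hQ' := num_Q9 (Ct := Ct) hβ hc0 hC1 ht ht1 hr1 hr0 hXu heb hb hCt0 hCC hQ
  have hga1 : ga M j ≤ 1 := ga_le M j
  have hga2 : Ct * (1 - ga M j) ≤ t ^ 2 := by
    have h1 := ga_ge hM0 (show j ≤ M by omega)
    have h2 : (j : ℝ) / M ≤ r := by
      rw [hrd]
      have : (j : ℝ) ≤ i := by exact_mod_cast hji.le
      gcongr
    have h3 : 1 - ga M j ≤ c * t ^ 2 := by linarith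
    calc Ct * (1 - ga M j) ≤ Ct * (c * t ^ 2) := mul_le_mul_of_nonneg_left h3 hCt0.le
      _ = c * Ct * t ^ 2 := by ring
      _ ≤ 1 * t ^ 2 := mul_le_mul_of_nonneg_right hc4 (hk 2).le
      _ = t ^ 2 := one_mul _
  have hT := htb N K m q t (ga M j) b (sg β q (gt M j)) hN hm' hq hq1 ht
    (htC.trans (one_div_le_one_div_of_le hCt0 hCt)) (hCt.trans hNt)
    (fun u hu => ⟨by linarith [(hLu u hu).1], by linarith [(hLu u hu).2]⟩)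
    ⟨ga_nonneg M j, hga1⟩ hga2 ⟨hb0.le, hbC⟩ (by
      rw [hb]
      calc Ct * (t ^ 12 / C) = Ct / C * t ^ 12 := by ring
        _ ≤ 1 * t ^ 12 := mul_le_mul_of_nonneg_right (by
            rw [div_le_one hC0]
            exact hCt) (hk 12).le
        _ = t ^ 12 := one_mul _
        _ ≤ t ^ 11 := pow_le_pow_of_le_one ht.le ht1 (by norm_num))
    (fun l _ => sg_nonneg hβ.le (gt_nonneg M j) l) hQ'
  have hfin := num_X9 hβ hC1 ht ht1 hc0 hc3 hr2 heb hb hCt1 hCb hC2t hT hX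
  linarith

end Vale.Agent.P146.R3.H732.LC
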