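import Vale.Agent.P146.R3.H732.LC4
import Vale.Agent.P146.R3.H924.Tb9b
import Vale.Agent.P146.R3.H49.Lam

set_option linter.all false

/-!
# P146, sharper lower exponent: the unconditional statement
-/

open MeasureTheory ProbabilityTheory Matrix Filter Topology

namespace Vale.Agent.P146.R3.H732.LC

open Vale.Agent.P157.Par (Path Exponents)
open Vale.Agent.P146.Sk
open Vale.Agent.P146.R3.H732.LB

theorem tb9 {β : ℝ} (hβ : 0 < β) : TB9 β := by
  intro C₀ hC₀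
  exact Vale.Agent.P146.R3.H924.Tb9.tb9 hβ (Vale.Agent.P146.R3.H924.Tb9.eqs' hβ.le) C₀ hC₀

theorem lamMax : LamMax 8 := fun N s hN hs => Vale.Agent.P146.R3.H49.Lam.lam_max8 hN hs

theorem parU2 {β : ℝ} (hβ : 1 < β) : ParU2 β (Sh.P0 β) :=
  Vale.Agent.P146.R3.H924.Tb9.paru2 hβ

/-- The growth relation with exponents `9` and `12`. -/
theorem xq9' {β P0 : ℝ} (hβ : 0 < β) (hP : ParU2 β P0) : XQ 9 12 β P0 :=
  xq9 hβ hP (tb9 hβ) lamMax

theorem xq9_unc {β : ℝ} (hβ : 1 < β) : XQ 9 12 β (Sh.P0 β) :=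
  xq9' (by linarith) (parU2 hβ)

end Vale.Agent.P146.R3.H732.LC

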