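import Vale.Agent.P146.R3.H732.Appr

/-!
# P146: the limit of the Stein kernel
-/

open MeasureTheory ProbabilityTheory Finset Filter Topology

namespace Vale.Agent.P146.R3.H732

open Vale.Agent.P146 Vale.Agent.P146.Ub.Cv Vale.Agent.P146.H605 Vale.Agent.P146.H453
  Vale.Agent.P146.R2
open Vale.Agent.P146.R2.H749 (dom_heM orth co_const_mul co_sum)

/-! ### the path coefficients -/

/-- the average of the iterated fresh sums -/
noncomputable def pn' (β : ℝ) (n k : ℕ) : ℝ := (n : ℝ)⁻¹ * ∑ j : Fin n, fk {j} (CC β j 0) k j 0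

lemma fk_zero {n : ℕ} (β : ℝ) (k : ℕ) (j : Fin n) :
    fk {j} (CC β j 0) k j 0 =
      (Real.sqrt n)⁻¹ ^ k * (∏ l ∈ range k, ((n : ℝ) - 1 - l)) * cp n β k := by
  have h := fk_path (A := CC β j 0) (a := cp n β) j (fun k u hu hj => by
    rw [CC_zero]
    have := co_pa β hu
    rw [hj] at this
    exact this) k 0 (fun _ => j) (fun a b _ => Subsingleton.elim (α := Fin 1) a b) rfl
  rw [pa_zero] at h
  rw [h]
  simp

lemma pn'_eq {n : ℕ} (hn : 1 ≤ n) (β : ℝ) (k : ℕ) :
    pn' β n k = (∏ l ∈ range k, (1 - (1 + (l : ℝ)) / n)) * pp n β k := by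
  have hn0 : (0 : ℝ) < n := by exact_mod_cast hn
  unfold pn'
  rw [Finset.sum_congr rfl fun j _ => fk_zero β k j, Finset.sum_const, Finset.card_univ,
    Fintype.card_fin, nsmul_eq_mul]
  have h1 : ∏ l ∈ range k, (1 - (1 + (l : ℝ)) / n) =
      (n : ℝ)⁻¹ ^ k * ∏ l ∈ range k, ((n : ℝ) - 1 - l) := by
    have h2 : ∀ l ∈ range k, (1 - (1 + (l : ℝ)) / n) = (n : ℝ)⁻¹ * ((n : ℝ) - 1 - l) := by
      intro l _
      field_simp
      ring
    rw [Finset.prod_congr rfl h2, Finset.prod_mul_distrib]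
    simp
  have h3 : (Real.sqrt n)⁻¹ ^ k = (n : ℝ)⁻¹ ^ k * Real.sqrt n ^ k := by
    rw [← mul_pow]
    congr 1
    have h4 := Real.mul_self_sqrt hn0.le
    have h5 : Real.sqrt n ≠ 0 := (Real.sqrt_pos.2 hn0).ne'
    field_simp
    rw [sq]
    exact h4.symm
  rw [h1, h3]
  unfold pp
  field_simp

lemma tendsto_ratio (k : ℕ) :
    Tendsto (fun n : ℕ => ∏ l ∈ range k, (1 - (1 + (l : ℝ)) / n)) atTop (𝓝 1) := by
  have h : Tendsto (fun n : ℕ => ∏ l ∈ range k, (1 - (1 + (l : ℝ)) / n)) atTop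
      (𝓝 (∏ _l ∈ range k, (1 - 0 : ℝ))) :=
    tendsto_finsetProd _ fun l _ => tendsto_const_nhds.sub
      (tendsto_const_nhds.div_atTop tendsto_natCast_atTop_atTop)
  simpa using h

lemma desc_ratio {n : ℕ} (hn : 1 ≤ n) (k : ℕ) :
    (n.descFactorial (k + 1) : ℝ) / n ^ (k + 1) = ∏ l ∈ range k, (1 - (1 + (l : ℝ)) / n) := by
  have hn0 : (0 : ℝ) < n := by exact_mod_cast hn
  induction k with
  | zero => simp [hn0.ne']
  | succ k ih =>
    rw [Finset.prod_range_succ, ← ih, Nat.descFactorial_succ]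
    by_cases h : k + 1 ≤ n
    · rw [Nat.cast_mul, Nat.cast_sub h]
      push_cast
      field_simp
      ring
    · have h2 : n.descFactorial (k + 1) = 0 := Nat.descFactorial_eq_zero_iff_lt.2 (by omega)
      rw [h2]
      simp

lemma tendsto_desc (k : ℕ) :
    Tendsto (fun n : ℕ => (n.descFactorial (k + 1) : ℝ) / n ^ (k + 1)) atTop (𝓝 1) := by
  refine (tendsto_ratio k).congr' ?_
  filter_upwards [eventually_ge_atTop 1] with n hn
  exact (desc_ratio hn k).symm

lemma tendsto_pp {β : ℝ} {k : ℕ} {m : ℝ} (h : Tendsto (fun n => pn' β n k) atTop (𝓝 m)) :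
    Tendsto (fun n => pp n β k) atTop (𝓝 m) := by
  have h1 := h.div (tendsto_ratio k) one_ne_zero
  rw [div_one] at h1
  refine h1.congr' ?_
  have h2 := (tendsto_ratio k).eventually (lt_mem_nhds (show (0 : ℝ) < 1 by norm_num))
  filter_upwards [h2, eventually_ge_atTop 1] with n h3 hn
  simp only [Pi.div_apply]
  rw [pn'_eq hn]
  exact mul_div_cancel_left₀ _ h3.ne'

lemma pn'_zero {n : ℕ} (hn : 1 ≤ n) (β : ℝ) : pn' β n 0 = 1 := by
  have hn0 : (0 : ℝ) < n := by exact_mod_cast hn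
  unfold pn'
  have h : ∀ j : Fin n, fk {j} (CC β j 0) 0 j 0 = 1 := by
    intro j
    rw [fk, CC_zero]
    simp only
    rw [f2_self]
    unfold co
    simp [heM, he_zero]
  rw [Finset.sum_congr rfl fun j _ => h j]
  simp
  field_simp

/-! ### the kernels -/

/-- the Kronecker symbol -/
def kd (k l : ℕ) : ℝ := if k = l then 1 else 0

lemma nn_saw {n : ℕ} (k : ℕ) :
    nn (fun j v : Fin n => saw k j v) = (n.descFactorial (k + 1) : ℝ) / n ^ (k + 1) := by
  unfold nn
  have h1 : ∀ j v : Fin n, ∫ z, saw k j v z ^ 2 ∂(gpi (Pair n)) =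
      (n : ℝ)⁻¹ ^ k * ((PE j v k).card : ℝ) := fun j v => int_saw_sq k j v
  simp_rw [h1]
  simp only [← Finset.mul_sum]
  have h3 : ∑ j : Fin n, ∑ v : Fin n, ((PE j v k).card : ℝ) = (n.descFactorial (k + 1) : ℝ) := by
    rw [← sum_card_PE n k]
    push_cast
    rfl
  rw [h3, inv_pow, pow_succ, div_eq_mul_inv, mul_inv]
  ring

lemma abs_int_le {n : ℕ} {f : (Pair n → ℝ) → ℝ} (hf : Dom f) (c : ℝ) :
    |∫ z, f z ∂(gpi (Pair n)) - c| ≤ ∫ z, |f z - c| ∂(gpi (Pair n)) := by
  have h : ∫ z, f z ∂(gpi (Pair n)) - c = ∫ z, (f z - c) ∂(gpi (Pair n)) := by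
    rw [int_sub hf (Dom.const c)]
    simp
  rw [h]
  exact abs_integral_le_integral_abs

/-- the input on the Chebyshev polynomials of the disorder matrix -/
def ChebLim : Prop := ∀ k l : ℕ, Tendsto (fun n : ℕ =>
  ∫ z, |ip (fun j v : Fin n => ch k j v) (fun j v => ch l j v) z - kd k l| ∂(gpi (Pair n)))
    atTop (𝓝 0)

lemma tendsto_nn_ch (h : ChebLim) (k : ℕ) :
    Tendsto (fun n : ℕ => nn (fun j v : Fin n => ch k j v)) atTop (𝓝 1) := by
  have h1 := h k k
  have h2 : ∀ n : ℕ, |nn (fun j v : Fin n => ch k j v) - 1| ≤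
      ∫ z, |ip (fun j v : Fin n => ch k j v) (fun j v => ch k j v) z - kd k k| ∂(gpi (Pair n)) := by
    intro n
    rw [nn_eq fun j v => dom_ch k j v]
    have h3 := abs_int_le (dom_ip (n := n) (fun j v => dom_ch k j v) (fun j v => dom_ch k j v)) 1
    unfold kd
    rw [if_pos rfl]
    exact h3
  have h4 := squeeze_zero (fun n => abs_nonneg _) h2 h1
  rw [tendsto_iff_norm_sub_tendsto_zero]
  exact h4

lemma tendsto_nn_diff (h : ChebLim) (k : ℕ) :
    Tendsto (fun n : ℕ => nn (fun (j v : Fin n) z => saw k j v z - ch k j v z)) atTop (𝓝 0) := by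
  have h1 : ∀ n : ℕ, nn (fun (j v : Fin n) z => saw k j v z - ch k j v z) =
      nn (fun j v : Fin n => ch k j v) - (n.descFactorial (k + 1) : ℝ) / n ^ (k + 1) :=
    fun n => saw_ch k
  simp_rw [h1]
  have h2 := (tendsto_nn_ch h k).sub (tendsto_desc k)
  rwa [sub_self] at h2

/-- orthogonality of the path sums -/
theorem tendsto_saw (h : ChebLim) (k l : ℕ) : Tendsto (fun n : ℕ =>
    ∫ z, |ip (fun j v : Fin n => saw k j v) (fun j v => saw l j v) z - kd k l| ∂(gpi (Pair n)))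
      atTop (𝓝 0) := by
  rw [Metric.tendsto_atTop]
  intro ε hε
  obtain ⟨η, hη, hη0⟩ : ∃ η : ℝ, 4 * η = ε ∧ 0 < η := ⟨ε / 4, by ring, by positivity⟩
  have ev1 := (tendsto_nn_ch h l).eventually (gt_mem_nhds (show (1 : ℝ) < 2 by norm_num))
  have ev2 := (tendsto_desc k).eventually (gt_mem_nhds (show (1 : ℝ) < 2 by norm_num))
  have hlim : Tendsto (fun n : ℕ => 1 / (2 * η) *
      (nn (fun (j v : Fin n) z => saw k j v z - ch k j v z) +
        nn (fun (j v : Fin n) z => saw l j v z - ch l j v z)) +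
      ∫ z, |ip (fun j v : Fin n => ch k j v) (fun j v => ch l j v) z - kd k l|
        ∂(gpi (Pair n))) atTop (𝓝 (1 / (2 * η) * (0 + 0) + 0)) :=
    (((tendsto_nn_diff h k).add (tendsto_nn_diff h l)).const_mul _).add (h k l)
  rw [add_zero, add_zero, mul_zero] at hlim
  have ev3 := hlim.eventually (gt_mem_nhds hη0)
  obtain ⟨N, hN⟩ := (ev1.and (ev2.and ev3)).exists_forall_of_atTop
  refine ⟨N, fun n hn => ?_⟩
  obtain ⟨h1, h2, h3⟩ := hN n hn
  have ds := fun k => fun j v : Fin n => dom_saw k j v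
  have dc := fun k => fun j v : Fin n => dom_ch k j v
  have hd := ip_diff (ds k) (ds l) (dc k) (dc l) hη0
  have hnon : 0 ≤ ∫ z, |ip (fun j v : Fin n => saw k j v) (fun j v => saw l j v) z - kd k l|
      ∂(gpi (Pair n)) := integral_nonneg fun z => abs_nonneg _
  rw [Real.dist_eq, sub_zero, abs_of_nonneg hnon]
  have h4 : ∫ z, |ip (fun j v : Fin n => saw k j v) (fun j v => saw l j v) z - kd k l|
      ∂(gpi (Pair n)) ≤
      ∫ z, |ip (fun j v : Fin n => saw k j v) (fun j v => saw l j v) z -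
        ip (fun j v : Fin n => ch k j v) (fun j v => ch l j v) z| ∂(gpi (Pair n)) +
      ∫ z, |ip (fun j v : Fin n => ch k j v) (fun j v => ch l j v) z - kd k l|
        ∂(gpi (Pair n)) := by
    have i1 := ((dom_ip (ds k) (ds l)).sub (dom_ip (dc k) (dc l))).integrable.abs
    have i2 := ((dom_ip (dc k) (dc l)).sub (Dom.const (kd k l))).integrable.abs
    rw [← integral_add i1 i2]
    refine integral_mono (((dom_ip (ds k) (ds l)).sub (Dom.const (kd k l))).integrable.abs)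
      (i1.add i2) fun z => ?_
    simp only [Pi.add_apply]
    have := abs_add_le (ip (fun j v : Fin n => saw k j v) (fun j v => saw l j v) z -
        ip (fun j v : Fin n => ch k j v) (fun j v => ch l j v) z)
      (ip (fun j v : Fin n => ch k j v) (fun j v => ch l j v) z - kd k l)
    rwa [sub_add_sub_cancel] at this
  rw [nn_saw] at hd
  have h5 : η / 2 * ((n.descFactorial (k + 1) : ℝ) / n ^ (k + 1) +
      nn (fun j v : Fin n => ch l j v)) ≤ η / 2 * 4 :=
    mul_le_mul_of_nonneg_left (by linarith) (by positivity)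
  linarith

end Vale.Agent.P146.R3.H732
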