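import Vale.Agent.P146.R3.H732.Lim

/-!
# P146: the limit of the Stein kernel of the smoothed free energy
-/

open MeasureTheory ProbabilityTheory Finset Filter Topology

namespace Vale.Agent.P146.R3.H732

open Vale.Agent.P146 Vale.Agent.P146.Ub.Cv Vale.Agent.P146.H605 Vale.Agent.P146.H453
  Vale.Agent.P146.R2

lemma swap4 {n : ℕ} (f : Fin n → Fin n → ℕ → ℕ → ℝ) (L : ℕ) :
    ∑ j, ∑ v, ∑ k ∈ range L, ∑ l ∈ range L, f j v k l =
      ∑ k ∈ range L, ∑ l ∈ range L, ∑ j, ∑ v, f j v k l := by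
  calc ∑ j, ∑ v, ∑ k ∈ range L, ∑ l ∈ range L, f j v k l
      = ∑ j, ∑ k ∈ range L, ∑ v, ∑ l ∈ range L, f j v k l :=
        Finset.sum_congr rfl fun j _ => Finset.sum_comm
    _ = ∑ k ∈ range L, ∑ j, ∑ v, ∑ l ∈ range L, f j v k l := Finset.sum_comm
    _ = ∑ k ∈ range L, ∑ j, ∑ l ∈ range L, ∑ v, f j v k l :=
        Finset.sum_congr rfl fun k _ => Finset.sum_congr rfl fun j _ => Finset.sum_comm
    _ = ∑ k ∈ range L, ∑ l ∈ range L, ∑ j, ∑ v, f j v k l :=
        Finset.sum_congr rfl fun k _ => Finset.sum_comm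

lemma ip_AA {n : ℕ} (hn : 1 ≤ n) (β : ℝ) (w w' : ℕ → ℝ) (L : ℕ) (z : Pair n → ℝ) :
    ip (fun j v : Fin n => AA β w L j v) (fun j v => AA β w' L j v) z =
      ∑ k ∈ range L, ∑ l ∈ range L, ((w (k + 1) * pp n β k) * (w' (l + 1) * pp n β l)) *
        ip (fun j v : Fin n => saw k j v) (fun j v => saw l j v) z := by
  have h1 : ip (fun j v : Fin n => AA β w L j v) (fun j v => AA β w' L j v) z =
      (n : ℝ)⁻¹ * ∑ j : Fin n, ∑ v : Fin n, ∑ k ∈ range L, ∑ l ∈ range L,
        (w (k + 1) * pp n β k * saw k j v z) * (w' (l + 1) * pp n β l * saw l j v z) := by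
    unfold ip
    congr 1
    refine Finset.sum_congr rfl fun j _ => Finset.sum_congr rfl fun v _ => ?_
    change AA β w L j v z * AA β w' L j v z = _
    rw [AA_eq hn, AA_eq hn, Finset.sum_mul_sum]
  rw [h1, swap4, Finset.mul_sum]
  refine Finset.sum_congr rfl fun k _ => ?_
  rw [Finset.mul_sum]
  refine Finset.sum_congr rfl fun l _ => ?_
  unfold ip
  rw [← mul_assoc, mul_comm _ (n : ℝ)⁻¹, mul_assoc]
  congr 1
  rw [Finset.mul_sum]
  refine Finset.sum_congr rfl fun j _ => ?_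
  rw [Finset.mul_sum]
  refine Finset.sum_congr rfl fun v _ => ?_
  ring

section lim

variable {β : ℝ} {m : ℕ → ℝ}

/-- the path part of the kernel converges -/
theorem tendsto_AA (hT : ChebLim) (hP : ∀ k, Tendsto (fun n => pn' β n k) atTop (𝓝 (m k)))
    (w w' : ℕ → ℝ) (L : ℕ) : Tendsto (fun n : ℕ =>
      ∫ z, |ip (fun j v : Fin n => AA β w L j v) (fun j v => AA β w' L j v) z -
        ∑ k ∈ range L, w (k + 1) * w' (k + 1) * m k ^ 2| ∂(gpi (Pair n))) atTop (𝓝 0) := by
  obtain ⟨a, ha⟩ : ∃ a : (ℕ → ℝ) → ℕ → ℕ → ℝ, a = fun w n k => w (k + 1) * pp n β k := ⟨_, rfl⟩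
  obtain ⟨I, hI⟩ : ∃ I : ℕ → ℕ → ℕ → ℝ, I = fun n k l =>
    ∫ z, |ip (fun j v : Fin n => saw k j v) (fun j v => saw l j v) z - kd k l|
      ∂(gpi (Pair n)) := ⟨_, rfl⟩
  obtain ⟨S, hS⟩ : ∃ S : ℝ, S = ∑ k ∈ range L, w (k + 1) * w' (k + 1) * m k ^ 2 := ⟨_, rfl⟩
  rw [← hS]
  have ta : ∀ (w : ℕ → ℝ) (k : ℕ), Tendsto (fun n => a w n k) atTop (𝓝 (w (k + 1) * m k)) := by
    intro w k
    rw [ha]
    exact (tendsto_pp (hP k)).const_mul _
  have tI : ∀ k l : ℕ, Tendsto (fun n => I n k l) atTop (𝓝 0) := by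
    intro k l
    rw [hI]
    exact tendsto_saw hT k l
  have t1 : Tendsto (fun n : ℕ => ∑ k ∈ range L, ∑ l ∈ range L, |a w n k * a w' n l| * I n k l)
      atTop (𝓝 (∑ k ∈ range L, ∑ l ∈ range L,
        |(w (k + 1) * m k) * (w' (l + 1) * m l)| * 0)) :=
    tendsto_finsetSum _ fun k _ => tendsto_finsetSum _ fun l _ =>
      ((ta w k).mul (ta w' l)).abs.mul (tI k l)
  have t2 : Tendsto (fun n : ℕ => |∑ k ∈ range L, ∑ l ∈ range L,
      (a w n k * a w' n l) * kd k l - S|) atTop (𝓝 (|∑ k ∈ range L, ∑ l ∈ range L,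
        ((w (k + 1) * m k) * (w' (l + 1) * m l)) * kd k l - S|)) :=
    ((tendsto_finsetSum _ fun k _ => tendsto_finsetSum _ fun l _ =>
      ((ta w k).mul (ta w' l)).mul_const (kd k l)).sub_const S).abs
  have e2 : ∑ k ∈ range L, ∑ l ∈ range L,
      ((w (k + 1) * m k) * (w' (l + 1) * m l)) * kd k l = S := by
    rw [hS]
    refine Finset.sum_congr rfl fun k hk => ?_
    rw [Finset.sum_eq_single k]
    · unfold kd
      rw [if_pos rfl]
      ring
    · intro l _ hl
      unfold kd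
      rw [if_neg (Ne.symm hl), mul_zero]
    · intro h
      exact absurd hk h
  rw [e2, sub_self, abs_zero] at t2
  simp only [mul_zero, Finset.sum_const_zero] at t1
  have t3 := t1.add t2
  rw [add_zero] at t3
  refine squeeze_zero' (Eventually.of_forall fun n => integral_nonneg fun z => abs_nonneg _)
    ?_ t3
  filter_upwards [eventually_ge_atTop 1] with n hn
  have ds := fun k => fun j v : Fin n => dom_saw k j v
  have di : ∀ k l, Dom (ip (fun j v : Fin n => saw k j v) (fun j v => saw l j v)) :=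
    fun k l => dom_ip (ds k) (ds l)
  have d1 : ∀ k l, Dom (fun z => ip (fun j v : Fin n => saw k j v) (fun j v => saw l j v) z -
      kd k l) := fun k l => (di k l).sub (Dom.const _)
  have hpt : ∀ z, |ip (fun j v : Fin n => AA β w L j v) (fun j v => AA β w' L j v) z - S| ≤
      (∑ k ∈ range L, ∑ l ∈ range L, |a w n k * a w' n l| *
        |ip (fun j v : Fin n => saw k j v) (fun j v => saw l j v) z - kd k l|) +
      |∑ k ∈ range L, ∑ l ∈ range L, (a w n k * a w' n l) * kd k l - S| := by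
    intro z
    have e3 : ip (fun j v : Fin n => AA β w L j v) (fun j v => AA β w' L j v) z - S =
        ∑ k ∈ range L, ∑ l ∈ range L, (a w n k * a w' n l) *
          (ip (fun j v : Fin n => saw k j v) (fun j v => saw l j v) z - kd k l) +
        (∑ k ∈ range L, ∑ l ∈ range L, (a w n k * a w' n l) * kd k l - S) := by
      rw [ip_AA hn, ha]
      simp only [mul_sub, Finset.sum_sub_distrib]
      ring
    rw [e3]
    refine (abs_add_le _ _).trans (add_le_add_left ?_ _)
    refine (Finset.abs_sum_le_sum_abs _ _).trans (Finset.sum_le_sum fun k _ => ?_)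
    refine (Finset.abs_sum_le_sum_abs _ _).trans (Finset.sum_le_sum fun l _ => ?_)
    rw [abs_mul]
  have ia : ∀ k l, Integrable (fun z =>
      |ip (fun j v : Fin n => saw k j v) (fun j v => saw l j v) z - kd k l|)
      (gpi (Pair n)) := fun k l => (d1 k l).integrable.abs
  have dA : Dom (ip (fun j v : Fin n => AA β w L j v) (fun j v => AA β w' L j v)) :=
    dom_ip (fun j v => dom_AA β w L j v) (fun j v => dom_AA β w' L j v)
  have h5 : Integrable (fun z => ∑ k ∈ range L, ∑ l ∈ range L, |a w n k * a w' n l| *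
        |ip (fun j v : Fin n => saw k j v) (fun j v => saw l j v) z - kd k l|)
      (gpi (Pair n)) :=
    integrable_finsetSum _ fun k _ => integrable_finsetSum _ fun l _ => (ia k l).const_mul _
  refine (integral_mono (dA.sub (Dom.const S)).integrable.abs (h5.add (integrable_const _))
    hpt).trans (le_of_eq ?_)
  simp only [Pi.add_apply]
  rw [integral_add h5 (integrable_const _), integral_const]
  simp only [probReal_univ, smul_eq_mul, one_mul]
  congr 1
  rw [integral_finsetSum _ fun k _ => integrable_finsetSum _ fun l _ => (ia k l).const_mul _]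
  refine Finset.sum_congr rfl fun k _ => ?_
  rw [integral_finsetSum _ fun l _ => (ia k l).const_mul _]
  refine Finset.sum_congr rfl fun l _ => ?_
  rw [integral_const_mul, hI]

/-- the path part of the overlap converges -/
lemma tendsto_RP (hP : ∀ k, Tendsto (fun n => pn' β n k) atTop (𝓝 (m k))) (t : ℝ) (L : ℕ) :
    Tendsto (fun n => RP n β t L) atTop (𝓝 (∑ k ∈ range L, t ^ k * m k ^ 2)) := by
  have h : Tendsto (fun n => RP n β t L) atTop (𝓝 (∑ k ∈ range L, t ^ k * m k ^ 2 * 1)) :=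
    tendsto_finsetSum _ fun k _ =>
      (((tendsto_pp (hP k)).pow 2).const_mul _).mul (tendsto_desc k)
  simpa using h

/-- **The limit of the Stein kernel.** -/
theorem tendsto_DD (hT : ChebLim) (hP : ∀ k, Tendsto (fun n => pn' β n k) atTop (𝓝 (m k)))
    {t : ℝ} (h0 : 0 ≤ t) (h1 : t ≤ 1)
    (hs : Summable fun k : ℕ => t ^ k * m k ^ 2)
    (hX : Tendsto (fun n : ℕ => n * crossOverlap n β t) atTop (𝓝 (∑' k : ℕ, t ^ k * m k ^ 2)))
    {w : ℕ → ℝ} {C : ℝ} (hC : 0 ≤ C) (hw : ∀ k, w (k + 1) ^ 2 ≤ C * t ^ k)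
    {S : ℝ} (hS : HasSum (fun k : ℕ => w (k + 1) ^ 2 / (k + 1) * m k ^ 2) S)
    {ε : ℝ} (hε : 0 < ε) : ∃ L : ℕ, ∀ᶠ n : ℕ in atTop, ∀ M : ℕ, L ≤ M + 1 →
      ∫ z, |DD ((ML n (M + 1)).erase 0) (cw n β w) z - β ^ 2 / 2 * (S - w 1 ^ 2)|
        ∂(gpi (Pair n)) ≤ ε := by
  obtain ⟨X, hXd⟩ : ∃ X, X = ∑' k : ℕ, t ^ k * m k ^ 2 := ⟨_, rfl⟩
  rw [← hXd] at hX
  have hX0 : 0 ≤ X := by
    rw [hXd]
    exact tsum_nonneg fun k => by positivity
  obtain ⟨w', hw'⟩ : ∃ w' : ℕ → ℝ, w' = fun k : ℕ => w k / (k : ℝ) := ⟨_, rfl⟩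
  have hw2 : ∀ k, w' (k + 1) ^ 2 ≤ C * t ^ k := by
    intro k
    refine le_trans ?_ (hw k)
    rw [hw', div_pow]
    refine div_le_self (sq_nonneg _) ?_
    have : (1 : ℝ) ≤ ((k + 1 : ℕ) : ℝ) := by
      push_cast
      have : (0 : ℝ) ≤ k := Nat.cast_nonneg k
      linarith
    exact one_le_pow₀ this
  -- parameters
  obtain ⟨e, he, he0⟩ : ∃ e : ℝ, β ^ 2 / 2 * (4 * e) ≤ ε ∧ 0 < e := by
    refine ⟨ε / (4 * (β ^ 2 / 2 + 1)), ?_, by positivity⟩
    have : 0 < β ^ 2 / 2 + 1 := by positivity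
    rw [show β ^ 2 / 2 * (4 * (ε / (4 * (β ^ 2 / 2 + 1)))) = (β ^ 2 / 2) / (β ^ 2 / 2 + 1) * ε by
      field_simp]
    have h2 : (β ^ 2 / 2) / (β ^ 2 / 2 + 1) ≤ 1 := by
      rw [div_le_one this]
      linarith
    nlinarith
  obtain ⟨η, hη1, hη0⟩ : ∃ η : ℝ, η * C * (X + 1) ≤ e ∧ 0 < η := by
    refine ⟨e / ((C + 1) * (X + 1)), ?_, by positivity⟩
    have h2 : e / ((C + 1) * (X + 1)) * C * (X + 1) = C / (C + 1) * e := by
      field_simp
    rw [h2]
    have h3 : C / (C + 1) ≤ 1 := by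
      rw [div_le_one (by positivity)]
      linarith
    nlinarith
  -- the truncation
  have tl1 : Tendsto (fun L : ℕ => ∑ k ∈ range L, t ^ k * m k ^ 2) atTop (𝓝 X) := by
    rw [hXd]
    exact hs.hasSum.tendsto_sum_nat
  have tl2 : Tendsto (fun L : ℕ => ∑ k ∈ range L, w (k + 1) * w' (k + 1) * m k ^ 2)
      atTop (𝓝 S) := by
    have h2 := hS.tendsto_sum_nat
    refine h2.congr fun L => Finset.sum_congr rfl fun k _ => ?_
    rw [hw']
    push_cast
    ring
  have tl3 : Tendsto (fun L : ℕ => C / η * (X - ∑ k ∈ range L, t ^ k * m k ^ 2))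
      atTop (𝓝 (C / η * (X - X))) := (tendsto_const_nhds.sub tl1).const_mul _
  rw [sub_self, mul_zero] at tl3
  have tl4 : Tendsto (fun L : ℕ => |∑ k ∈ range L, w (k + 1) * w' (k + 1) * m k ^ 2 - S|)
      atTop (𝓝 |S - S|) := (tl2.sub_const S).abs
  rw [sub_self, abs_zero] at tl4
  obtain ⟨L, hL3, hL4⟩ := ((tl3.eventually (gt_mem_nhds he0)).and
    (tl4.eventually (gt_mem_nhds he0))).exists
  refine ⟨L, ?_⟩
  have tn1 : Tendsto (fun n : ℕ => C / η * (n * crossOverlap n β t - RP n β t L)) atTop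
      (𝓝 (C / η * (X - ∑ k ∈ range L, t ^ k * m k ^ 2))) :=
    (hX.sub (tendsto_RP hP t L)).const_mul _
  have tn2 := tendsto_AA hT hP w w' L
  filter_upwards [tn1.eventually (gt_mem_nhds hL3), tn2.eventually (gt_mem_nhds he0),
    hX.eventually (gt_mem_nhds (show X < X + 1 by linarith)), eventually_ge_atTop 1]
    with n g1 g2 g3 hn M hM
  have dG : ∀ w : ℕ → ℝ, ∀ j v : Fin n, Dom (GG' β w M j v) := fun w j v => dom_GG' β w M j v
  have dA : ∀ w : ℕ → ℝ, ∀ j v : Fin n, Dom (AA β w L j v) := fun w j v => dom_AA β w L j v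
  have hd := ip_diff (dG w) (dG w') (dA w) (dA w') hη0
  have b1 : nn (fun j v : Fin n => GG' β w M j v) ≤ C * (n * crossOverlap n β t) :=
    nn_part_le hn hC h0 h1 hw fun _ _ => ML n M
  have b2 : nn (fun j v : Fin n => AA β w' L j v) ≤ C * (n * crossOverlap n β t) :=
    nn_part_le hn hC h0 h1 hw2 fun j v => SP j v L
  have b3 := nn_diff_le hn hC h0 h1 hw (n := n) (β := β) hM
  have b4 := nn_diff_le hn hC h0 h1 hw2 (n := n) (β := β) hM
  have hA1 : η / 2 * (nn (fun j v : Fin n => GG' β w M j v) +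
      nn (fun j v : Fin n => AA β w' L j v)) ≤ e := by
    have h2 : C * (n * crossOverlap n β t) ≤ C * (X + 1) := mul_le_mul_of_nonneg_left g3.le hC
    calc η / 2 * (nn (fun j v : Fin n => GG' β w M j v) +
        nn (fun j v : Fin n => AA β w' L j v)) ≤ η / 2 * (C * (X + 1) + C * (X + 1)) :=
          mul_le_mul_of_nonneg_left (by linarith) (by positivity)
      _ = η * C * (X + 1) := by ring
      _ ≤ e := hη1
  have hA2 : 1 / (2 * η) * (nn (fun (j v : Fin n) z => GG' β w M j v z - AA β w L j v z) +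
      nn (fun (j v : Fin n) z => GG' β w' M j v z - AA β w' L j v z)) ≤ e := by
    refine le_trans ?_ g1.le
    calc 1 / (2 * η) * (nn (fun (j v : Fin n) z => GG' β w M j v z - AA β w L j v z) +
        nn (fun (j v : Fin n) z => GG' β w' M j v z - AA β w' L j v z)) ≤
        1 / (2 * η) * (C * (n * crossOverlap n β t - RP n β t L) +
          C * (n * crossOverlap n β t - RP n β t L)) :=
          mul_le_mul_of_nonneg_left (add_le_add b3 b4) (by positivity)
      _ = C / η * (n * crossOverlap n β t - RP n β t L) := by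
          field_simp
          ring
  have dipG := dom_ip (dG w) (dG w')
  have dipA := dom_ip (dA w) (dA w')
  obtain ⟨SL, hSL⟩ : ∃ SL, SL = ∑ k ∈ range L, w (k + 1) * w' (k + 1) * m k ^ 2 := ⟨_, rfl⟩
  rw [← hSL] at g2 hL4
  have hpt : ∀ z, |DD ((ML n (M + 1)).erase 0) (cw n β w) z - β ^ 2 / 2 * (S - w 1 ^ 2)| ≤
      β ^ 2 / 2 * (|ip (fun j v : Fin n => GG' β w M j v) (fun j v => GG' β w' M j v) z -
        ip (fun j v : Fin n => AA β w L j v) (fun j v => AA β w' L j v) z| +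
        (|ip (fun j v : Fin n => AA β w L j v) (fun j v => AA β w' L j v) z - SL| +
          |SL - S|)) := by
    intro z
    have e1 : DD ((ML n (M + 1)).erase 0) (cw n β w) z - β ^ 2 / 2 * (S - w 1 ^ 2) =
        β ^ 2 / 2 * (ip (fun j v : Fin n => GG' β w M j v) (fun j v => GG' β w' M j v) z -
          S) := by
      rw [DD_cw hn]
      unfold ip
      rw [hw']
      ring
    rw [e1, abs_mul, abs_of_nonneg (by positivity : (0 : ℝ) ≤ β ^ 2 / 2)]
    refine mul_le_mul_of_nonneg_left ?_ (by positivity)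
    calc |ip (fun j v : Fin n => GG' β w M j v) (fun j v => GG' β w' M j v) z - S| =
        |(ip (fun j v : Fin n => GG' β w M j v) (fun j v => GG' β w' M j v) z -
          ip (fun j v : Fin n => AA β w L j v) (fun j v => AA β w' L j v) z) +
          ((ip (fun j v : Fin n => AA β w L j v) (fun j v => AA β w' L j v) z - SL) +
            (SL - S))| := by
          congr 1
          ring
      _ ≤ _ := (abs_add_le _ _).trans (add_le_add_right (abs_add_le _ _) _)
  have i1 := (dipG.sub dipA).integrable.abs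
  have i2 := (dipA.sub (Dom.const SL)).integrable.abs
  have i3 : Integrable (fun _ : Pair n → ℝ => |SL - S|) (gpi (Pair n)) := integrable_const _
  have i23 : Integrable (fun z => |ip (fun j v : Fin n => AA β w L j v)
      (fun j v => AA β w' L j v) z - SL| + |SL - S|) (gpi (Pair n)) := i2.add i3
  have i123 : Integrable (fun z => β ^ 2 / 2 * (|ip (fun j v : Fin n => GG' β w M j v)
      (fun j v => GG' β w' M j v) z -
        ip (fun j v : Fin n => AA β w L j v) (fun j v => AA β w' L j v) z| +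
        (|ip (fun j v : Fin n => AA β w L j v) (fun j v => AA β w' L j v) z - SL| +
          |SL - S|))) (gpi (Pair n)) := (i1.add i23).const_mul _
  have h2 := integral_mono (((dom_DD _ _).sub (Dom.const _)).integrable.abs) i123 hpt
  refine h2.trans ?_
  rw [integral_const_mul, integral_add i1 i23, integral_add i2 i3, integral_const]
  simp only [probReal_univ, smul_eq_mul, one_mul]
  refine le_trans (mul_le_mul_of_nonneg_left ?_ (by positivity)) he
  linarith

end lim

end Vale.Agent.P146.R3.H732
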