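import Vale.Agent.P146.R2.H453.Equiv
import Vale.Agent.P146.R2.H597.Sym

/-!
# P146: self-avoiding paths and their multi-indices
-/

open MeasureTheory ProbabilityTheory Finset

namespace Vale.Agent.P146.R3.H732

open Vale.Agent.P146 Vale.Agent.P146.H605 Vale.Agent.P146.H453 Vale.Agent.P146.R2

variable {n : ℕ}

/-- the unit multi-index of the pair `{a, b}` -/
def ue (a b : Fin n) : MI n := fun e =>
  if (e.1.1 = a ∧ e.1.2 = b) ∨ (e.1.1 = b ∧ e.1.2 = a) then 1 else 0

lemma ue_comm (a b : Fin n) : ue a b = ue b a := by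
  funext e
  unfold ue
  congr 1
  exact propext or_comm

lemma ot_eq_of {a b : Fin n} {e : Pair n}
    (h : (e.1.1 = a ∧ e.1.2 = b) ∨ (e.1.1 = b ∧ e.1.2 = a)) : e ∈ st b ∧ ot b e = a := by
  have h2 := e.2
  rw [mem_st]
  unfold ot
  rcases h with ⟨h3, h4⟩ | ⟨h3, h4⟩
  · refine ⟨Or.inr h4, ?_⟩
    rw [if_neg]
    · exact h3
    · intro h5
      rw [h4, h5] at h2
      exact lt_irrefl _ h2
  · exact ⟨Or.inl h3, by rw [if_pos h3, h4]⟩

lemma ue_un {b : Fin n} {e : Pair n} (h : e ∈ st b) : ue (ot b e) b = un e := by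
  funext x
  unfold ue
  by_cases hx : x = e
  · subst hx
    rw [un_self, if_pos]
    rw [mem_st] at h
    unfold ot
    by_cases h1 : x.1.1 = b
    · rw [if_pos h1]
      exact Or.inr ⟨h1, rfl⟩
    · rw [if_neg h1]
      exact Or.inl ⟨rfl, h.resolve_left h1⟩
  · rw [un_ne hx, if_neg]
    intro h1
    obtain ⟨h2, h3⟩ := ot_eq_of h1
    exact hx (ot_inj h2 h h3)

lemma exists_ue {a b : Fin n} (h : a ≠ b) : ∃ e ∈ st b, ot b e = a ∧ ue a b = un e := by
  obtain ⟨e, he, h1⟩ := ot_surj h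
  exact ⟨e, he, h1, by rw [← h1]; exact ue_un he⟩

lemma ue_ne_zero {a b : Fin n} {e : Pair n} (h : ue a b e ≠ 0) :
    (e ∈ st b ∧ ot b e = a) ∧ (e ∈ st a ∧ ot a e = b) := by
  unfold ue at h
  have h1 : (e.1.1 = a ∧ e.1.2 = b) ∨ (e.1.1 = b ∧ e.1.2 = a) := by
    by_contra h2
    exact h (if_neg h2)
  exact ⟨ot_eq_of h1, ot_eq_of h1.symm⟩

/-- the multi-index of a path -/
def pa {k : ℕ} (u : Fin (k + 1) → Fin n) : MI n := ∑ i : Fin k, ue (u i.castSucc) (u i.succ)

lemma pa_zero (u : Fin 1 → Fin n) : pa (k := 0) u = 0 := by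
  unfold pa
  simp

lemma pa_succ {k : ℕ} (u : Fin (k + 2) → Fin n) :
    pa u = pa (Fin.init u) + ue (u (Fin.last k).castSucc) (u (Fin.last (k + 1))) := by
  unfold pa
  rw [Fin.sum_univ_castSucc]
  rfl

lemma init_inj {k : ℕ} {u : Fin (k + 2) → Fin n} (hu : Function.Injective u) :
    Function.Injective (Fin.init u : Fin (k + 1) → Fin n) := fun _ _ h =>
  Fin.castSucc_injective _ (hu h)

lemma last_ne {k : ℕ} {u : Fin (k + 2) → Fin n} (hu : Function.Injective u) (i : Fin (k + 1)) :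
    (Fin.init u : Fin (k + 1) → Fin n) i ≠ u (Fin.last (k + 1)) := by
  intro h
  have := hu h
  exact (Fin.castSucc_lt_last i).ne this

lemma tot_ue {a b : Fin n} (h : a ≠ b) : H453.tot (ue a b) = 1 := by
  obtain ⟨e, -, -, he⟩ := exists_ue h
  rw [he, tot_un]

lemma tot_zero' : H453.tot (0 : MI n) = 0 := by simp [H453.tot]

lemma tot_pa {k : ℕ} {u : Fin (k + 1) → Fin n} (hu : Function.Injective u) :
    H453.tot (pa u) = k := by
  induction k with
  | zero => rw [pa_zero, tot_zero']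
  | succ k ih =>
    rw [pa_succ, H453.tot_add, ih (init_inj hu), tot_ue]
    exact last_ne hu (Fin.last k)

/-- the path does not touch the pairs at a vertex which is not on the path -/
lemma pa_off {k : ℕ} {u : Fin (k + 1) → Fin n} {x : Fin n} (hx : ∀ i, u i ≠ x) {e : Pair n}
    (he : e ∈ st x) : pa u e = 0 := by
  unfold pa
  rw [Finset.sum_apply]
  refine Finset.sum_eq_zero fun i _ => ?_
  by_contra h
  obtain ⟨⟨h1, h2⟩, h3, h4⟩ := ue_ne_zero h
  rcases mem_st_cases h1 he with h5 | h5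
  · exact hx _ h5.symm
  · rw [h2] at h5
    exact hx _ h5.symm

lemma deg_pa_off {k : ℕ} {u : Fin (k + 1) → Fin n} {x : Fin n} (hx : ∀ i, u i ≠ x) :
    deg (pa u) x = 0 := by
  rw [deg_zero_iff]
  exact fun e he => pa_off hx he

/-- the only pair of the path at the last vertex is the last one -/
lemma pa_end {k : ℕ} {u : Fin (k + 2) → Fin n} (hu : Function.Injective u) {e : Pair n}
    (he : e ∈ st (u (Fin.last (k + 1)))) (hne : pa u e ≠ 0) :
    ot (u (Fin.last (k + 1))) e = u (Fin.last k).castSucc := by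
  rw [pa_succ, Pi.add_apply, pa_off (last_ne hu) he, zero_add] at hne
  exact (ue_ne_zero hne).1.2

lemma ue_le_one (a b : Fin n) (e : Pair n) : ue a b e ≤ 1 := by
  unfold ue
  split_ifs <;> simp

lemma pa_le_one {k : ℕ} {u : Fin (k + 1) → Fin n} (hu : Function.Injective u) (e : Pair n) :
    pa u e ≤ 1 := by
  induction k with
  | zero => rw [pa_zero]; simp
  | succ k ih =>
    rw [pa_succ, Pi.add_apply]
    by_cases h : ue (u (Fin.last k).castSucc) (u (Fin.last (k + 1))) e = 0
    · rw [h, add_zero]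
      exact ih (init_inj hu)
    · rw [pa_off (last_ne hu) (ue_ne_zero h).1.1, zero_add]
      exact ue_le_one _ _ _

lemma fac_pa {k : ℕ} {u : Fin (k + 1) → Fin n} (hu : Function.Injective u) :
    ∏ e, ((pa u e).factorial : ℝ) = 1 := by
  refine Finset.prod_eq_one fun e _ => ?_
  have h := pa_le_one hu e
  rw [Nat.factorial_eq_one.2 h]
  simp

lemma pa_last {k : ℕ} {u : Fin (k + 2) → Fin n} {e : Pair n}
    (h : ue (u (Fin.last k).castSucc) (u (Fin.last (k + 1))) = un e) : pa u e ≠ 0 := by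
  rw [pa_succ, Pi.add_apply, h, un_self]
  omega

/-- a path is determined by its last vertex and its multi-index -/
lemma pa_inj {k : ℕ} {u u' : Fin (k + 1) → Fin n} (hu : Function.Injective u)
    (hu' : Function.Injective u') (hl : u (Fin.last k) = u' (Fin.last k)) (h : pa u = pa u') :
    u = u' := by
  induction k with
  | zero =>
    funext i
    have : i = Fin.last 0 := Subsingleton.elim (α := Fin 1) _ _
    rw [this, hl]
  | succ k ih =>
    obtain ⟨e, he, h1, h2⟩ := exists_ue (last_ne hu (Fin.last k))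
    have h3 : pa u' e ≠ 0 := by
      rw [← h]
      exact pa_last h2
    have h4 := pa_end hu' (by rw [← hl]; exact he) h3
    rw [← hl, h1] at h4
    have h5 : u (Fin.last k).castSucc = u' (Fin.last k).castSucc := h4
    have h6 : pa (Fin.init u : Fin (k + 1) → Fin n) = pa (Fin.init u' : Fin (k + 1) → Fin n) := by
      rw [pa_succ u, pa_succ u', ← hl, ← h5] at h
      exact add_right_cancel h
    have h7 := ih (init_inj hu) (init_inj hu') h5 h6
    rw [← Fin.snoc_init_self u, ← Fin.snoc_init_self u', h7, hl]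

/-! ### permutations -/

lemma ue_perm (π : Equiv.Perm (Fin n)) (a b : Fin n) :
    ue (π a) (π b) = fun e => ue a b ((pe π).symm e) := by
  funext e
  have h1 : (pe π).symm e = pf π.symm e := rfl
  have key : ∀ p q : Fin n, (e.1.1 = π p ∧ e.1.2 = π q) ↔
      (π.symm e.1.1 = p ∧ π.symm e.1.2 = q) := fun p q => by
    rw [Equiv.symm_apply_eq, Equiv.symm_apply_eq]
  rw [h1]
  unfold ue pf
  by_cases h : π.symm e.1.1 < π.symm e.1.2
  · rw [dif_pos h]
    simp only [key]
  · rw [dif_neg h]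
    simp only [key]
    congr 1
    exact propext ⟨fun h => h.elim (fun h => Or.inr h.symm) fun h => Or.inl h.symm,
      fun h => h.elim (fun h => Or.inr h.symm) fun h => Or.inl h.symm⟩

lemma pa_perm {k : ℕ} (π : Equiv.Perm (Fin n)) (u : Fin (k + 1) → Fin n) :
    pa (fun i => π (u i)) = fun e => pa u ((pe π).symm e) := by
  funext e
  unfold pa
  rw [Finset.sum_apply, Finset.sum_apply]
  refine Finset.sum_congr rfl fun i _ => ?_
  rw [ue_perm]

lemma exists_perm {k : ℕ} {u u' : Fin (k + 1) → Fin n} (hu : Function.Injective u)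
    (hu' : Function.Injective u') : ∃ π : Equiv.Perm (Fin n), ∀ i, π (u i) = u' i := by
  obtain ⟨π, hπ⟩ := (Equiv.Perm.isMultiplyPretransitive (Fin n) (k + 1)).exists_smul_eq
    ⟨u, hu⟩ ⟨u', hu'⟩
  exact ⟨π, fun i => by
    have := congrArg (fun f : Fin (k + 1) ↪ Fin n => f i) hπ
    simpa using this⟩

/-- the coefficient of `⟨σ_j σ_v⟩` at a path of length `k` from `j` to `v` -/
noncomputable def cp (n : ℕ) (β : ℝ) (k : ℕ) : ℝ :=
  if h : k + 1 ≤ n then
    co (f2 β (Fin.castLE h 0) (Fin.castLE h (Fin.last k))) (pa fun i => Fin.castLE h i)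
  else 0

lemma le_of_inj {k : ℕ} {u : Fin (k + 1) → Fin n} (hu : Function.Injective u) : k + 1 ≤ n := by
  have := Fintype.card_le_of_injective u hu
  simpa using this

theorem co_pa (β : ℝ) {k : ℕ} {u : Fin (k + 1) → Fin n} (hu : Function.Injective u) :
    co (f2 β (u 0) (u (Fin.last k))) (pa u) = cp n β k := by
  unfold cp
  rw [dif_pos (le_of_inj hu)]
  obtain ⟨π, hπ⟩ := exists_perm (Fin.castLE_injective (le_of_inj hu)) hu
  have h1 := co_f2_perm β π (Fin.castLE (le_of_inj hu) 0)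
    (Fin.castLE (le_of_inj hu) (Fin.last k)) (pa fun i => Fin.castLE (le_of_inj hu) i)
  rw [← pa_perm, hπ, hπ] at h1
  have h2 : (fun i => π (Fin.castLE (le_of_inj hu) i)) = u := funext hπ
  rw [h2] at h1
  exact h1

end Vale.Agent.P146.R3.H732
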