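import Vale.Agent.P146.R3.H732.Path

/-!
# P146: sums over self-avoiding paths, and the iterated fresh sums
-/

open MeasureTheory ProbabilityTheory Finset

namespace Vale.Agent.P146.R3.H732

open Vale.Agent.P146 Vale.Agent.P146.H605 Vale.Agent.P146.H453 Vale.Agent.P146.R2

variable {n : ℕ}

/-- the self-avoiding paths of length `k` from `j` to `v` -/
noncomputable def PE (j v : Fin n) (k : ℕ) : Finset (Fin (k + 1) ↪ Fin n) :=
  univ.filter fun u => u 0 = j ∧ u (Fin.last k) = v

lemma mem_PE {j v : Fin n} {k : ℕ} {u : Fin (k + 1) ↪ Fin n} :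
    u ∈ PE j v k ↔ u 0 = j ∧ u (Fin.last k) = v := by
  simp [PE]

/-- the number of paths of length `k` -/
lemma sum_card_PE (n k : ℕ) :
    ∑ j : Fin n, ∑ v : Fin n, (PE j v k).card = n.descFactorial (k + 1) := by
  have h1 : ∀ j : Fin n, ∑ v : Fin n, (PE j v k).card =
      (univ.filter fun u : Fin (k + 1) ↪ Fin n => u 0 = j).card := by
    intro j
    rw [Finset.card_eq_sum_card_fiberwise (f := fun u : Fin (k + 1) ↪ Fin n => u (Fin.last k))
      (t := univ) (fun _ _ => by simp)]
    refine Finset.sum_congr rfl fun v _ => ?_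
    rw [Finset.filter_filter]
    rfl
  rw [Finset.sum_congr rfl fun j _ => h1 j]
  have h2 := Finset.card_eq_sum_card_fiberwise (s := (univ : Finset (Fin (k + 1) ↪ Fin n)))
    (f := fun u : Fin (k + 1) ↪ Fin n => u 0) (t := univ) (fun _ _ => by simp)
  rw [← h2, Finset.card_univ, Fintype.card_embedding_eq, Fintype.card_fin, Fintype.card_fin]

lemma pa_injOn (j v : Fin n) (k : ℕ) :
    Set.InjOn (fun u : Fin (k + 1) ↪ Fin n => pa u) (PE j v k) := by
  intro u hu u' hu' h
  rw [mem_coe, mem_PE] at hu hu'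
  exact DFunLike.coe_injective (pa_inj u.injective u'.injective (hu.2.trans hu'.2.symm) h)

/-- the multi-indices of the paths of length less than `L` from `j` to `v` -/
noncomputable def SP (j v : Fin n) (L : ℕ) : Finset (MI n) :=
  (range L).biUnion fun k => (PE j v k).image fun u : Fin (k + 1) ↪ Fin n => pa (k := k) u

lemma sum_SP {M : Type*} [AddCommMonoid M] (j v : Fin n) (L : ℕ) (H : MI n → M) :
    ∑ α ∈ SP j v L, H α = ∑ k ∈ range L, ∑ u ∈ PE j v k, H (pa u) := by
  unfold SP
  rw [Finset.sum_biUnion]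
  · refine Finset.sum_congr rfl fun k _ => ?_
    rw [Finset.sum_image]
    exact pa_injOn j v k
  · intro k _ l _ hkl
    change Disjoint _ _
    rw [Finset.disjoint_left]
    intro α h1 h2
    rw [Finset.mem_image] at h1 h2
    obtain ⟨u, -, rfl⟩ := h1
    obtain ⟨u', -, h3⟩ := h2
    have h4 := tot_pa u.injective
    rw [← h3, tot_pa u'.injective] at h4
    exact hkl h4.symm

lemma SP_sub (j v : Fin n) {L M : ℕ} (h : L ≤ M + 1) : SP j v L ⊆ ML n M := by
  intro α hα
  unfold SP at hα
  rw [Finset.mem_biUnion] at hα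
  obtain ⟨k, hk, h1⟩ := hα
  rw [Finset.mem_image] at h1
  obtain ⟨u, -, rfl⟩ := h1
  rw [mem_range] at hk
  rw [mem_ML, tot_pa u.injective]
  omega

/-! ### the iterated fresh sums -/

lemma deg_pa_on {k : ℕ} {u : Fin (k + 2) → Fin n} (hu : Function.Injective u) (i : Fin (k + 2)) :
    deg (pa u) (u i) ≠ 0 := by
  have key : ∀ l : Fin (k + 1), deg (pa u) (u l.castSucc) ≠ 0 ∧ deg (pa u) (u l.succ) ≠ 0 := by
    intro l
    have hne : u l.castSucc ≠ u l.succ := fun h => by
      have := hu h
      exact (Fin.castSucc_lt_succ).ne this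
    obtain ⟨e, he, h1, h2⟩ := exists_ue hne
    have h3 : pa u e ≠ 0 := by
      unfold pa
      rw [Finset.sum_apply]
      intro h0
      have := Finset.sum_eq_zero_iff.1 h0 l (mem_univ _)
      rw [h2, un_self] at this
      exact one_ne_zero this
    constructor
    · intro h0
      rw [deg_zero_iff] at h0
      refine h3 (h0 e ?_)
      rw [← h1]
      exact st_ot _ _
    · intro h0
      rw [deg_zero_iff] at h0
      exact h3 (h0 e he)
  refine Fin.lastCases ?_ (fun l => ?_) i
  · have := (key (Fin.last k)).2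
    rwa [Fin.succ_last] at this
  · exact (key l).1

lemma snoc_inj {k : ℕ} {u : Fin (k + 1) → Fin n} (hu : Function.Injective u) {w : Fin n}
    (hw : ∀ i, u i ≠ w) : Function.Injective (Fin.snoc u w : Fin (k + 2) → Fin n) := by
  intro a b
  refine Fin.lastCases ?_ (fun a => ?_) a <;> refine Fin.lastCases ?_ (fun b => ?_) b
  · intro _; rfl
  · intro h
    rw [Fin.snoc_last, Fin.snoc_castSucc] at h
    exact absurd h.symm (hw b)
  · intro h
    rw [Fin.snoc_last, Fin.snoc_castSucc] at h
    exact absurd h (hw a)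
  · intro h
    rw [Fin.snoc_castSucc, Fin.snoc_castSucc] at h
    rw [hu h]

lemma fs_path {k : ℕ} {u : Fin (k + 1) → Fin n} (hu : Function.Injective u) {e : Pair n} :
    e ∈ fs {u 0} (u (Fin.last k)) (pa u) ↔
      e ∈ st (u (Fin.last k)) ∧ ∀ i, u i ≠ ot (u (Fin.last k)) e := by
  rw [fs, mem_filter, Finset.mem_singleton]
  constructor
  · rintro ⟨h1, h2, h3⟩
    refine ⟨h1, fun i hi => ?_⟩
    cases k with
    | zero =>
      have : i = 0 := Subsingleton.elim (α := Fin 1) _ _
      rw [this] at hi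
      exact h2 hi.symm
    | succ k =>
      rw [← hi] at h3
      exact deg_pa_on hu i h3
  · rintro ⟨h1, h2⟩
    exact ⟨h1, fun h => h2 0 h.symm, deg_pa_off h2⟩

lemma card_fs_path {k : ℕ} {u : Fin (k + 1) → Fin n} (hu : Function.Injective u) :
    ((fs {u 0} (u (Fin.last k)) (pa u)).card : ℝ) = (n : ℝ) - (k + 1) := by
  have h1 : (fs {u 0} (u (Fin.last k)) (pa u)).card = (univ \ univ.image u).card := by
    refine Finset.card_bij (fun e _ => ot (u (Fin.last k)) e) ?_ ?_ ?_
    · intro e he
      rw [fs_path hu] at he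
      rw [mem_sdiff, mem_image]
      refine ⟨mem_univ _, ?_⟩
      rintro ⟨i, -, hi⟩
      exact he.2 i hi
    · intro e he e' he' h
      rw [fs_path hu] at he he'
      exact ot_inj he.1 he'.1 h
    · intro w hw
      rw [mem_sdiff, mem_image] at hw
      have h2 : ∀ i, u i ≠ w := fun i hi => hw.2 ⟨i, mem_univ _, hi⟩
      obtain ⟨e, he, h3⟩ := ot_surj (h2 (Fin.last k)).symm
      exact ⟨e, by rw [fs_path hu, h3]; exact ⟨he, h2⟩, h3⟩
  have h2 : (univ \ univ.image u).card + (k + 1) = n := by
    have h3 := Finset.card_sdiff_add_card_eq_card (subset_univ (univ.image u))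
    rw [Finset.card_image_of_injective _ hu, Finset.card_univ, Fintype.card_fin,
      Finset.card_univ, Fintype.card_fin] at h3
    exact h3
  rw [h1]
  have h3 : (((univ \ univ.image u).card + (k + 1) : ℕ) : ℝ) = n := by exact_mod_cast h2
  push_cast at h3
  linarith

lemma pa_snoc {k : ℕ} {u : Fin (k + 1) → Fin n} {e : Pair n} (he : e ∈ st (u (Fin.last k))) :
    pa (Fin.snoc u (ot (u (Fin.last k)) e) : Fin (k + 2) → Fin n) = pa u + un e := by
  rw [pa_succ, Fin.init_snoc, Fin.snoc_last, Fin.snoc_castSucc, ue_comm, ue_un he]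

/-- **The iterated fresh sums along paths.** -/
theorem fk_path {A : Fam n} {a : ℕ → ℝ}
    (j : Fin n) (hA : ∀ (k : ℕ) (u : Fin (k + 1) → Fin n), Function.Injective u → u 0 = j →
      A (u (Fin.last k)) (pa u) = a k) (m : ℕ) :
    ∀ (k : ℕ) (u : Fin (k + 1) → Fin n), Function.Injective u → u 0 = j →
      fk {j} A m (u (Fin.last k)) (pa u) =
        (Real.sqrt n)⁻¹ ^ m * (∏ l ∈ range m, ((n : ℝ) - (k + 1) - l)) * a (k + m) := by
  induction m with
  | zero =>
    intro k u hu hj
    rw [fk, hA k u hu hj]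
    simp
  | succ m ih =>
    intro k u hu hj
    have h1 : ∀ e ∈ fs {j} (u (Fin.last k)) (pa u),
        fk {j} A m (ot (u (Fin.last k)) e) (pa u + un e) =
          (Real.sqrt n)⁻¹ ^ m * (∏ l ∈ range m, ((n : ℝ) - ((k + 1 : ℕ) + 1) - l)) *
            a (k + 1 + m) := by
      intro e he
      rw [← hj, fs_path hu] at he
      have h2 := ih (k + 1) (Fin.snoc u (ot (u (Fin.last k)) e) : Fin (k + 2) → Fin n)
        (snoc_inj hu he.2) (by
          have : (0 : Fin (k + 2)) = (0 : Fin (k + 1)).castSucc := rfl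
          rw [this, Fin.snoc_castSucc, hj])
      rw [Fin.snoc_last, pa_snoc he.1] at h2
      exact h2
    rw [fk]
    unfold fr
    rw [Finset.sum_congr rfl h1, Finset.sum_const, nsmul_eq_mul]
    have h3 := card_fs_path hu
    rw [hj] at h3
    rw [h3, Finset.prod_range_succ', pow_succ]
    have h4 : ∀ l : ℕ, (n : ℝ) - ((k + 1 : ℕ) + 1) - l = (n : ℝ) - (k + 1) - ((l + 1 : ℕ) : ℝ) := by
      intro l
      push_cast
      ring
    rw [Finset.prod_congr rfl fun l _ => h4 l]
    have h5 : k + (m + 1) = k + 1 + m := by ring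
    rw [h5]
    simp only [Nat.cast_zero, sub_zero]
    ring

end Vale.Agent.P146.R3.H732
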