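import Vale.Agent.P146.R2.H749.Bessel

/-!
# P146: Stein's method for finite sums of Hermite polynomials of a Gaussian vector
-/

open MeasureTheory ProbabilityTheory Finset

namespace Vale.Agent.P146.R3.H732

open Vale.Agent.P146 Vale.Agent.P146.Ub.Cv Vale.Agent.P146.H605 Vale.Agent.P146.R2
open Vale.Agent.P146.R2.H749 (dom_heM heM_deriv coord_heM sub_add_single)

section gen

variable {ι : Type*} [Fintype ι]

/-- finite sums of product Hermite polynomials -/
noncomputable def hp (S : Finset (ι → ℕ)) (c : (ι → ℕ) → ℝ) (z : ι → ℝ) : ℝ :=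
  ∑ α ∈ S, c α * heM α z

lemma dom_hp (S : Finset (ι → ℕ)) (c : (ι → ℕ) → ℝ) : Dom (hp S c) :=
  Dom.sum S fun α _ => (dom_heM α).const_mul _

variable [DecidableEq ι]

/-- the partial derivatives -/
noncomputable def dhp (S : Finset (ι → ℕ)) (c : (ι → ℕ) → ℝ) (e : ι) (z : ι → ℝ) : ℝ :=
  ∑ α ∈ S, c α * ((α e : ℝ) * heM (α - Pi.single e 1) z)

/-- the second partial derivatives -/
noncomputable def ddhp (S : Finset (ι → ℕ)) (c : (ι → ℕ) → ℝ) (e : ι) (z : ι → ℝ) : ℝ :=
  ∑ α ∈ S, c α * ((α e : ℝ) * ((((α - Pi.single e 1 : ι → ℕ) e : ℕ) : ℝ) *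
    heM (α - Pi.single e 1 - Pi.single e 1) z))

lemma dom_dhp (S : Finset (ι → ℕ)) (c : (ι → ℕ) → ℝ) (e : ι) : Dom (dhp S c e) :=
  Dom.sum S fun _ _ => ((dom_heM _).const_mul _).const_mul _

lemma dom_ddhp (S : Finset (ι → ℕ)) (c : (ι → ℕ) → ℝ) (e : ι) : Dom (ddhp S c e) :=
  Dom.sum S fun _ _ => (((dom_heM _).const_mul _).const_mul _).const_mul _

lemma hp_deriv (S : Finset (ι → ℕ)) (c : (ι → ℕ) → ℝ) (e : ι) (z : ι → ℝ) (t : ℝ) :
    HasDerivAt (fun t => hp S c (Function.update z e t)) (dhp S c e (Function.update z e t)) t :=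
  HasDerivAt.fun_sum fun α _ => (heM_deriv α e z t).const_mul _

lemma dhp_deriv (S : Finset (ι → ℕ)) (c : (ι → ℕ) → ℝ) (e : ι) (z : ι → ℝ) (t : ℝ) :
    HasDerivAt (fun t => dhp S c e (Function.update z e t))
      (ddhp S c e (Function.update z e t)) t :=
  HasDerivAt.fun_sum fun α _ => ((heM_deriv (α - Pi.single e 1) e z t).const_mul _).const_mul _

/-- the number operator -/
lemma euler (α : ι → ℕ) (z : ι → ℝ) :
    ∑ e, (z e * ((α e : ℝ) * heM (α - Pi.single e 1) z) -
      (α e : ℝ) * ((((α - Pi.single e 1 : ι → ℕ) e : ℕ) : ℝ) *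
        heM (α - Pi.single e 1 - Pi.single e 1) z)) = ((∑ e, α e : ℕ) : ℝ) * heM α z := by
  rw [Nat.cast_sum, Finset.sum_mul]
  refine Finset.sum_congr rfl fun e _ => ?_
  by_cases h : α e = 0
  · rw [h]
    simp
  · have h1 := coord_heM (α - Pi.single e 1) e z
    rw [sub_add_single h] at h1
    linear_combination (α e : ℝ) * h1

/-- division by the degree -/
noncomputable def dv (c : (ι → ℕ) → ℝ) (α : ι → ℕ) : ℝ := c α / ((∑ e, α e : ℕ) : ℝ)

omit [DecidableEq ι] in
lemma tot_ne {S : Finset (ι → ℕ)} (hS : (0 : ι → ℕ) ∉ S) {α : ι → ℕ} (hα : α ∈ S) :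
    ((∑ e, α e : ℕ) : ℝ) ≠ 0 := by
  intro h
  have h1 : ∑ e, α e = 0 := by exact_mod_cast h
  apply hS
  have h2 : α = 0 := funext fun e => Finset.sum_eq_zero_iff.1 h1 e (Finset.mem_univ e)
  rwa [h2] at hα

lemma euler_sum {S : Finset (ι → ℕ)} (hS : (0 : ι → ℕ) ∉ S) (c : (ι → ℕ) → ℝ) (z : ι → ℝ) :
    ∑ e, (z e * dhp S (dv c) e z - ddhp S (dv c) e z) = hp S c z := by
  unfold dhp ddhp hp
  have h1 : ∀ e, z e * ∑ α ∈ S, dv c α * ((α e : ℝ) * heM (α - Pi.single e 1) z) -
      ∑ α ∈ S, dv c α * ((α e : ℝ) * ((((α - Pi.single e 1 : ι → ℕ) e : ℕ) : ℝ) *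
        heM (α - Pi.single e 1 - Pi.single e 1) z)) =
      ∑ α ∈ S, dv c α * (z e * ((α e : ℝ) * heM (α - Pi.single e 1) z) -
        (α e : ℝ) * ((((α - Pi.single e 1 : ι → ℕ) e : ℕ) : ℝ) *
          heM (α - Pi.single e 1 - Pi.single e 1) z)) := by
    intro e
    rw [Finset.mul_sum, ← Finset.sum_sub_distrib]
    refine Finset.sum_congr rfl fun α _ => ?_
    ring
  simp_rw [h1]
  rw [Finset.sum_comm]
  refine Finset.sum_congr rfl fun α hα => ?_
  rw [← Finset.mul_sum, euler, dv]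
  have := tot_ne hS hα
  field_simp

/-- the Stein kernel -/
noncomputable def DD (S : Finset (ι → ℕ)) (c : (ι → ℕ) → ℝ) (z : ι → ℝ) : ℝ :=
  ∑ e, dhp S c e z * dhp S (dv c) e z

lemma dom_DD (S : Finset (ι → ℕ)) (c : (ι → ℕ) → ℝ) : Dom (DD S c) :=
  Dom.sum _ fun e _ => (dom_dhp S c e).mul (dom_dhp S _ e)

lemma comp_deriv {G G' : ℝ → ℝ} (hG : ∀ x, HasDerivAt G (G' x) x) (S : Finset (ι → ℕ))
    (c : (ι → ℕ) → ℝ) (e : ι) (z : ι → ℝ) (t : ℝ) :
    HasDerivAt (fun t => G (hp S c (Function.update z e t)))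
      (G' (hp S c (Function.update z e t)) * dhp S c e (Function.update z e t)) t :=
  (hG _).comp t (hp_deriv S c e z t)

omit [DecidableEq ι] in
lemma dom_comp {G : ℝ → ℝ} (hG : Continuous G) {B : ℝ} (hB : ∀ x, |G x| ≤ B)
    {f : (ι → ℝ) → ℝ} (hf : Dom f) : Dom (fun z => G (f z)) :=
  Dom.of_bounded (hG.comp hf.cont) B fun _ => hB _

/-- **Stein's identity.** -/
theorem stein_id {S : Finset (ι → ℕ)} (hS : (0 : ι → ℕ) ∉ S) (c : (ι → ℕ) → ℝ) {G G' : ℝ → ℝ}
    (hG : ∀ x, HasDerivAt G (G' x) x) (hG' : Continuous G') {B B' : ℝ} (hB : ∀ x, |G x| ≤ B)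
    (hB' : ∀ x, |G' x| ≤ B') :
    ∫ z, hp S c z * G (hp S c z) ∂(gpi ι) = ∫ z, G' (hp S c z) * DD S c z ∂(gpi ι) := by
  have cG : Continuous G := continuous_iff_continuousAt.2 fun x => (hG x).continuousAt
  have dG : Dom (fun z => G (hp S c z)) := dom_comp cG hB (dom_hp S c)
  have dG' : Dom (fun z => G' (hp S c z)) := dom_comp hG' hB' (dom_hp S c)
  have h1 : ∀ e, ∫ z, (z e * (dhp S (dv c) e z * G (hp S c z)) -
      ddhp S (dv c) e z * G (hp S c z)) ∂(gpi ι) =
      ∫ z, dhp S (dv c) e z * (G' (hp S c z) * dhp S c e z) ∂(gpi ι) := by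
    intro e
    have dA := (dom_dhp S (dv c) e).mul dG
    have dB := (dom_ddhp S (dv c) e).mul dG
    have dC := (dom_dhp S (dv c) e).mul (dG'.mul (dom_dhp S c e))
    have h2 := ibp e dA (dB.add dC) fun z t =>
      (dhp_deriv S (dv c) e z t).mul (comp_deriv hG S c e z t)
    rw [int_add dB dC] at h2
    rw [int_sub ((Dom.coord e).mul dA) dB, h2]
    ring
  have h3 : ∀ z, hp S c z * G (hp S c z) = ∑ e, (z e * (dhp S (dv c) e z * G (hp S c z)) -
      ddhp S (dv c) e z * G (hp S c z)) := by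
    intro z
    calc hp S c z * G (hp S c z) =
        (∑ e, (z e * dhp S (dv c) e z - ddhp S (dv c) e z)) * G (hp S c z) := by
          rw [euler_sum hS c z]
      _ = _ := by
          rw [Finset.sum_mul]
          exact Finset.sum_congr rfl fun e _ => by ring
  have h4 : ∀ z, G' (hp S c z) * DD S c z =
      ∑ e, dhp S (dv c) e z * (G' (hp S c z) * dhp S c e z) := by
    intro z
    unfold DD
    rw [Finset.mul_sum]
    refine Finset.sum_congr rfl fun e _ => ?_
    ring
  simp_rw [h3, h4]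
  rw [int_sum _ fun e _ => ((Dom.coord e).mul ((dom_dhp S (dv c) e).mul dG)).sub
      ((dom_ddhp S (dv c) e).mul dG),
    int_sum _ fun e _ => (dom_dhp S (dv c) e).mul (dG'.mul (dom_dhp S c e))]
  exact Finset.sum_congr rfl fun e _ => h1 e

omit [DecidableEq ι] in
lemma deriv_int {T T' : ℝ → ℝ} (hT : ∀ x, HasDerivAt T (T' x) x) (cT : Continuous T')
    (b : ∀ x, |T x| ≤ 1) (b' : ∀ x, |T' x| ≤ 1) {p : (ι → ℝ) → ℝ} (hp : Dom p) (x : ℝ) :
    HasDerivAt (fun x => ∫ z, T (x * p z) ∂(gpi ι)) (∫ z, p z * T' (x * p z) ∂(gpi ι)) x := by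
  have cG : Continuous T := continuous_iff_continuousAt.2 fun x => (hT x).continuousAt
  have hx : ∀ x : ℝ, Dom (fun z => x * p z) := fun x => hp.const_mul x
  refine (hasDerivAt_integral_of_dominated_loc_of_deriv_le (μ := gpi ι)
    (F := fun x z => T (x * p z)) (F' := fun x z => p z * T' (x * p z))
    (bound := fun z => |p z|) (s := Set.univ) Filter.univ_mem ?_ ?_ ?_ ?_ ?_ ?_).2
  · exact Filter.Eventually.of_forall fun x =>
      (cG.comp (hx x).cont).aestronglyMeasurable
  · exact (dom_comp cG b (hx x)).integrable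
  · exact (hp.cont.mul (cT.comp (hx x).cont)).aestronglyMeasurable
  · refine Filter.Eventually.of_forall fun z y _ => ?_
    rw [Real.norm_eq_abs, abs_mul]
    calc |p z| * |T' (y * p z)| ≤ |p z| * 1 := mul_le_mul_of_nonneg_left (b' _) (abs_nonneg _)
      _ = |p z| := mul_one _
  · exact hp.integrable.abs
  · refine Filter.Eventually.of_forall fun z y _ => ?_
    have h1 : HasDerivAt (fun x : ℝ => x * p z) (p z) y := by
      simpa using (hasDerivAt_id y).mul_const (p z)
    refine ((hT (y * p z)).comp y h1).congr_deriv ?_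
    ring

/-- the comparison of an almost solution of the Gaussian ODE -/
lemma ode_cmp {φ φ' : ℝ → ℝ} (hφ : ∀ x, HasDerivAt φ (φ' x) x) {K δ : ℝ} (hK : 0 ≤ K)
    (hb : ∀ x, |φ' x + K * x * φ x| ≤ |x| * δ) (x : ℝ) :
    |φ x - Real.exp (-(K * x ^ 2 / 2)) * φ 0| ≤ x ^ 2 * δ := by
  have hδ : 0 ≤ δ := by
    have := (abs_nonneg _).trans (hb 1)
    simpa using this
  obtain ⟨y, hy⟩ : ∃ y : ℝ → ℝ, y = fun x => Real.exp (K * x ^ 2 / 2) * φ x := ⟨_, rfl⟩
  have hd : ∀ x, HasDerivAt y (Real.exp (K * x ^ 2 / 2) * (φ' x + K * x * φ x)) x := by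
    intro x
    have h1 : HasDerivAt (fun x : ℝ => K * x ^ 2 / 2) (K * x) x := by
      have := ((hasDerivAt_pow 2 x).const_mul K).div_const 2
      refine this.congr_deriv ?_
      simp
      ring
    have h2 := (h1.exp).mul (hφ x)
    rw [hy]
    refine h2.congr_deriv ?_
    ring
  have hconv : Convex ℝ (Set.Icc (-|x|) |x|) := convex_Icc _ _
  have h3 := hconv.norm_image_sub_le_of_norm_hasDerivWithin_le
    (f := y) (f' := fun x => Real.exp (K * x ^ 2 / 2) * (φ' x + K * x * φ x))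
    (C := Real.exp (K * x ^ 2 / 2) * (|x| * δ)) (x := 0) (y := x)
    (fun u _ => (hd u).hasDerivWithinAt) (fun u hu => ?_)
    ⟨by simp, abs_nonneg _⟩ ⟨neg_abs_le x, le_abs_self x⟩
  · rw [Real.norm_eq_abs, Real.norm_eq_abs, sub_zero] at h3
    have h4 : y 0 = φ 0 := by
      rw [hy]
      simp
    have h5 : φ x - Real.exp (-(K * x ^ 2 / 2)) * φ 0 =
        Real.exp (-(K * x ^ 2 / 2)) * (y x - y 0) := by
      rw [h4, hy, mul_sub, ← mul_assoc, ← Real.exp_add]
      simp
    rw [h5, abs_mul, abs_of_pos (Real.exp_pos _)]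
    calc Real.exp (-(K * x ^ 2 / 2)) * |y x - y 0| ≤
        Real.exp (-(K * x ^ 2 / 2)) * (Real.exp (K * x ^ 2 / 2) * (|x| * δ) * |x|) :=
          mul_le_mul_of_nonneg_left h3 (Real.exp_pos _).le
      _ = (Real.exp (-(K * x ^ 2 / 2)) * Real.exp (K * x ^ 2 / 2)) * (|x| ^ 2 * δ) := by ring
      _ = x ^ 2 * δ := by
          rw [← Real.exp_add, neg_add_cancel, Real.exp_zero, one_mul, sq_abs]
  · have hu2 : u ^ 2 ≤ x ^ 2 := by
      rw [← sq_abs u, ← sq_abs x]
      exact pow_le_pow_left₀ (abs_nonneg _) (abs_le.2 hu) 2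
    have hu3 : |u| ≤ |x| := abs_le.2 hu
    rw [Real.norm_eq_abs, abs_mul, abs_of_pos (Real.exp_pos _)]
    have h6 : Real.exp (K * u ^ 2 / 2) ≤ Real.exp (K * x ^ 2 / 2) := by
      refine Real.exp_le_exp.2 ?_
      have := mul_le_mul_of_nonneg_left hu2 hK
      linarith
    exact mul_le_mul h6 ((hb u).trans (mul_le_mul_of_nonneg_right hu3 hδ)) (abs_nonneg _)
      (Real.exp_pos _).le

/-- **The quantitative central limit theorem** for finite sums of Hermite polynomials. -/
theorem clt_hp {S : Finset (ι → ℕ)} (hS : (0 : ι → ℕ) ∉ S) (c : (ι → ℕ) → ℝ) {K δ : ℝ}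
    (hK : 0 ≤ K) (hδ : ∫ z, |DD S c z - K| ∂(gpi ι) ≤ δ) (x : ℝ) :
    |∫ z, Real.cos (x * hp S c z) ∂(gpi ι) - Real.exp (-(K * x ^ 2 / 2))| ≤ x ^ 2 * δ ∧
      |∫ z, Real.sin (x * hp S c z) ∂(gpi ι)| ≤ x ^ 2 * δ := by
  have dp := dom_hp S c
  have dD := dom_DD S c
  have dx : ∀ x : ℝ, Dom (fun z => x * hp S c z) := fun x => dp.const_mul x
  have dc : ∀ x : ℝ, Dom (fun z => Real.cos (x * hp S c z)) := fun x =>
    dom_comp Real.continuous_cos Real.abs_cos_le_one (dx x)
  have ds : ∀ x : ℝ, Dom (fun z => Real.sin (x * hp S c z)) := fun x =>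
    dom_comp Real.continuous_sin Real.abs_sin_le_one (dx x)
  have bnd : ∀ (T : ℝ → ℝ), Continuous T → (∀ y, |T y| ≤ 1) → ∀ x : ℝ,
      |∫ z, T (x * hp S c z) * (K - DD S c z) ∂(gpi ι)| ≤ δ := by
    intro T cT bT x
    have dT : Dom (fun z => T (x * hp S c z)) := dom_comp cT bT (dx x)
    have dK : Dom (fun z => K - DD S c z) := (Dom.const K).sub dD
    refine (abs_integral_le_integral_abs).trans (le_trans ?_ hδ)
    refine integral_mono (dT.mul dK).integrable.abs (dD.sub (Dom.const K)).integrable.abs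
      fun z => ?_
    simp only
    rw [abs_mul, abs_sub_comm (DD S c z) K]
    calc |T (x * hp S c z)| * |K - DD S c z| ≤ 1 * |K - DD S c z| :=
          mul_le_mul_of_nonneg_right (bT _) (abs_nonneg _)
      _ = _ := one_mul _
  have st : ∀ (T T' : ℝ → ℝ), (∀ y, HasDerivAt T (T' y) y) → Continuous T' →
      (∀ y, |T y| ≤ 1) → (∀ y, |T' y| ≤ 1) → ∀ x : ℝ,
      ∫ z, hp S c z * T (x * hp S c z) ∂(gpi ι) =
        x * ∫ z, T' (x * hp S c z) * DD S c z ∂(gpi ι) := by
    intro T T' hT cT b b' x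
    have h := stein_id hS c (G := fun y => T (x * y)) (G' := fun y => x * T' (x * y))
      (fun y => by
        have h1 : HasDerivAt (fun y : ℝ => x * y) x y := by
          simpa using (hasDerivAt_id y).const_mul x
        refine ((hT (x * y)).comp y h1).congr_deriv ?_
        ring) (by fun_prop) (B := 1) (B' := |x|) (fun y => b _) (fun y => by
          rw [abs_mul]
          calc |x| * |T' (x * y)| ≤ |x| * 1 := mul_le_mul_of_nonneg_left (b' _) (abs_nonneg _)
            _ = |x| := mul_one _)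
    rw [h, ← integral_const_mul]
    refine integral_congr_ae (Filter.Eventually.of_forall fun z => ?_)
    simp only
    ring
  constructor
  · have hd := fun x => deriv_int (T := Real.cos) (T' := fun y => -Real.sin y)
      Real.hasDerivAt_cos (by fun_prop) Real.abs_cos_le_one
      (fun y => by rw [abs_neg]; exact Real.abs_sin_le_one y) dp x
    have h1 := ode_cmp hd hK (δ := δ) (fun x => ?_) x
    · simpa using h1
    · have h2 := st Real.sin Real.cos Real.hasDerivAt_sin Real.continuous_cos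
        Real.abs_sin_le_one Real.abs_cos_le_one x
      have h3 : ∫ z, hp S c z * -Real.sin (x * hp S c z) ∂(gpi ι) =
          -(x * ∫ z, Real.cos (x * hp S c z) * DD S c z ∂(gpi ι)) := by
        rw [← h2, ← integral_neg]
        refine integral_congr_ae (Filter.Eventually.of_forall fun z => ?_)
        simp only
        ring
      have h4 := bnd Real.cos Real.continuous_cos Real.abs_cos_le_one x
      have h5 : ∫ z, Real.cos (x * hp S c z) * (K - DD S c z) ∂(gpi ι) =
          K * ∫ z, Real.cos (x * hp S c z) ∂(gpi ι) -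
            ∫ z, Real.cos (x * hp S c z) * DD S c z ∂(gpi ι) := by
        rw [← integral_const_mul, ← int_sub ((dc x).const_mul K) ((dc x).mul dD)]
        refine integral_congr_ae (Filter.Eventually.of_forall fun z => ?_)
        simp only
        ring
      rw [h3]
      have h6 : -(x * ∫ z, Real.cos (x * hp S c z) * DD S c z ∂(gpi ι)) +
          K * x * ∫ z, Real.cos (x * hp S c z) ∂(gpi ι) =
          x * ∫ z, Real.cos (x * hp S c z) * (K - DD S c z) ∂(gpi ι) := by
        rw [h5]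
        ring
      rw [h6, abs_mul]
      exact mul_le_mul_of_nonneg_left h4 (abs_nonneg _)
  · have hd := fun x => deriv_int (T := Real.sin) (T' := Real.cos)
      Real.hasDerivAt_sin Real.continuous_cos Real.abs_sin_le_one Real.abs_cos_le_one dp x
    have h1 := ode_cmp hd hK (δ := δ) (fun x => ?_) x
    · simpa using h1
    · have h2 := st Real.cos (fun y => -Real.sin y) Real.hasDerivAt_cos (by fun_prop)
        Real.abs_cos_le_one (fun y => by rw [abs_neg]; exact Real.abs_sin_le_one y) x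
      have h4 := bnd Real.sin Real.continuous_sin Real.abs_sin_le_one x
      have h5 : ∫ z, Real.sin (x * hp S c z) * (K - DD S c z) ∂(gpi ι) =
          K * ∫ z, Real.sin (x * hp S c z) ∂(gpi ι) -
            ∫ z, Real.sin (x * hp S c z) * DD S c z ∂(gpi ι) := by
        rw [← integral_const_mul, ← int_sub ((ds x).const_mul K) ((ds x).mul dD)]
        refine integral_congr_ae (Filter.Eventually.of_forall fun z => ?_)
        simp only
        ring
      have h7 : ∫ z, -Real.sin (x * hp S c z) * DD S c z ∂(gpi ι) =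
          -∫ z, Real.sin (x * hp S c z) * DD S c z ∂(gpi ι) := by
        rw [← integral_neg]
        refine integral_congr_ae (Filter.Eventually.of_forall fun z => ?_)
        simp only
        ring
      rw [h2, h7]
      have h6 : x * -(∫ z, Real.sin (x * hp S c z) * DD S c z ∂(gpi ι)) +
          K * x * ∫ z, Real.sin (x * hp S c z) ∂(gpi ι) =
          x * ∫ z, Real.sin (x * hp S c z) * (K - DD S c z) ∂(gpi ι) := by
        rw [h5]
        ring
      rw [h6, abs_mul]
      exact mul_le_mul_of_nonneg_left h4 (abs_nonneg _)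

end gen

end Vale.Agent.P146.R3.H732
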