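import Vale.Agent.P146.R3.H732.Path2
import Vale.Agent.P146.R3.H732.Stein
import Vale.Agent.P146.R2.H749.RecSk
import Vale.Agent.P146.R2.H432.Mom

/-!
# P146: sums over self-avoiding paths and Chebyshev polynomials of the disorder matrix
-/

open MeasureTheory ProbabilityTheory Finset

namespace Vale.Agent.P146.R3.H732

open Vale.Agent.P146 Vale.Agent.P146.Ub.Cv Vale.Agent.P146.H605 Vale.Agent.P146.H453
  Vale.Agent.P146.R2
open Vale.Agent.P146.R2.H749 (dom_heM orth co_const_mul co_sum)

variable {n : ℕ}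

/-- the normalised sum over the self-avoiding paths of length `k` from `j` to `v` -/
noncomputable def saw (k : ℕ) (j v : Fin n) (z : Pair n → ℝ) : ℝ :=
  (Real.sqrt n)⁻¹ ^ k * ∑ u ∈ PE j v k, heM (pa u) z

lemma dom_saw (k : ℕ) (j v : Fin n) : Dom (saw k j v) :=
  (Dom.sum _ fun _ _ => dom_heM _).const_mul _

/-- the entry of `U_k(W)` -/
noncomputable def ch (k : ℕ) (j v : Fin n) (z : Pair n → ℝ) : ℝ :=
  H432.cheb k (H432.WW z) v j

lemma dom_ch (k : ℕ) (j v : Fin n) : Dom (ch (n := n) k j v) := H432.dom_cheb k v j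

/-- the coefficients of the column `j` of `U_k(W)` -/
noncomputable def CU (j : Fin n) (k : ℕ) : Fam n := fun v α => co (ch k j v) α

lemma CU_eq (j : Fin n) (k : ℕ) : CU j k =
    H749.cf (fun v g => ∑ u, H432.cheb k (H432.WW g) v u * (if u = j then (1 : ℝ) else 0)) := by
  funext v α
  unfold CU H749.cf ch
  congr 1
  funext g
  simp

theorem CU_rec (j : Fin n) (k : ℕ) : CU j (k + 1) = up (CU j k) + dn (CU j k) - H453.pv (CU j) k := by
  have h := H749.cf_cheb (M := fun k g => H432.cheb k (H432.WW g)) (fun _ => rfl) (fun _ => rfl)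
    (fun _ _ => rfl) (fun k i j => H432.dom_cheb k i j)
    (F := fun u _ => if u = j then (1 : ℝ) else 0) (fun u => Dom.const _) k
  have h2 : (fun k => H749.cf (fun v g => ∑ u, H432.cheb k (H432.WW g) v u *
      (if u = j then (1 : ℝ) else 0))) = CU j := by
    funext k
    exact (CU_eq j k).symm
  rw [h2] at h
  rw [← CU_eq, ← CU_eq] at h
  exact h

lemma CU_zero (j v : Fin n) (α : MI n) :
    CU j 0 v α = if v = j ∧ α = 0 then 1 else 0 := by
  unfold CU ch
  have h0 : ∀ g : Pair n → ℝ, H432.cheb 0 (H432.WW g) v j = if v = j then (1 : ℝ) else 0 := by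
    intro g
    change (1 : Matrix (Fin n) (Fin n) ℝ) v j = _
    rw [Matrix.one_apply]
  simp_rw [h0]
  by_cases h : v = j
  · simp only [h, if_true, true_and]
    unfold co
    simp only [one_mul]
    exact H749.int_heM α
  · simp only [h, if_false, false_and]
    exact H749.co_zero_fun α

/-- the degree of `U_k(W)` is at most `k` -/
lemma CU_high (j : Fin n) (k : ℕ) : ∀ (v : Fin n) (α : MI n), k < H453.tot α → CU j k v α = 0 := by
  induction k using Nat.twoStepInduction with
  | zero =>
    intro v α hα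
    rw [CU_zero, if_neg]
    rintro ⟨-, rfl⟩
    rw [tot_zero'] at hα
    exact lt_irrefl _ hα
  | one =>
    intro v α hα
    have h := congrFun (congrFun (CU_rec j 0) v) α
    rw [zero_add] at h
    rw [h]
    simp only [Pi.add_apply, Pi.sub_apply, H453.pv]
    have hz : ∀ (w : Fin n) (γ : MI n), 0 < H453.tot γ → CU j 0 w γ = 0 := by
      intro w γ hγ
      rw [CU_zero, if_neg]
      rintro ⟨-, rfl⟩
      rw [tot_zero'] at hγ
      exact lt_irrefl _ hγ
    have h1 : up (CU j 0) v α = 0 := by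
      unfold up
      rw [Finset.sum_eq_zero, mul_zero]
      intro e _
      exact hz _ _ (by rw [H453.tot_add, tot_un]; omega)
    have h2 : dn (CU j 0) v α = 0 := by
      unfold dn
      rw [Finset.sum_eq_zero, mul_zero]
      intro e _
      by_cases he : α e = 0
      · rw [he]; simp
      · rw [hz _ _, mul_zero]
        have h3 : H453.tot (α - un e) + 1 = H453.tot α := by
          rw [← tot_un e, ← H453.tot_add]
          exact congrArg _ (H749.sub_add_single he)
        omega
    rw [h1, h2]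
    simp
  | more k ih1 ih2 =>
    intro v α hα
    have h := congrFun (congrFun (CU_rec j (k + 1)) v) α
    rw [show k + 1 + 1 = k + 2 from rfl] at h
    rw [h]
    simp only [Pi.add_apply, Pi.sub_apply, H453.pv]
    have h1 : up (CU j (k + 1)) v α = 0 := by
      unfold up
      rw [Finset.sum_eq_zero, mul_zero]
      intro e _
      exact ih2 _ _ (by rw [H453.tot_add, tot_un]; omega)
    have h2 : dn (CU j (k + 1)) v α = 0 := by
      unfold dn
      rw [Finset.sum_eq_zero, mul_zero]
      intro e _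
      by_cases he : α e = 0
      · rw [he]; simp
      · rw [ih2 _ _, mul_zero]
        have h3 : H453.tot (α - un e) + 1 = H453.tot α := by
          rw [← tot_un e, ← H453.tot_add]
          exact congrArg _ (H749.sub_add_single he)
        omega
    rw [h1, h2, ih1 v α (by omega)]
    simp

/-- the coefficient of `U_k(W)` at a path of length `k` -/
theorem CU_path (k : ℕ) : ∀ u : Fin (k + 1) → Fin n, Function.Injective u →
    CU (u 0) k (u (Fin.last k)) (pa u) = (Real.sqrt n)⁻¹ ^ k := by
  induction k with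
  | zero =>
    intro u hu
    rw [pa_zero, CU_zero, if_pos, pow_zero]
    exact ⟨rfl, rfl⟩
  | succ k ih =>
    intro u hu
    have h := congrFun (congrFun (CU_rec (u 0) k) (u (Fin.last (k + 1)))) (pa u)
    rw [h]
    simp only [Pi.add_apply, Pi.sub_apply]
    have htot := tot_pa hu
    have h1 : up (CU (u 0) k) (u (Fin.last (k + 1))) (pa u) = 0 := by
      unfold up
      rw [Finset.sum_eq_zero, mul_zero]
      intro e _
      exact CU_high _ _ _ _ (by rw [H453.tot_add, tot_un]; omega)
    have h2 : H453.pv (CU (u 0)) k (u (Fin.last (k + 1))) (pa u) = 0 := by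
      cases k with
      | zero => rfl
      | succ k => exact CU_high _ _ _ _ (by omega)
    obtain ⟨e, he, h3, h4⟩ := exists_ue (last_ne hu (Fin.last k))
    have h4' : ue (u (Fin.last k).castSucc) (u (Fin.last (k + 1))) = un e := h4
    have h5 : pa u = pa (Fin.init u : Fin (k + 1) → Fin n) + un e := by
      rw [pa_succ, h4']
    have h6 : dn (CU (u 0) k) (u (Fin.last (k + 1))) (pa u) =
        (Real.sqrt n)⁻¹ * CU (u 0) k (u (Fin.last k).castSucc) (pa (Fin.init u)) := by
      unfold dn
      congr 1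
      rw [Finset.sum_eq_single e]
      · have h7 : pa u e = 1 := by
          have := pa_le_one hu e
          have := pa_last h4'
          omega
        rw [h7, h5, add_un_sub, h3, Nat.cast_one, one_mul]
        rfl
      · intro b hb hbe
        by_cases h8 : pa u b = 0
        · rw [h8]; simp
        · exfalso
          apply hbe
          have h9 := pa_end hu hb h8
          exact ot_inj hb he (h9.trans h3.symm)
      · intro h
        exact absurd he h
    have h7 := ih (Fin.init u) (init_inj hu)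
    have h8 : CU (u 0) k (u (Fin.last k).castSucc) (pa (Fin.init u)) = (Real.sqrt n)⁻¹ ^ k := h7
    rw [h1, h2, h6, h8, pow_succ]
    ring

lemma int_heM_pa {k : ℕ} {j v : Fin n} {u u' : Fin (k + 1) ↪ Fin n} (hu : u ∈ PE j v k)
    (hu' : u' ∈ PE j v k) : ∫ z, heM (pa u) z * heM (pa u') z ∂(gpi (Pair n)) =
      if u = u' then 1 else 0 := by
  have h := orth _ (pa u) (pa u') le_rfl
  unfold co at h
  rw [h]
  by_cases h1 : u = u'
  · subst h1
    rw [if_pos rfl, if_pos rfl, fac_pa u.injective]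
  · rw [if_neg h1, if_neg]
    intro h2
    exact h1 (pa_injOn j v k hu hu' h2)

lemma int_saw_sq (k : ℕ) (j v : Fin n) :
    ∫ z, saw k j v z ^ 2 ∂(gpi (Pair n)) = (n : ℝ)⁻¹ ^ k * ((PE j v k).card : ℝ) := by
  have h1 : ∀ z, saw k j v z ^ 2 = (n : ℝ)⁻¹ ^ k * ∑ u ∈ PE j v k, ∑ u' ∈ PE j v k,
      heM (pa u) z * heM (pa u') z := by
    intro z
    unfold saw
    rw [mul_pow, ← pow_mul, mul_comm k 2, pow_mul, sq, sq, sqn_inv_sq, Finset.sum_mul_sum]
  simp_rw [h1]
  rw [integral_const_mul, int_sum _ fun u _ => Dom.sum _ fun u' _ =>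
    (dom_heM _).mul (dom_heM _)]
  congr 1
  have h2 : ∀ u ∈ PE j v k, ∫ z, ∑ u' ∈ PE j v k, heM (pa u) z * heM (pa u') z
      ∂(gpi (Pair n)) = 1 := by
    intro u hu
    rw [int_sum _ fun u' _ => (dom_heM _).mul (dom_heM _),
      Finset.sum_congr rfl fun u' hu' => int_heM_pa hu hu', Finset.sum_ite_eq]
    rw [if_pos hu]
  rw [Finset.sum_congr rfl h2]
  simp

lemma int_saw_ch (k : ℕ) (j v : Fin n) :
    ∫ z, saw k j v z * ch k j v z ∂(gpi (Pair n)) = (n : ℝ)⁻¹ ^ k * ((PE j v k).card : ℝ) := by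
  have h1 : ∀ z, saw k j v z * ch k j v z = (Real.sqrt n)⁻¹ ^ k * ∑ u ∈ PE j v k,
      ch k j v z * heM (pa u) z := by
    intro z
    unfold saw
    rw [mul_assoc, Finset.sum_mul]
    congr 1
    exact Finset.sum_congr rfl fun u _ => mul_comm _ _
  simp_rw [h1]
  rw [integral_const_mul, int_sum _ fun u _ => (dom_ch k j v).mul (dom_heM _)]
  have h2 : ∀ u ∈ PE j v k, ∫ z, ch k j v z * heM (pa u) z ∂(gpi (Pair n)) =
      (Real.sqrt n)⁻¹ ^ k := by
    intro u hu
    rw [mem_PE] at hu
    have h3 := CU_path k u u.injective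
    rw [hu.1, hu.2] at h3
    exact h3
  rw [Finset.sum_congr rfl h2, Finset.sum_const, nsmul_eq_mul]
  rw [← sqn_inv_sq, mul_pow]
  ring

/-- **Self-avoiding paths and Chebyshev polynomials.** -/
theorem saw_ch (k : ℕ) : (n : ℝ)⁻¹ * ∑ j : Fin n, ∑ v : Fin n,
    ∫ z, (saw k j v z - ch k j v z) ^ 2 ∂(gpi (Pair n)) =
    (n : ℝ)⁻¹ * ∑ j : Fin n, ∑ v : Fin n, ∫ z, ch k j v z ^ 2 ∂(gpi (Pair n)) -
      (n.descFactorial (k + 1) : ℝ) / n ^ (k + 1) := by
  have h1 : ∀ j v : Fin n, ∫ z, (saw k j v z - ch k j v z) ^ 2 ∂(gpi (Pair n)) =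
      ∫ z, ch k j v z ^ 2 ∂(gpi (Pair n)) - (n : ℝ)⁻¹ ^ k * ((PE j v k).card : ℝ) := by
    intro j v
    have h2 : ∀ z, (saw k j v z - ch k j v z) ^ 2 =
        (saw k j v z ^ 2 - 2 * (saw k j v z * ch k j v z)) + ch k j v z ^ 2 := fun z => by ring
    have d1 := dom_saw k j v
    have d2 := dom_ch k j v
    simp_rw [h2]
    rw [int_add ((d1.pow 2).sub ((d1.mul d2).const_mul 2)) (d2.pow 2),
      int_sub (d1.pow 2) ((d1.mul d2).const_mul 2), integral_const_mul, int_saw_sq, int_saw_ch]
    ring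
  simp_rw [h1]
  simp only [Finset.sum_sub_distrib]
  rw [mul_sub]
  congr 1
  simp only [← Finset.mul_sum]
  have h3 : ∑ j : Fin n, ∑ v : Fin n, ((PE j v k).card : ℝ) = (n.descFactorial (k + 1) : ℝ) := by
    rw [← sum_card_PE n k]
    push_cast
    rfl
  rw [h3, inv_pow, pow_succ, div_eq_mul_inv, mul_inv]
  ring

end Vale.Agent.P146.R3.H732
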