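import Vale.Agent.P146.R3.H732.Lim2

/-!
# P146: the smoothed free energy and its Hermite expansion
-/

open MeasureTheory ProbabilityTheory Finset Filter Topology

namespace Vale.Agent.P146.R3.H732

open Vale.Agent.P146 Vale.Agent.P146.Ub.Cv Vale.Agent.P146.H605 Vale.Agent.P146.H453
  Vale.Agent.P146.R2

section gen

variable {ι : Type*} [Fintype ι]

/-- the conditional expectation of a copy -/
noncomputable def TT (f : (ι → ℝ) → ℝ) (t : ℝ) (z : ι → ℝ) : ℝ :=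
  ∫ y, f (mix (Real.sqrt t) (Real.sqrt (1 - t)) z y) ∂(gpi ι)

variable {f h : (ι → ℝ) → ℝ} {t : ℝ}

lemma int_pair1 (hf : Dom f) (h0 : 0 ≤ t) (h1 : t ≤ 1) :
    Integrable (fun q : (ι → ℝ) × (ι → ℝ) =>
      f (mix (Real.sqrt t) (Real.sqrt (1 - t)) q.1 q.2)) ((gpi ι).prod (gpi ι)) :=
  (mp_mix (sqrt_sq_add h0 h1)).integrable_comp_of_integrable hf.integrable

lemma TT_int (hf : Dom f) (h0 : 0 ≤ t) (h1 : t ≤ 1) : Integrable (TT f t) (gpi ι) :=
  (int_pair1 hf h0 h1).integral_prod_left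

lemma TT_mean (hf : Dom f) (h0 : 0 ≤ t) (h1 : t ≤ 1) :
    ∫ z, TT f t z ∂(gpi ι) = ∫ z, f z ∂(gpi ι) := by
  rw [← int_mix (sqrt_sq_add h0 h1) hf.cont, integral_prod _ (int_pair1 hf h0 h1)]
  rfl

lemma TT_sq_int (hf : Dom f) (h0 : 0 ≤ t) (h1 : t ≤ 1) :
    Integrable (fun z => TT f t z ^ 2) (gpi ι) := by
  have h := (int_pair hf h0 h1).integral_prod_left
  refine h.congr (Eventually.of_forall fun z => ?_)
  simp only
  rw [integral_prod_mul (fun y => f (mix (Real.sqrt t) (Real.sqrt (1 - t)) z y))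
    (fun y => f (mix (Real.sqrt t) (Real.sqrt (1 - t)) z y))]
  exact (sq _).symm

lemma TT_dom (hf : Dom f) (h1 : t ≤ 1) (h0 : 0 ≤ t) (z : ι → ℝ) :
    Dom (fun y => f (mix (Real.sqrt t) (Real.sqrt (1 - t)) z y)) :=
  dom_fix hf (sqrt_abs_le h1) (sqrt_abs_le (by linarith)) z

lemma TT_sub (hf : Dom f) (hh : Dom h) (h0 : 0 ≤ t) (h1 : t ≤ 1) (z : ι → ℝ) :
    TT (fun y => f y - h y) t z = TT f t z - TT h t z :=
  int_sub (TT_dom hf h1 h0 z) (TT_dom hh h1 h0 z)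

/-- Jensen's inequality -/
lemma QQ_le (hf : Dom f) (h0 : 0 ≤ t) (h1 : t ≤ 1) : QQ f t ≤ ∫ z, f z ^ 2 ∂(gpi ι) := by
  have h2 : ∀ z, TT f t z ^ 2 ≤ TT (fun y => f y ^ 2) t z := by
    intro z
    have d1 := TT_dom hf h1 h0 z
    have h3 : 0 ≤ ∫ y, (f (mix (Real.sqrt t) (Real.sqrt (1 - t)) z y) - TT f t z) ^ 2
        ∂(gpi ι) := integral_nonneg fun y => sq_nonneg _
    have h4 : ∀ y, (f (mix (Real.sqrt t) (Real.sqrt (1 - t)) z y) - TT f t z) ^ 2 =
        f (mix (Real.sqrt t) (Real.sqrt (1 - t)) z y) ^ 2 +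
          ((-2 * TT f t z) * f (mix (Real.sqrt t) (Real.sqrt (1 - t)) z y) + TT f t z ^ 2) :=
      fun y => by ring
    simp_rw [h4] at h3
    rw [int_add (d1.pow 2) ((d1.const_mul _).add (Dom.const _)),
      int_add (d1.const_mul _) (Dom.const _), integral_const_mul] at h3
    have h5 : ∫ y, f (mix (Real.sqrt t) (Real.sqrt (1 - t)) z y) ∂(gpi ι) = TT f t z := rfl
    have h6 : ∫ y, f (mix (Real.sqrt t) (Real.sqrt (1 - t)) z y) ^ 2 ∂(gpi ι) =
        TT (fun y => f y ^ 2) t z := rfl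
    rw [h5, h6] at h3
    simp only [integral_const, probReal_univ, smul_eq_mul, one_mul] at h3
    nlinarith
  have h3 : QQ f t = ∫ z, TT f t z ^ 2 ∂(gpi ι) := rfl
  rw [h3, ← TT_mean (hf.pow 2) h0 h1]
  exact integral_mono (TT_sq_int hf h0 h1) (TT_int (hf.pow 2) h0 h1) h2

lemma TT_hp [DecidableEq ι] (h0 : 0 ≤ t) (h1 : t ≤ 1) (S : Finset (ι → ℕ)) (c : (ι → ℕ) → ℝ)
    (z : ι → ℝ) : TT (hp S c) t z = hp S (fun α => Real.sqrt t ^ (∑ i, α i) * c α) z := by
  unfold TT hp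
  rw [int_sum _ fun α _ => (TT_dom (H749.dom_heM α) h1 h0 z).const_mul _]
  refine Finset.sum_congr rfl fun α _ => ?_
  rw [integral_const_mul, H749.mehler (sqrt_sq_add h0 h1) z _ α le_rfl]
  ring

/-- the `L¹` norm is at most the `L²` norm -/
lemma l1_le {X : (ι → ℝ) → ℝ} (hX : Integrable X (gpi ι))
    (hX2 : Integrable (fun z => X z ^ 2) (gpi ι)) :
    ∫ z, |X z| ∂(gpi ι) ≤ Real.sqrt (∫ z, X z ^ 2 ∂(gpi ι)) := by
  obtain ⟨m, hm⟩ : ∃ m, m = ∫ z, |X z| ∂(gpi ι) := ⟨_, rfl⟩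
  rw [← hm]
  refine Real.le_sqrt_of_sq_le ?_
  have h1 : 0 ≤ ∫ z, (|X z| - m) ^ 2 ∂(gpi ι) := integral_nonneg fun z => sq_nonneg _
  have h2 : ∀ z, (|X z| - m) ^ 2 = X z ^ 2 + ((-2 * m) * |X z| + m ^ 2) := by
    intro z
    rw [← sq_abs (X z)]
    ring
  simp_rw [h2] at h1
  have i3 : Integrable (fun z => (-2 * m) * |X z| + m ^ 2) (gpi ι) :=
    (hX.abs.const_mul _).add (integrable_const _)
  rw [integral_add hX2 i3, integral_add (hX.abs.const_mul _) (integrable_const _),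
    integral_const_mul, ← hm] at h1
  simp only [integral_const, probReal_univ, smul_eq_mul, one_mul] at h1
  nlinarith

end gen

section fe

variable {n : ℕ} {β t : ℝ}

lemma hp_erase (M : ℕ) (w : ℕ → ℝ) (hw : w 0 = 1) (z : Pair n → ℝ) :
    hp (ML n (M + 1)) (cw n β w) z =
      ∫ g, freeEnergy n β g ∂(gpi (Pair n)) + hp ((ML n (M + 1)).erase 0) (cw n β w) z := by
  have h0 : (0 : MI n) ∈ ML n (M + 1) := by
    rw [mem_ML, tot_zero']
    omega
  unfold hp
  rw [← Finset.add_sum_erase _ _ h0]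
  congr 1
  unfold cw
  rw [tot_zero', hw, co_zero_idx]
  simp [heM, he_zero]

lemma sum_co_sq (M : ℕ) : ∑ α ∈ ML n (M + 1), co (freeEnergy n β) α ^ 2 /
    ∏ e, ((α e).factorial : ℝ) =
      (∫ g, freeEnergy n β g ∂(gpi (Pair n))) ^ 2 + levelVar n β (M + 1) := by
  have h0 : (0 : MI n) ∈ ML n (M + 1) := by
    rw [mem_ML, tot_zero']
    omega
  rw [← Finset.add_sum_erase _ _ h0]
  congr 1
  · rw [co_zero_idx]
    simp
  · unfold levelVar
    rw [levs_eq]
    exact Finset.sum_congr rfl fun α _ => (hcoef_sq n β α).symm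

/-- the remainder of the Hermite expansion -/
lemma int_rem_sq (hn : 1 ≤ n) (M : ℕ) :
    ∫ g, (freeEnergy n β g - hp (ML n (M + 1)) (cw n β fun _ => 1) g) ^ 2 ∂(gpi (Pair n)) =
      Var[freeEnergy n β; disorder n] - levelVar n β (M + 1) := by
  have dF := freeEnergy_dom n β
  have dp := dom_hp (ML n (M + 1)) (cw n β fun _ => 1)
  have h1 : ∀ g, (freeEnergy n β g - hp (ML n (M + 1)) (cw n β fun _ => 1) g) ^ 2 =
      freeEnergy n β g ^ 2 + ((-2) * (freeEnergy n β g *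
        hp (ML n (M + 1)) (cw n β fun _ => 1) g) +
        hp (ML n (M + 1)) (cw n β fun _ => 1) g ^ 2) := fun g => by ring
  simp_rw [h1]
  rw [int_add (dF.pow 2) (((dF.mul dp).const_mul _).add (dp.pow 2)),
    int_add ((dF.mul dp).const_mul _) (dp.pow 2), integral_const_mul, int_hp_sq]
  have h2 : ∫ g, freeEnergy n β g * hp (ML n (M + 1)) (cw n β fun _ => 1) g ∂(gpi (Pair n)) =
      ∑ α ∈ ML n (M + 1), co (freeEnergy n β) α ^ 2 / ∏ e, ((α e).factorial : ℝ) := by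
    have h3 : ∀ g, freeEnergy n β g * hp (ML n (M + 1)) (cw n β fun _ => 1) g =
        ∑ α ∈ ML n (M + 1), cw n β (fun _ => 1) α * (freeEnergy n β g * heM α g) := by
      intro g
      unfold hp
      rw [Finset.mul_sum]
      exact Finset.sum_congr rfl fun α _ => by ring
    simp_rw [h3]
    rw [int_sum _ fun α _ => (dF.mul (H749.dom_heM α)).const_mul _]
    refine Finset.sum_congr rfl fun α _ => ?_
    rw [integral_const_mul]
    have h4 : ∫ g, freeEnergy n β g * heM α g ∂(gpi (Pair n)) = co (freeEnergy n β) α := rfl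
    rw [h4]
    unfold cw
    ring
  have h5 : ∑ α ∈ ML n (M + 1), cw n β (fun _ => 1) α ^ 2 * ∏ i, ((α i).factorial : ℝ) =
      ∑ α ∈ ML n (M + 1), co (freeEnergy n β) α ^ 2 / ∏ e, ((α e).factorial : ℝ) := by
    refine Finset.sum_congr rfl fun α _ => ?_
    unfold cw
    have : (∏ e, ((α e).factorial : ℝ)) ≠ 0 := by positivity
    field_simp
  rw [h2, h5, sum_co_sq, ← crossCov_one n β hn, crossCov_QQ, H432.QQ_one']
  ring

/-- **The approximation of the smoothed free energy.** -/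
theorem smooth_approx (hn : 1 ≤ n) (h0 : 0 ≤ t) (h1 : t ≤ 1) (M : ℕ) :
    ∫ z, (TT (freeEnergy n β) t z - ∫ g, freeEnergy n β g ∂(gpi (Pair n)) -
      hp ((ML n (M + 1)).erase 0) (cw n β fun k => Real.sqrt t ^ k) z) ^ 2 ∂(gpi (Pair n)) ≤
      β ^ 2 * n / (2 * ((M : ℝ) + 2)) := by
  have dF := freeEnergy_dom n β
  have dp := dom_hp (ML n (M + 1)) (cw n β fun _ => 1)
  have h2 : ∀ z, TT (fun g => freeEnergy n β g - hp (ML n (M + 1)) (cw n β fun _ => 1) g) t z =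
      TT (freeEnergy n β) t z - ∫ g, freeEnergy n β g ∂(gpi (Pair n)) -
        hp ((ML n (M + 1)).erase 0) (cw n β fun k => Real.sqrt t ^ k) z := by
    intro z
    rw [TT_sub dF dp h0 h1, TT_hp h0 h1, sub_sub]
    congr 1
    rw [← hp_erase M (fun k => Real.sqrt t ^ k) (pow_zero _)]
    unfold hp
    refine Finset.sum_congr rfl fun α _ => ?_
    congr 1
    unfold cw
    have h5 : (∑ i, α i) = H453.tot α := rfl
    simp only [h5]
    ring
  simp_rw [← h2]
  have h3 : ∫ z, TT (fun g => freeEnergy n β g - hp (ML n (M + 1)) (cw n β fun _ => 1) g) t z ^ 2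
      ∂(gpi (Pair n)) =
      QQ (fun g => freeEnergy n β g - hp (ML n (M + 1)) (cw n β fun _ => 1) g) t := rfl
  rw [h3]
  refine (QQ_le (dF.sub dp) h0 h1).trans ?_
  rw [int_rem_sq hn]
  have h4 := var_sub_levelVar n β hn (M + 1) (by omega)
  refine h4.trans (le_of_eq ?_)
  push_cast
  congr 1
  ring

end fe

end Vale.Agent.P146.R3.H732
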